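import Vale.Agent.P146.Spec

/-! P146: concentration of the overlap with an explicit constant. -/

namespace Vale.Agent.P146

open MeasureTheory ProbabilityTheory Finset Real Filter
open Vale.Agent.P157

namespace CN

open Con in
theorem con : ∃ C : ℝ, 0 ≤ C ∧ ∀ n : ℕ, 1 ≤ n → ∀ (I ι : Type) [Fintype I] [DecidableEq I]
    [Fintype ι] [DecidableEq ι] (f : ℝ → ℝ) (L : Sy ι I) (A : Finset I) (lam k : ℝ) (y : ℕ → ℝ),
    A.Nonempty → 0 < lam → 3 * lam ≤ 1 → 0 ≤ k → Mx n f L A lam k y →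
    Conc n f (L + fld ι A (ys n y)) A (ovl n f (L + fld ι A (ys n y)) A)
      (4 / √(n : ℝ) + 40 * (n : ℝ) ^ 2 * (3 * C + √(2 * n)) * (lam + √k / (lam * A.card))) := by
  obtain ⟨C, hC0, hC⟩ := ggStmt aApi hF hRec
  refine ⟨C, hC0, fun n hn => ?_⟩
  intro I ι _ _ _ _ f L A lam k y hAn hlam hlam3 hk hM
  obtain ⟨ho, hf, hy⟩ := hRec I ι n f L A hn
  have hc : (0 : ℝ) < A.card := by exact_mod_cast hAn.card_pos
  have hn' : (0 : ℝ) < n := by exact_mod_cast hn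
  set ε : ℝ := C * (3 * lam) + √(2 * n) * (√k / (lam * A.card)) with hε
  have hε1 : 0 ≤ √(2 * n) * (√k / (lam * A.card)) := by positivity
  have hε2 : 0 ≤ C * (3 * lam) := by positivity
  have hG := ggi_mono (ε' := ε) (by linarith) (hC I ι n f L A y (3 * lam) hn hAn hlam3
    (fun κ hκ => ⟨hlam.trans_le (hM.1 κ hκ).1, (hM.1 κ hκ).2⟩))
  have hV : ∀ κ, κ < n → Ce (rch L) (ex n) (rZ n f A y) 0 (n + 1)
      (fun ω => (hh A κ ω / (y κ * A.card) - Ce (rch L) (ex n) (rZ n f A y) 0 (n + 1)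
        (fun ω => hh A κ ω / (y κ * A.card)) (r0 ι I)) ^ 2) (r0 ι I) ≤ ε ^ 2 := by
    intro κ hκ
    rw [var_eq (Aa.ce ho _ 0 _ le_rfl)]
    have h1 := vv_le hL1 ho (rZ n f A y) (hh A κ) (r0 ι I) (k := k) hc (hh_le A κ) (fun u => by
      have a1 := hM.2 (Function.update y κ (y κ + u))
      have a2 := hM.2 (Function.update y κ (y κ + -u))
      rw [(hy _).1, (hy _).1, rZ_upd n f A y hκ, pen_upd n lam k y hκ] at a1 a2
      nlinarith)
    have h2 := vv_ge ho (rZ n f A y) (hh A κ) (r0 ι I)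
    have h3 : ex n n = 1 / (n : ℝ) := by
      obtain ⟨j, rfl⟩ : ∃ j, n = j + 1 := ⟨n - 1, by omega⟩
      simp only [ex]; push_cast; field_simp; ring
    rw [h3, one_div, inv_mul_le_iff₀ hn'] at h2
    have hyκ := (hM.1 κ hκ).1
    have h4 : (√(2 * n) * (√k / (lam * A.card))) ^ 2 = n * (2 * k) / (lam * A.card) ^ 2 := by
      rw [mul_pow, div_pow, sq_sqrt (by positivity), sq_sqrt hk]; ring
    have h5 : (√(2 * n) * (√k / (lam * A.card))) ^ 2 ≤ ε ^ 2 :=
      pow_le_pow_left₀ hε1 (by linarith) 2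
    refine le_trans ?_ h5
    rw [h4]
    refine div_le_div₀ (by positivity) (h2.trans (by gcongr)) (by positivity) ?_
    gcongr
  have hA := algStmt aApi hF (Rs ι I) I (rch L) rr n hn ho hf (rZ n f A y) (fun i ω => spin (ω.2.2 i)) A
    (fun κ ω => hh A κ ω / (y κ * A.card)) (r0 ι I) ε hAn
    (fun i ω => by cases ω.2.2 i <;> simp [spin]) (by linarith) hG hV
  unfold Conc
  have e1 : ∀ d ∈ Ico 1 n, EE n (gg ι f) (L + fld ι A (ys n y)) d
      (fun ω ω' => (Rr A ω.2 ω'.2 - ovl n f (L + fld ι A (ys n y)) A d) ^ 2) =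
      E2 (rch L) (ex n) (rZ n f A y) (d + 1) (n + 1)
      (fun ω1 ω2 => (aR (fun i (ω : Rs ι I) => spin (ω.2.2 i)) A ω1 ω2 -
        E2 (rch L) (ex n) (rZ n f A y) (d + 1) (n + 1)
          (aR (fun i (ω : Rs ι I) => spin (ω.2.2 i)) A) (r0 ι I)) ^ 2) (r0 ι I) := by
    intro d hd
    obtain ⟨h1, h2⟩ := mem_Ico.1 hd
    have h0 : d ≠ 0 := by omega
    have b1 := (hy y).2 (Rr A) d h2.le
    simp only [ovl, h0, h2, if_true, if_false]
    rw [b1]
    exact (hy y).2 (fun σ σ' => (Rr A σ σ' - _) ^ 2) d h2.le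
  rw [sum_congr rfl e1]
  refine hA.trans ?_
  have h6 : ε ≤ (3 * C + √(2 * n)) * (lam + √k / (lam * A.card)) := by
    have : 0 ≤ √k / (lam * A.card) := by positivity
    have : 0 ≤ √(2 * (n : ℝ)) := by positivity
    rw [hε]
    nlinarith [mul_nonneg hC0 ‹0 ≤ √k / (lam * A.card)›, mul_nonneg this hlam.le]
  have h7 := mul_le_mul_of_nonneg_left h6 (show 0 ≤ 40 * (n : ℝ) ^ 2 by positivity)
  linarith [mul_assoc (40 * (n : ℝ) ^ 2) (3 * C + √(2 * n)) (lam + √k / (lam * A.card))]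

end CN

theorem stmtCN : StmtCN := by
  obtain ⟨C, hC0, hC⟩ := CN.con
  refine ⟨40 * (3 * C + 2), by positivity, fun n N lam hn hN hlam hlam3 L y hM => ?_⟩
  have hne : (univ : Finset (Fin N)).Nonempty := ⟨⟨0, hN⟩, mem_univ _⟩
  have h := hC n hn (Fin N) Empty f0 L univ lam (N / lam) y hne hlam hlam3 (by positivity) hM
  rw [card_univ, Fintype.card_fin] at h
  refine le_trans h ?_
  have hn' : (1 : ℝ) ≤ n := by exact_mod_cast hn
  have h1 : √(2 * (n : ℝ)) ≤ 2 * n := by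
    rw [sqrt_le_left (by positivity)]
    nlinarith
  have h2 : 3 * C + √(2 * (n : ℝ)) ≤ (3 * C + 2) * n := by nlinarith
  have h3 : 40 * (n : ℝ) ^ 2 * (3 * C + √(2 * n)) ≤ 40 * (3 * C + 2) * n ^ 3 := by
    have := mul_le_mul_of_nonneg_left h2 (show 0 ≤ 40 * (n : ℝ) ^ 2 by positivity)
    linarith
  have h4 : 0 ≤ lam + √(N / lam) / (lam * N) := by positivity
  have := mul_le_mul_of_nonneg_right h3 h4
  linarith

end Vale.Agent.P146
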