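import Vale.Agent.P146.CV1

/-! P146: spin cavity for the pair couplings. -/

namespace Vale.Agent.P146

open MeasureTheory ProbabilityTheory Finset Real Filter
open Vale.Agent.P157

noncomputable section

namespace CV

variable {N : ℕ}

lemma small_add {n : ℕ} {L L' : Sy Empty (Fin N)} (h : Small n 1 L) (h' : Small n 1 L') :
    Small n 1 (L + L') := fun s hs => (Multiset.mem_add.1 hs).elim (h s) (h' s)

lemma small_nsmul {n : ℕ} {L : Sy Empty (Fin N)} (D : ℕ) (h : Small n 1 L) : Small n 1 (D • L) :=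
  fun s hs => h s (Multiset.mem_of_mem_nsmul hs)

lemma ind_add {τ : Fin N} {L L' : Sy Empty (Fin N)} (h : Ind τ L) (h' : Ind τ L') :
    Ind τ (L + L') := fun s hs => (Multiset.mem_add.1 hs).elim (h s) (h' s)

lemma ind_nsmul {τ : Fin N} {L : Sy Empty (Fin N)} (D : ℕ) (h : Ind τ L) : Ind τ (D • L) :=
  fun s hs => h s (Multiset.mem_of_mem_nsmul hs)

lemma vr_add (L L' : Sy Empty (Fin N)) : vr (L + L') = vr L + vr L' := (hG.vr_add L L' 0).1

lemma vr_nsmul (L : Sy Empty (Fin N)) (D : ℕ) : vr (D • L) = D * vr L := (hG.vr_add L L D).2.1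

lemma vr_nn (L : Sy Empty (Fin N)) : 0 ≤ vr L := (hG.vr_add L L 0).2.2.2

/-- concentration passes between a system and its small extensions -/
lemma conc_gra : ∃ C : ℝ, 0 ≤ C ∧ ∀ (N n : ℕ) (L L' : Sy Empty (Fin N)) (P : ℕ → ℝ) (e b : ℝ),
    1 ≤ n → Small n 1 L' → vr L' ≤ b →
    (Conc n f0 L univ P e → Conc n f0 (L + L') univ P (exp (C * b) * e)) ∧
      (Conc n f0 (L + L') univ P e → Conc n f0 L univ P (exp (C * b) * e)) := by
  obtain ⟨C, hC0, hC⟩ := hGra 1 le_rfl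
  refine ⟨C, hC0, fun N n L L' P e b hn hs hv => ?_⟩
  have hx : exp (C * vr L') ≤ exp (C * b) := exp_le_exp.2 (mul_le_mul_of_nonneg_left hv hC0)
  have h := fun d (hd : d ∈ Ico 1 n) => hC _ _ n (gg Empty f0) L L'
    (fun σ σ' => (Rr univ σ σ' - P d) ^ 2) d hn (mem_Ico.1 hd).2.le (fun o => (smg o).d0) hs
    (fun _ _ => sq_nonneg _)
  have hp : ∀ (M : Sy Empty (Fin N)), ∀ d ∈ Ico 1 n,
      0 ≤ EE n (gg Empty f0) M d (fun ω ω' => (Rr univ ω.2 ω'.2 - P d) ^ 2) := by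
    intro M d hd
    have h1 : d + 1 ≤ n + 1 := by have := (mem_Ico.1 hd).2; omega
    have h2 := aApi.e2mono (cApi.ok n M hn) (ZZ (gg Empty f0)) (d + 1) h1
      (φ := fun _ _ => 0) (ψ := fun ω ω' => (Rr univ ω.2 ω'.2 - P d) ^ 2)
      (fun _ _ => sq_nonneg _) (0, default)
    rwa [aApi.e2const (cApi.ok n M hn) _ _ h1] at h2
  constructor <;> intro hc <;> unfold Conc at hc ⊢ <;>
    refine le_trans ?_ (mul_le_mul_of_nonneg_left hc (exp_pos _).le) <;> rw [mul_left_comm] <;>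
    refine mul_le_mul_of_nonneg_left ?_ (by positivity) <;> rw [mul_sum] <;>
    refine sum_le_sum fun d hd => ?_
  · exact (h d hd).1.trans (mul_le_mul_of_nonneg_right hx (hp _ d hd))
  · exact (h d hd).2.trans (mul_le_mul_of_nonneg_right hx (hp _ d hd))

/-- the scalar profile on the spin `τ` -/
def lq (τ : Fin N) (n k : ℕ) (P : ℕ → ℝ) (c : ℝ) : Sy Empty (Fin N) :=
  lift none (sp τ) (sprof n (trunc k P) (N * c ^ 2))

lemma lp_ok (τ : Fin N) {n k : ℕ} {P : ℕ → ℝ} {c : ℝ} (hk : k < n) (hP : Path n P) (h0 : P 0 = 1)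
    (hv : N * c ^ 2 ≤ 1) : Small n 1 (lq τ n k P c) ∧ vr (lq τ n k P c) = N * c ^ 2 := by
  have hv0 : (0 : ℝ) ≤ N * c ^ 2 := by positivity
  have h := hG.sprof_var n (trunc k P) (N * c ^ 2) (trunc_path hP hk) hv0
  have h1 : trunc k P 0 = 1 := by simp [trunc, h0]
  rw [h1, mul_one] at h
  refine ⟨hG.lift_small n 1 none (sp τ) _ (sp_sq τ) fun s hs => ⟨(h.2.2 s hs).1, ?_⟩,
    (hG.lift_vr none (sp τ) _ (sp_sq τ)).1.trans h.1⟩
  rw [one_mul]
  exact (h.2.2 s hs).2.trans (sqrt_le_one.2 hv)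

lemma swap : ∃ C : ℝ, 0 ≤ C ∧ ∀ (N n k : ℕ) (τ : Fin N) (c e b : ℝ) (L : Sy Empty (Fin N))
    (P : ℕ → ℝ), k < n → N * c ^ 2 ≤ 1 → Path n P → P 0 = 1 →
    (∀ M, Small n 1 M → vr M ≤ b → Conc n f0 (L + M) univ P e) →
    ∀ (D : ℕ) (M : Sy Empty (Fin N)), Small n 1 M → vr M + D * (N * c ^ 2) ≤ b →
      |TT n (gg Empty f0) (L + M + D • skt τ k c) - TT n (gg Empty f0) (L + M + D • lq τ n k P c)| ≤
        D * (N * c ^ 2) * (√e + 1 / N + C * √(N * c ^ 2)) := by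
  obtain ⟨C, hC0, hC⟩ := hMs 1 le_rfl
  refine ⟨2 * C, by positivity, fun N n k τ c e b L P hk hv1 hP h0 hc => ?_⟩
  have hn : 1 ≤ n := by omega
  have hN : (1 : ℝ) ≤ N := by exact_mod_cast Fin.pos τ
  have hc1 : |c| ≤ 1 := by
    rw [← sq_le_one_iff_abs_le_one]; nlinarith [sq_nonneg c]
  have hl := lp_ok τ hk hP h0 hv1
  have hs := skt_small τ hk hc1
  have hw := skt_vr τ k c
  set v : ℝ := N * c ^ 2 with hv
  have hv0 : 0 ≤ v := by positivity
  have one : ∀ M, Small n 1 M → vr M ≤ b →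
      |TT n (gg Empty f0) (L + M + skt τ k c) - TT n (gg Empty f0) (L + M + lq τ n k P c)| ≤
        v * (√e + 1 / N + 2 * C * √v) := by
    intro M hM hb
    have h1 := (hC _ _ n _ _ _ (L + M) _ hn smg hs).2 (hw.trans hv1)
    have h2 := (hC _ _ n _ _ _ (L + M) _ hn smg hl.1).2 (hl.2.le.trans hv1)
    have h3 := gam_diff hk τ c (L + M) hP h0 (hc M hM hb)
    have h4 : C * (vr (skt τ k c) * √(vr (skt τ k c))) ≤ C * (v * √v) :=
      mul_le_mul_of_nonneg_left (mul_le_mul hw (sqrt_le_sqrt hw) (sqrt_nonneg _) hv0) hC0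
    rw [hl.2] at h2
    change |_ - (Multiset.map _ (lq τ n k P c)).sum| ≤ v * _ at h3
    have h5 := h1.trans h4
    rw [abs_le] at h5 h2 h3 ⊢
    constructor <;> nlinarith [h5.1, h5.2, h2.1, h2.2, h3.1, h3.2]
  intro D
  induction D with
  | zero => intro M _ _; simp
  | succ D ih =>
    intro M hM hb
    push_cast at hb
    have h1 := ih (M + skt τ k c) (small_add hM hs) (by rw [vr_add]; linarith)
    have h2 := one (M + D • lq τ n k P c) (small_add hM (small_nsmul D hl.1)) (by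
      rw [vr_add, vr_nsmul, hl.2]; linarith)
    have e1 : L + M + (D + 1) • skt τ k c = L + (M + skt τ k c) + D • skt τ k c := by
      rw [succ_nsmul]; abel
    have e2 : L + M + (D + 1) • lq τ n k P c = L + (M + D • lq τ n k P c) + lq τ n k P c := by
      rw [succ_nsmul]; abel
    have e3 : L + (M + skt τ k c) + D • lq τ n k P c =
        L + (M + D • lq τ n k P c) + skt τ k c := by abel
    rw [e3] at h1
    rw [e1, e2]
    refine le_trans (abs_sub_le _ _ _) (le_trans (add_le_add h1 h2) (le_of_eq ?_))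
    push_cast; ring

lemma ys_ok {n : ℕ} {y : ℕ → ℝ} {Y : ℝ} (τ : Fin N) (hn : 1 ≤ n) (hy : ∀ d, d < n → |y d| ≤ Y)
    (hY : n * Y ^ 2 ≤ 1) : Small n 1 (lift (none : Option Empty) (sp τ) (ys n y)) ∧
      vr (lift (none : Option Empty) (sp τ) (ys n y)) ≤ n * Y ^ 2 := by
  have hn' : (1 : ℝ) ≤ n := by exact_mod_cast hn
  have hY0 : 0 ≤ Y := (abs_nonneg _).trans (hy 0 hn)
  have hY1 : Y ≤ 1 := by
    rw [← sq_le_one_iff₀ hY0]; nlinarith [sq_nonneg Y]
  constructor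
  · refine hG.lift_small n 1 none (sp τ) _ (sp_sq τ) fun s hs => ?_
    obtain ⟨d, hd, rfl⟩ := Multiset.mem_map.1 hs
    have hd' := mem_range.1 (Finset.mem_def.2 hd)
    exact ⟨hd', by rw [one_mul]; exact (hy d hd').trans hY1⟩
  · rw [(hG.lift_vr none (sp τ) _ (sp_sq τ)).1]
    have h1 : ((ys n y).map (fun s => s.2 ^ 2)).sum = ∑ d ∈ range n, y d ^ 2 := by
      unfold ys; rw [Multiset.map_map]; rfl
    rw [h1]
    refine (sum_le_card_nsmul _ _ (Y ^ 2) fun d hd => ?_).trans (by simp)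
    rw [← sq_abs]
    exact pow_le_pow_left₀ (abs_nonneg _) (hy d (mem_range.1 hd)) 2

end CV

open CV in
theorem stmtCV : StmtCV := by
  intro β
  obtain ⟨Cg, hCg, hg⟩ := conc_gra
  obtain ⟨Cs, hCs, hs⟩ := swap
  obtain ⟨Cm, hCm, hm⟩ := hMs 1 le_rfl
  set K : ℝ := exp (Cg * (β ^ 2 + 1)) with hK
  have hK0 : 0 ≤ K := (exp_pos _).le
  refine ⟨β ^ 2 * (K + 1 + Cs) + Cm, by positivity, ?_⟩
  intro n N κ D1 D2 c Y e y P τ hκ hD hv1 hy hY hP h0 hc
  have hn : 1 ≤ n := by omega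
  have hn1 : n - 1 < n := by omega
  have hN : (1 : ℝ) ≤ N := by exact_mod_cast Fin.pos τ
  have hc1 : |c| ≤ 1 := by
    rw [← sq_le_one_iff_abs_le_one]; nlinarith [sq_nonneg c]
  have hys := ys_ok τ hn hy hY
  set L : Sy Empty (Fin N) := D1 • sko τ (n - 1) c + D2 • sko τ κ c +
    fld Empty (univ.erase τ) (ys n y) with hL
  have hind : Ind τ L := ind_add (ind_add (ind_nsmul _ (sko_ind τ _ c)) (ind_nsmul _ (sko_ind τ _ c)))
    (fld_ind τ _)
  have hsk : sk n N κ D1 D2 c y = L + (D1 • skt τ (n - 1) c + D2 • skt τ κ c +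
      lift none (sp τ) (ys n y)) := by
    rw [hL, sk, skr_eq τ, skr_eq τ, fld_eq τ, nsmul_add, nsmul_add]; abel
  have w1 := mul_le_mul_of_nonneg_left (skt_vr τ (n - 1) c) (Nat.cast_nonneg (α := ℝ) D1)
  have w2 := mul_le_mul_of_nonneg_left (skt_vr τ κ c) (Nat.cast_nonneg (α := ℝ) D2)
  set v : ℝ := N * c ^ 2 with hv
  have hv0 : 0 ≤ v := by positivity
  have c0 : Conc n f0 L univ P (K * e) := by
    rw [hsk] at hc
    refine (hg N n L _ P e (β ^ 2 + 1) hn (small_add (small_add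
      (small_nsmul _ (skt_small τ hn1 hc1)) (small_nsmul _ (skt_small τ hκ hc1))) hys.1) ?_).2 hc
    rw [vr_add, vr_add, vr_nsmul, vr_nsmul]
    linarith [hys.2]
  have c1 : ∀ M, Small n 1 M → vr M ≤ β ^ 2 + 1 → Conc n f0 (L + M) univ P (K * (K * e)) :=
    fun M hM hb => (hg N n L M P _ _ hn hM hb).1 c0
  refine ⟨TT n (gg Empty f0) L, fun X hX hX1 => ?_⟩
  have hXs : Small n 1 (lift (none : Option Empty) (sp τ) X) :=
    hG.lift_small n 1 none (sp τ) _ (sp_sq τ) fun s hs => ⟨(hX s hs).1, by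
      rw [one_mul]; exact (hX s hs).2⟩
  have hXv : vr (lift (none : Option Empty) (sp τ) X) ≤ 1 :=
    (hG.lift_vr none (sp τ) _ (sp_sq τ)).1.le.trans hX1
  have hl1 := lp_ok τ hn1 hP h0 hv1
  have s0 := (hm _ _ n _ _ _ (L + (lift none (sp τ) X + D2 • skt τ κ c) + D1 • skt τ (n - 1) c) _
    hn smg hys.1).1
  have s1 := hs N n (n - 1) τ c _ _ L P hn1 hv1 hP h0 c1 D1 (lift none (sp τ) X + D2 • skt τ κ c)
    (small_add hXs (small_nsmul _ (skt_small τ hκ hc1))) (by rw [vr_add, vr_nsmul]; linarith)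
  have s2 := hs N n κ τ c _ _ L P hκ hv1 hP h0 c1 D2 (lift none (sp τ) X + D1 • lq τ n (n - 1) P c)
    (small_add hXs (small_nsmul _ hl1.1)) (by rw [vr_add, vr_nsmul, hl1.2]; linarith)
  have s3 := (hP2 (Fin N) Empty n f0 L τ (X + (D1 • sprof n (trunc (n - 1) P) v +
    D2 • sprof n (trunc κ P) v)) hn hind).1
  have e0 : sk n N κ D1 D2 c y + lift none (sp τ) X =
      L + (lift none (sp τ) X + D2 • skt τ κ c) + D1 • skt τ (n - 1) c +
        lift none (sp τ) (ys n y) := by rw [hsk]; abel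
  have e1 : L + (lift none (sp τ) X + D2 • skt τ κ c) + D1 • lq τ n (n - 1) P c =
      L + (lift none (sp τ) X + D1 • lq τ n (n - 1) P c) + D2 • skt τ κ c := by abel
  have e2 : L + lift none (sp τ) (X + (D1 • sprof n (trunc (n - 1) P) v +
      D2 • sprof n (trunc κ P) v)) =
      L + (lift none (sp τ) X + D1 • lq τ n (n - 1) P c) + D2 • lq τ n κ P c := by
    simp only [lq, lift, Multiset.map_add, Multiset.map_nsmul, ← hv]; abel
  rw [e1] at s1
  rw [e2] at s3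
  rw [e0]
  have q1 : √(K * (K * e)) = K * √e := by
    rw [← mul_assoc, sqrt_mul (mul_self_nonneg K), sqrt_mul_self hK0]
  rw [q1, ← hv] at s1 s2
  have q2 : 0 ≤ √e := sqrt_nonneg _
  have q3 : 0 ≤ √v := sqrt_nonneg _
  have q4 : 0 ≤ 1 / (N : ℝ) := by positivity
  have q5 : 0 ≤ (n : ℝ) * Y ^ 2 := by positivity
  set S : ℝ := √e + 1 / N + √v + n * Y ^ 2 with hS
  have q6 : K * √e + 1 / N + Cs * √v ≤ (K + 1 + Cs) * S := by
    have a1 : K * √e ≤ K * S := mul_le_mul_of_nonneg_left (by linarith) hK0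
    have a2 : Cs * √v ≤ Cs * S := mul_le_mul_of_nonneg_left (by linarith) hCs
    linarith
  have q7 : ((D1 : ℝ) + D2) * v * (K * √e + 1 / N + Cs * √v) ≤ β ^ 2 * ((K + 1 + Cs) * S) :=
    mul_le_mul hD q6 (by positivity) (sq_nonneg β)
  have q8 : Cm * vr (lift (none : Option Empty) (sp τ) (ys n y)) ≤ Cm * S :=
    mul_le_mul_of_nonneg_left (by linarith [hys.2]) hCm
  rw [abs_le] at s0 s1 s2 ⊢
  constructor <;> linarith [s0.1, s0.2, s1.1, s1.2, s2.1, s2.2]

end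

end Vale.Agent.P146
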