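import Vale.Agent.P146.Spec

/-! P146: the couplings of one spin. -/

namespace Vale.Agent.P146

open MeasureTheory ProbabilityTheory Finset Real Filter
open Vale.Agent.P157

noncomputable section

namespace CV

variable {N : ℕ}

/-- the pairs containing `τ` -/
def pt (τ : Fin N) : Finset (Pr N) := univ.filter (fun p => p.1.1 = τ ∨ p.1.2 = τ)

def skt (τ : Fin N) (κ : ℕ) (c : ℝ) : Sy Empty (Fin N) :=
  (pt τ).val.map (fun p => (κ, none, c • pw p))

def sko (τ : Fin N) (κ : ℕ) (c : ℝ) : Sy Empty (Fin N) :=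
  (univ.filter (fun p : Pr N => ¬(p.1.1 = τ ∨ p.1.2 = τ))).val.map (fun p => (κ, none, c • pw p))

lemma skr_eq (τ : Fin N) (κ : ℕ) (c : ℝ) : skr N κ c = sko τ κ c + skt τ κ c := by
  unfold skr sko skt pt
  rw [← Multiset.map_add, Finset.filter_val, Finset.filter_val, add_comm, Multiset.filter_add_not]

lemma pair_sum (τ : Fin N) (F : Fin N → ℝ) :
    ∑ p ∈ pt τ, F p.1.1 * F p.1.2 = F τ * ∑ i, F i - F τ * F τ := by
  unfold pt
  rw [sum_filter]
  have h1 : ∑ p : Pr N, (if p.1.1 = τ ∨ p.1.2 = τ then F p.1.1 * F p.1.2 else 0) =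
      ∑ q ∈ univ.filter (fun q : Fin N × Fin N => q.1 < q.2),
        (if q.1 = τ ∨ q.2 = τ then F q.1 * F q.2 else 0) :=
    (Finset.sum_subtype _ (by simp)
      (fun q : Fin N × Fin N => if q.1 = τ ∨ q.2 = τ then F q.1 * F q.2 else 0)).symm
  rw [h1, sum_filter, Fintype.sum_prod_type]
  have h2 : ∀ i j : Fin N, (if i < j then if i = τ ∨ j = τ then F i * F j else 0 else 0) =
      (if i = τ then (if τ < j then F τ * F j else 0) else 0) +
        (if j = τ then (if i < τ then F τ * F i else 0) else 0) := by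
    intro i j
    by_cases hi : i = τ <;> by_cases hj : j = τ
    · simp [hi, hj]
    · simp [hi, hj]
    · simp [hi, hj, mul_comm]
    · simp [hi, hj]
  simp only [h2, sum_add_distrib]
  rw [sum_comm]
  simp only [sum_ite_eq', mem_univ, if_true]
  have h3 : F τ * F τ = ∑ j, if j = τ then F τ * F j else 0 := by simp
  rw [h3, mul_sum, ← sum_sub_distrib, ← sum_add_distrib]
  refine sum_congr rfl fun j _ => ?_
  rcases lt_trichotomy j τ with h | h | h
  · simp [h, h.ne, h.le.not_gt]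
  · simp [h]
  · simp [h, h.ne', h.le.not_gt]

lemma card_pt (τ : Fin N) : ((pt τ).card : ℝ) = N - 1 := by
  simpa using pair_sum τ (fun _ => 1)

lemma sp_sq {I : Type} (i : I) (σ : I → Bool) : sp i σ ^ 2 = 1 := by
  unfold sp spin; split_ifs <;> norm_num

lemma pw_sq (p : Pr N) (σ : Fin N → Bool) : pw p σ ^ 2 = 1 := by
  simp only [pw, Pi.mul_apply, mul_pow, sp_sq, mul_one]

lemma norm_le (p : Pr N) (c : ℝ) : ‖c • pw p‖ ≤ |c| := by
  refine (pi_norm_le_iff_of_nonneg (abs_nonneg c)).2 fun σ => ?_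
  have : |pw p σ| = 1 := by
    have h := pw_sq p σ
    rw [← sq_abs] at h
    exact (pow_eq_one_iff_of_nonneg (abs_nonneg _) two_ne_zero).1 h
  rw [Pi.smul_apply, smul_eq_mul, Real.norm_eq_abs, abs_mul, this, mul_one]

lemma skt_small (τ : Fin N) {n κ : ℕ} {c : ℝ} (hκ : κ < n) (hc : |c| ≤ 1) :
    Small n 1 (skt τ κ c) := by
  intro s hs
  obtain ⟨p, -, rfl⟩ := Multiset.mem_map.1 hs
  exact ⟨hκ, by rw [one_mul]; exact (norm_le p c).trans hc⟩

lemma skt_vr (τ : Fin N) (κ : ℕ) (c : ℝ) : vr (skt τ κ c) ≤ N * c ^ 2 := by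
  have h1 : vr (skt τ κ c) = ∑ p ∈ pt τ, ‖c • pw p‖ ^ 2 := by
    unfold vr skt; rw [Multiset.map_map]; rfl
  rw [h1]
  refine (sum_le_card_nsmul _ _ (c ^ 2) fun p _ => ?_).trans ?_
  · rw [← sq_abs c]; exact pow_le_pow_left₀ (norm_nonneg _) (norm_le p c) 2
  · rw [nsmul_eq_mul, card_pt]; nlinarith [sq_nonneg c]

lemma sko_ind (τ : Fin N) (κ : ℕ) (c : ℝ) : Ind τ (sko τ κ c) := by
  intro s hs σ b
  obtain ⟨p, hp, rfl⟩ := Multiset.mem_map.1 hs
  have hp' := not_or.1 (mem_filter.1 (Finset.mem_def.2 hp)).2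
  simp only [Pi.smul_apply, pw, Pi.mul_apply, sp, Function.update_of_ne hp'.1,
    Function.update_of_ne hp'.2]

lemma fld_ind (τ : Fin N) (l : Multiset (ℕ × ℝ)) : Ind τ (fld Empty (univ.erase τ) l) := by
  intro s hs σ b
  obtain ⟨i, hi, hs⟩ := Multiset.mem_bind.1 hs
  obtain ⟨x, -, rfl⟩ := Multiset.mem_map.1 hs
  have hi' := ne_of_mem_erase (Finset.mem_def.2 hi)
  simp only [Pi.smul_apply, sp, Function.update_of_ne hi']

lemma fld_eq (τ : Fin N) (l : Multiset (ℕ × ℝ)) :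
    fld Empty univ l = fld Empty (univ.erase τ) l + lift none (sp τ) l := by
  unfold fld
  conv_lhs => rw [← insert_erase (mem_univ τ), insert_val_of_notMem (notMem_erase τ univ),
    Multiset.cons_bind]
  rw [add_comm]

lemma sm0 : Sm 1 f0 f0 f0 := by
  have h : D2 1 f0 := fun t h => by simp [f0]; positivity
  exact ⟨h, h, h, fun t => by simp [f0], fun t => by simp [f0], fun t h => by simp [f0]⟩

lemma smg : ∀ o, Sm 1 (gg Empty f0 o) (gg1 Empty f0 o) (gg2 Empty f0 o) :=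
  cApi.smg Empty 1 f0 f0 f0 le_rfl sm0

lemma path_nn {n : ℕ} {P : ℕ → ℝ} (hP : Path n P) (d : ℕ) (hd : d ≤ n) : 0 ≤ P d := by
  induction hd using Nat.decreasingInduction with
  | self => exact hP.2.ge
  | of_succ k hk ih => exact ih.trans (hP.1 k hk)

lemma trunc_path {n k : ℕ} {P : ℕ → ℝ} (hP : Path n P) (hk : k < n) : Path n (trunc k P) := by
  refine ⟨fun d hd => ?_, by simp [trunc, hk.not_ge]⟩
  unfold trunc
  split_ifs with h1 h2 h2
  · exact hP.1 d hd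
  · omega
  · exact path_nn hP d hd.le
  · exact le_rfl

lemma e1_one {n : ℕ} (hn : 1 ≤ n) (L : Sy Empty (Fin N)) :
    E1 n (gg Empty f0) L (ob (fun t => gg2 Empty f0 none t + gg1 Empty f0 none t ^ 2) none
      (fun _ => 1)) = 1 := by
  have h : (ob (fun t => gg2 Empty f0 none t + gg1 Empty f0 none t ^ 2) none (fun _ => 1) :
      Om (Option Empty) (Fin N → Bool) → ℝ) = fun _ => 1 := by
    funext ω; simp [ob, gg1, gg2]
  rw [h]
  exact aApi.const (aApi.ce (cApi.ok n L hn) _ 0 _ le_rfl) 1 _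

lemma ob_eq (w : (Fin N → Bool) → ℝ) :
    (fun ω ω' : Om (Option Empty) (Fin N → Bool) =>
      ob (gg1 Empty f0 none) none w ω * ob (gg1 Empty f0 none) none w ω') =
      fun ω ω' => w ω.2 * w ω'.2 := by
  funext ω ω'; simp [ob, gg1]

lemma ee_sum {n d : ℕ} (hn : 1 ≤ n) (hd : d ≤ n) (τ : Fin N) (L : Sy Empty (Fin N)) :
    ∑ p ∈ pt τ, EE n (gg Empty f0) L d (fun ω ω' => pw p ω.2 * pw p ω'.2) =
      N * EE n (gg Empty f0) L d (fun ω ω' => sp τ ω.2 * sp τ ω'.2 * Rr univ ω.2 ω'.2) - 1 := by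
  have hN : (N : ℝ) ≠ 0 := by exact_mod_cast (Fin.pos τ).ne'
  unfold EE
  rw [← aApi.e2sum]
  have h : (fun ω ω' : Om (Option Empty) (Fin N → Bool) => ∑ p ∈ pt τ, pw p ω.2 * pw p ω'.2) =
      fun ω ω' => N * (sp τ ω.2 * sp τ ω'.2 * Rr univ ω.2 ω'.2) + (-1) * 1 := by
    funext ω ω'
    have h1 := pair_sum τ (fun i => sp i ω.2 * sp i ω'.2)
    have h2 : ∑ p ∈ pt τ, pw p ω.2 * pw p ω'.2 =
        ∑ p ∈ pt τ, sp p.1.1 ω.2 * sp p.1.1 ω'.2 * (sp p.1.2 ω.2 * sp p.1.2 ω'.2) :=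
      sum_congr rfl fun p _ => by simp only [pw, Pi.mul_apply]; ring
    have h3 : sp τ ω.2 * sp τ ω'.2 * (sp τ ω.2 * sp τ ω'.2) = 1 := by
      have := sp_sq τ ω.2
      have := sp_sq τ ω'.2
      calc _ = sp τ ω.2 ^ 2 * sp τ ω'.2 ^ 2 := by ring
        _ = 1 := by simp [*]
    rw [h2, h1, h3, Rr, card_univ, Fintype.card_fin]
    field_simp
    ring
  rw [h, aApi.e2add _ _ _ _ _ (fun ω ω' : Om (Option Empty) (Fin N → Bool) =>
    sp τ ω.2 * sp τ ω'.2 * Rr univ ω.2 ω'.2) (fun _ _ => 1),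
    aApi.e2const (cApi.ok n L hn) _ _ (by omega)]
  ring

lemma gam_diff {n k : ℕ} (hk : k < n) (τ : Fin N) (c : ℝ) (L : Sy Empty (Fin N)) {P : ℕ → ℝ}
    {e : ℝ} (hP : Path n P) (h0 : P 0 = 1) (hc : Conc n f0 L univ P e) :
    |((skt τ k c).map (Gam n (gg Empty f0) (gg1 Empty f0) (gg2 Empty f0) L)).sum -
      ((lift none (sp τ) (sprof n (trunc k P) (N * c ^ 2))).map
        (Gam n (gg Empty f0) (gg1 Empty f0) (gg2 Empty f0) L)).sum| ≤
      N * c ^ 2 * (√e + 1 / N) := by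
  have hn : 1 ≤ n := by omega
  have hN : (0 : ℝ) < N := by exact_mod_cast Fin.pos τ
  have hn' : (0 : ℝ) < n := by exact_mod_cast hn
  set x : ℕ → ℝ := fun d =>
    EE n (gg Empty f0) L d (fun ω ω' => sp τ ω.2 * sp τ ω'.2 * Rr univ ω.2 ω'.2) with hx
  set y : ℕ → ℝ := fun d => P d * EE n (gg Empty f0) L d (fun ω ω' => sp τ ω.2 * sp τ ω'.2) with hy
  have a1 : ((skt τ k c).map (Gam n (gg Empty f0) (gg1 Empty f0) (gg2 Empty f0) L)).sum =
      c ^ 2 * ((N - 1) - (1 / (n : ℝ)) * (N * ∑ d ∈ Icc 1 k, x d - k)) / 2 := by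
    have h1 : ((skt τ k c).map (Gam n (gg Empty f0) (gg1 Empty f0) (gg2 Empty f0) L)).sum =
        ∑ p ∈ pt τ, Gam n (gg Empty f0) (gg1 Empty f0) (gg2 Empty f0) L (k, none, c • pw p) := by
      unfold skt; rw [Multiset.map_map]; rfl
    rw [h1, sum_congr rfl fun p _ => hG.gam_one n _ _ _ L none (pw p) k c (pw_sq p)]
    simp only [e1_one hn, ob_eq]
    rw [← sum_div, ← mul_sum, sum_sub_distrib, ← mul_sum, sum_comm,
      sum_congr rfl fun d hd => ee_sum hn (by have := (mem_Icc.1 hd).2; omega) τ L,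
      sum_sub_distrib, ← mul_sum]
    simp [card_pt, hx]
  have a2 : ((lift none (sp τ) (sprof n (trunc k P) (N * c ^ 2))).map
        (Gam n (gg Empty f0) (gg1 Empty f0) (gg2 Empty f0) L)).sum =
      N * c ^ 2 * (1 - (1 / (n : ℝ)) * ∑ d ∈ Icc 1 k, y d) / 2 := by
    rw [hG.gam_prof n _ _ _ L none (sp τ) _ _ hn (trunc_path hP hk) (by positivity) (sp_sq τ),
      e1_one hn, ob_eq]
    have h1 : trunc k P 0 = 1 := by simp [trunc, h0]
    have h2 : ∑ d ∈ Ico 1 n, trunc k P d *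
        EE n (gg Empty f0) L d (fun ω ω' => sp τ ω.2 * sp τ ω'.2) = ∑ d ∈ Icc 1 k, y d := by
      have h3 : Icc 1 k = (Ico 1 n).filter (fun d => d ≤ k) := by
        ext d; simp only [mem_Icc, mem_filter, mem_Ico]; omega
      rw [h3, sum_filter]
      refine sum_congr rfl fun d _ => ?_
      unfold trunc
      split_ifs <;> simp [hy]
    rw [h1, h2, mul_one]
  have key := hG.conc_abs n f0 L univ P e 1 (fun _ ω ω' => sp τ ω.2 * sp τ ω'.2) hn hc
    (fun _ ω ω' => by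
      have h1 := sp_sq τ ω.2
      have h2 := sp_sq τ ω'.2
      rw [← sq_le_one_iff_abs_le_one, mul_pow, h1, h2, mul_one])
  have a3 : |(1 / (n : ℝ)) * ∑ d ∈ Icc 1 k, x d - (1 / (n : ℝ)) * ∑ d ∈ Icc 1 k, y d| ≤ √e := by
    rw [← mul_sub, ← sum_sub_distrib, abs_mul, abs_of_nonneg (by positivity : 0 ≤ 1 / (n : ℝ))]
    rw [one_mul] at key
    refine le_trans (mul_le_mul_of_nonneg_left ((abs_sum_le_sum_abs _ _).trans
      (sum_le_sum_of_subset_of_nonneg (fun d hd => ?_) fun _ _ _ => abs_nonneg _))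
      (by positivity)) key
    simp only [mem_Icc, mem_Ico] at hd ⊢; omega
  rw [a1, a2]
  have a4 : 0 ≤ (1 / (n : ℝ)) * k ∧ (1 / (n : ℝ)) * k ≤ 1 := by
    refine ⟨by positivity, ?_⟩
    rw [one_div, inv_mul_le_iff₀ hn', mul_one]
    exact_mod_cast hk.le
  have a5 : c ^ 2 * ((N - 1) - (1 / (n : ℝ)) * (N * ∑ d ∈ Icc 1 k, x d - k)) / 2 -
      N * c ^ 2 * (1 - (1 / (n : ℝ)) * ∑ d ∈ Icc 1 k, y d) / 2 =
      N * c ^ 2 * (-((1 / (n : ℝ)) * ∑ d ∈ Icc 1 k, x d - (1 / (n : ℝ)) * ∑ d ∈ Icc 1 k, y d) / 2 +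
        (1 / N) * (((1 / (n : ℝ)) * k - 1) / 2)) := by
    field_simp; ring
  rw [a5, abs_mul, abs_of_nonneg (by positivity : 0 ≤ (N : ℝ) * c ^ 2)]
  refine mul_le_mul_of_nonneg_left ?_ (by positivity)
  have a6 : 0 ≤ 1 / (N : ℝ) := by positivity
  have a7 := abs_le.1 a3
  have a8 : 0 ≤ √e := sqrt_nonneg e
  rw [abs_le]
  constructor <;> nlinarith [a4.1, a4.2, a7.1, a7.2]

end CV

end

end Vale.Agent.P146
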