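import Mathlib

/-! The Sherrington-Kirkpatrick free energy. -/

namespace Vale.Agent.P146

open MeasureTheory ProbabilityTheory

noncomputable section

/-- The spin value: `true` is `+1`, `false` is `-1`. -/
def sg (s : Bool) : ℝ := if s then 1 else -1

/-- The pairs `i < j` of sites. -/
abbrev Pr (n : ℕ) : Type := {p : Fin n × Fin n // p.1 < p.2}

/-- The Hamiltonian `H_n(σ) = n^(-1/2) ∑_{i<j} g_ij σ_i σ_j`. -/
def ham (n : ℕ) (g : Pr n → ℝ) (σ : Fin n → Bool) : ℝ :=
  (1 / √(n : ℝ)) * ∑ p : Pr n, g p * sg (σ p.1.1) * sg (σ p.1.2)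

/-- The free energy `F_n(β) = log ∑_σ exp (β H_n(σ))`. -/
def FE (n : ℕ) (β : ℝ) (g : Pr n → ℝ) : ℝ :=
  Real.log (∑ σ : Fin n → Bool, Real.exp (β * ham n g σ))

/-- The law of the couplings: independent standard Gaussians. -/
def PG (n : ℕ) : Measure (Pr n → ℝ) := Measure.pi fun _ => gaussianReal 0 1

end

end Vale.Agent.P146
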