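import Vale.Agent.P146.Spec

/-! P146: choice of the parameters. -/

namespace Vale.Agent.P146

open MeasureTheory ProbabilityTheory Finset Real Filter
open Vale.Agent.P157

noncomputable section

namespace Finx

theorem ipow {x : ℝ} (hx : 1 ≤ x) {a b : ℕ} (h : a ≤ b) : (x ^ b)⁻¹ ≤ (x ^ a)⁻¹ :=
  inv_anti₀ (by positivity) (pow_le_pow_right₀ hx h)

theorem ebd {x N C : ℝ} (hx : 1 ≤ x) (hN : x ^ 840 ≤ N) (hC : 0 ≤ C) :
    4 / √(x ^ 48) + C * (x ^ 48) ^ 3 * ((x ^ 168)⁻¹ + √(N / (x ^ 168)⁻¹) / ((x ^ 168)⁻¹ * N)) ≤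
      (4 + 2 * C) * (x ^ 24)⁻¹ := by
  have x0 : 0 < x := by positivity
  have N0 : 0 < N := lt_of_lt_of_le (by positivity) hN
  have h1 : √(x ^ 48) = x ^ 24 := by
    rw [show x ^ 48 = (x ^ 24) ^ 2 by ring, sqrt_sq (by positivity)]
  have h2 : √(N / (x ^ 168)⁻¹) / ((x ^ 168)⁻¹ * N) ≤ (x ^ 168)⁻¹ := by
    rw [div_le_iff₀ (by positivity), sqrt_le_iff]
    refine ⟨by positivity, ?_⟩
    rw [show ((x ^ 168)⁻¹ * ((x ^ 168)⁻¹ * N)) ^ 2 = N / (x ^ 168)⁻¹ * (N / x ^ 840) by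
      field_simp]
    exact le_mul_of_one_le_right (by positivity) ((one_le_div (by positivity)).2 hN)
  rw [h1]
  refine (add_le_add_right (mul_le_mul_of_nonneg_left (add_le_add_right h2 _) (by positivity))
    _).trans (le_of_eq ?_)
  field_simp
  ring

theorem tot {x N K e : ℝ} (hx : 1 ≤ x) (hN : x ^ 840 ≤ N) (hK : 0 ≤ K) (he : e ≤ K * (x ^ 24)⁻¹) :
    (e + x ^ 48 * ((x ^ 168)⁻¹) ^ 2 + 1 / x ^ 48) * (x ^ 48 / x ^ 46) +
      √(x ^ 48 / x ^ 46 * ((√e + 1 / N + x ^ 48 * (3 * (x ^ 168)⁻¹) ^ 2) / (x ^ 8)⁻¹ +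
        √((x ^ 8)⁻¹)) + x ^ 46 / x ^ 48) ≤ (K + 2 + √(√K + 12)) * x⁻¹ := by
  have x0 : 0 < x := by positivity
  have a1 : x ^ 48 * ((x ^ 168)⁻¹) ^ 2 = (x ^ 288)⁻¹ := by field_simp
  have a2 : x ^ 48 * (3 * (x ^ 168)⁻¹) ^ 2 = 9 * (x ^ 288)⁻¹ := by field_simp; ring
  have a3 : x ^ 48 / x ^ 46 = x ^ 2 := by field_simp
  have a4 : x ^ 46 / x ^ 48 = (x ^ 2)⁻¹ := by field_simp
  have a5 : √((x ^ 8)⁻¹) = (x ^ 4)⁻¹ := by
    rw [show (x ^ 8)⁻¹ = ((x ^ 4)⁻¹) ^ 2 by field_simp, sqrt_sq (by positivity)]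
  have a6 : √e ≤ √K * (x ^ 12)⁻¹ := by
    refine (sqrt_le_sqrt he).trans (le_of_eq ?_)
    rw [sqrt_mul hK, show (x ^ 24)⁻¹ = ((x ^ 12)⁻¹) ^ 2 by field_simp, sqrt_sq (by positivity)]
  have a7 : 1 / N ≤ (x ^ 12)⁻¹ := by
    rw [one_div]
    exact (inv_anti₀ (by positivity) hN).trans (ipow hx (by norm_num))
  have a8 := ipow hx (show 12 ≤ 288 by norm_num)
  have a9 := ipow hx (show 24 ≤ 288 by norm_num)
  have a10 := ipow hx (show 24 ≤ 48 by norm_num)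
  have a11 := ipow hx (show 1 ≤ 22 by norm_num)
  rw [pow_one] at a11
  rw [a1, a2, a3, a4, a5, one_div (x ^ 48), add_mul (K + 2)]
  refine add_le_add ?_ ?_
  · refine (mul_le_mul_of_nonneg_right (show _ ≤ (K + 2) * (x ^ 24)⁻¹ by linarith)
      (by positivity)).trans ?_
    rw [show (K + 2) * (x ^ 24)⁻¹ * x ^ 2 = (K + 2) * (x ^ 22)⁻¹ by field_simp]
    exact mul_le_mul_of_nonneg_left a11 (by positivity)
  · rw [sqrt_le_iff]
    refine ⟨by positivity, ?_⟩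
    rw [mul_pow, sq_sqrt (by positivity)]
    have b1 : (√e + 1 / N + 9 * (x ^ 288)⁻¹) / (x ^ 8)⁻¹ ≤ (√K + 10) * (x ^ 12)⁻¹ / (x ^ 8)⁻¹ :=
      div_le_div_of_nonneg_right (by linarith) (by positivity)
    refine (add_le_add_left (mul_le_mul_of_nonneg_left (add_le_add_left b1 _) (by positivity))
      _).trans (le_of_eq ?_)
    field_simp
    ring

theorem fin (V : ℕ → ℝ) (a C : ℝ) (ha : 0 ≤ a) (hC : 0 ≤ C) (N0 : ℕ)
    (h : ∀ N : ℕ, 1 ≤ N → N0 ≤ N → V N ≤ C * (N : ℝ) ^ a) :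
    ∃ C' : ℝ, ∀ N : ℕ, 1 ≤ N → V N ≤ C' * (N : ℝ) ^ a := by
  refine ⟨C + ∑ N ∈ range N0, |V N|, fun N hN => ?_⟩
  have h1 : 1 ≤ (N : ℝ) ^ a := one_le_rpow (by exact_mod_cast hN) ha
  have h2 : 0 ≤ ∑ N ∈ range N0, |V N| := sum_nonneg fun _ _ => abs_nonneg _
  rcases le_or_gt N0 N with h3 | h3
  · exact (h N hN h3).trans (mul_le_mul_of_nonneg_right (by linarith) (by linarith))
  · have h4 := single_le_sum (f := fun N => |V N|) (fun _ _ => abs_nonneg _) (mem_range.2 h3)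
    exact ((le_abs_self _).trans (h4.trans (by linarith))).trans
      (le_mul_of_one_le_right (by linarith) h1)

end Finx

open Finx in
theorem stmtFin (hC : StmtCN) (h : StmtVB) : StmtFin := by
  intro β hβ
  obtain ⟨C, c0, hC⟩ := hC
  obtain ⟨B, b0, h⟩ := h β hβ
  obtain ⟨r0, hr0⟩ := exists_nat_ge (β + 3)
  obtain ⟨K, hK⟩ : ∃ K, K = 4 + 2 * C + 2 + √(√(4 + 2 * C) + 12) := ⟨_, rfl⟩
  have K0 : 0 ≤ K := by rw [hK]; positivity
  refine fin _ _ (B * K * 2 + B) (by norm_num) (by positivity) (r0 ^ 840) fun N hN hN0 => ?_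
  have N1 : (1 : ℝ) ≤ N := by exact_mod_cast hN
  obtain ⟨y, hy⟩ : ∃ y : ℝ, y = (N : ℝ) ^ (((840 : ℕ) : ℝ)⁻¹) := ⟨_, rfl⟩
  have y0 : 0 < y := by rw [hy]; positivity
  have y1 : y ^ 840 = N := by rw [hy]; exact rpow_inv_natCast_pow (by positivity) (by norm_num)
  have y2 : (r0 : ℝ) ≤ y := by
    refine le_of_pow_le_pow_left₀ (n := 840) (by norm_num) y0.le ?_
    rw [y1]; exact_mod_cast hN0
  have y3 : (N : ℝ) ^ (1 - 1 / 840 : ℝ) = N / y := by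
    rw [rpow_sub (by positivity), rpow_one, hy]; norm_num
  obtain ⟨r, r1, r2, r3⟩ : ∃ r : ℕ, r0 ≤ r ∧ (r : ℝ) ≤ y ∧ y < r + 1 :=
    ⟨⌊y⌋₊, Nat.le_floor y2, Nat.floor_le y0.le, Nat.lt_floor_add_one y⟩
  have r4 : β + 3 ≤ r := hr0.trans (by exact_mod_cast r1)
  have x1 : (1 : ℝ) ≤ r := by linarith
  have x3 : 3 ≤ r := by exact_mod_cast (show (3 : ℝ) ≤ r by linarith)
  have xN : (r : ℝ) ^ 840 ≤ N := y1 ▸ pow_le_pow_left₀ (by positivity) r2 840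
  have l1 : ((r : ℝ) ^ 168)⁻¹ ≤ 1 / 3 := by
    refine (ipow x1 (show 1 ≤ 168 by norm_num)).trans ?_
    rw [pow_one, one_div]; exact inv_anti₀ (by norm_num) (by linarith)
  have j1 : 1 ≤ r ^ 46 := Nat.one_le_pow _ _ (by omega)
  have k1 := hC (r ^ 48) N ((r : ℝ) ^ 168)⁻¹ (Nat.one_le_pow _ _ (by omega)) hN (by positivity)
    (by linarith)
  have k2 := h (r ^ 48) N (r ^ 46) ((r : ℝ) ^ 8)⁻¹ ((r : ℝ) ^ 168)⁻¹ _ j1 (by
      have : 3 * r ^ 46 ≤ r ^ 2 * r ^ 46 := Nat.mul_le_mul_right _ (by nlinarith)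
      rw [show r ^ 2 * r ^ 46 = r ^ 48 by ring] at this
      omega) hN (by positivity)
    (inv_le_one_of_one_le₀ (one_le_pow₀ x1)) (by positivity) (by
      push_cast
      rw [show (r : ℝ) ^ 48 * (3 * ((r : ℝ) ^ 168)⁻¹) ^ 2 = 9 * ((r : ℝ) ^ 288)⁻¹ by
        field_simp; ring]
      have a1 := ipow x1 (show 2 ≤ 288 by norm_num)
      have a2 : ((r : ℝ) ^ 2)⁻¹ ≤ 9⁻¹ := inv_anti₀ (by norm_num) (by nlinarith)
      linarith) (by
      push_cast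
      have := pow_le_pow_right₀ x1 (show 1 ≤ 48 by norm_num)
      rw [pow_one] at this
      linarith) (by positivity) k1
  push_cast at k2
  have k3 := tot x1 xN (by positivity) (ebd x1 xN c0)
  rw [← hK] at k3
  refine (k2.trans (add_le_add_left (mul_le_mul_of_nonneg_left k3 (by positivity)) _)).trans ?_
  have k4 : (r : ℝ)⁻¹ ≤ 2 / y := by
    rw [inv_eq_one_div, div_le_div_iff₀ (by positivity) y0]; linarith
  have k5 : 1 ≤ (N : ℝ) / y := y3 ▸ one_le_rpow N1 (by norm_num)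
  have k6 := mul_le_mul_of_nonneg_left k4 (by positivity : 0 ≤ B * N * K)
  have k7 := mul_le_mul_of_nonneg_left k5 b0
  rw [y3]
  have k8 : B * N * K * (2 / y) = B * K * 2 * (N / y) := by ring
  linarith

end

end Vale.Agent.P146
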