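import Vale.Agent.P146.Spec

namespace Vale.Agent.P146

open MeasureTheory ProbabilityTheory Finset Real Filter
open Vale.Agent.P157

noncomputable section

namespace GA

theorem iadd {α : Type} [MeasurableSpace α] {μ : Measure α} {f g : α → ℝ} (hf : Integrable f μ)
    (hg : Integrable g μ) : Integrable (fun x => f x + g x) μ := hf.add hg

theorem isub {α : Type} [MeasurableSpace α] {μ : Measure α} {f g : α → ℝ} (hf : Integrable f μ)
    (hg : Integrable g μ) : Integrable (fun x => f x - g x) μ := hf.sub hg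

theorem cm (φ : ℝ → ℝ) (u : ℝ) : ∫ z, φ z ∂gaussianReal 0 1 =
    ∫ z, φ (z + u) * exp (-u * z - u ^ 2 / 2) ∂gaussianReal 0 1 := by
  rw [integral_gaussianReal_eq_integral_smul one_ne_zero,
    integral_gaussianReal_eq_integral_smul one_ne_zero,
    ← integral_add_right_eq_self (fun x => gaussianPDFReal 0 1 x • φ x) u]
  refine integral_congr_ae (ae_of_all _ fun z => ?_)
  simp only [gaussianPDFReal, smul_eq_mul, NNReal.coe_one, sub_zero, mul_one]
  have : exp (-(z + u) ^ 2 / 2) = exp (-z ^ 2 / 2) * exp (-u * z - u ^ 2 / 2) := by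
    rw [← exp_add]; congr 1; ring
  rw [this]; ring

theorem int4 : Integrable (fun z : ℝ => z ^ 4) (gaussianReal 0 1) := by
  have := (memLp_id_gaussianReal' (μ := 0) (v := 1) (4 : ℕ) (by simp)).integrable_norm_pow
    (by norm_num)
  refine this.congr (ae_of_all _ fun z => ?_)
  simp only [id, Real.norm_eq_abs]
  rw [show (4 : ℕ) = 2 * 2 from rfl, pow_mul, sq_abs, ← pow_mul]

def M4 : ℝ := ∫ z, z ^ 4 ∂gaussianReal 0 1

theorem M4_nonneg : 0 ≤ M4 := integral_nonneg fun z => by positivity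

def CC0 : ℝ := 128 + 16 * M4

theorem CC0_pos : 0 < CC0 := by unfold CC0; linarith [M4_nonneg]

/-- the one-dimensional inequality -/
theorem one (g g1 : ℝ → ℝ) (l : ℝ) (hg : Integrable g (gaussianReal 0 1))
    (hg2 : Integrable (fun z => g z * g z) (gaussianReal 0 1))
    (hg1 : Integrable g1 (gaussianReal 0 1))
    (h1 : ∀ z z', g z' + (z - z') * g1 z' ≤ g z)
    (h2 : ∀ z z', g z ≤ g z' + (z - z') * g1 z' + 2 * l ^ 2 * (z - z') ^ 2) :
    (∫ z, g z * g z ∂gaussianReal 0 1 - (∫ z, g z ∂gaussianReal 0 1) ^ 2) / CC0 - l ^ 4 ≤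
      g1 0 / 16 * ∫ z, g1 z ∂gaussianReal 0 1 - (g1 0 / 16) ^ 2 / 2 := by
  obtain ⟨m1, m2, -, m3⟩ := Lin.mom
  set a := g1 0 with ha
  have p1 : ∀ z, g z * g z - 2 * g 0 * g z ≤ 2 * a ^ 2 * z ^ 2 + 8 * l ^ 4 * z ^ 4 - g 0 ^ 2 := by
    intro z
    have a1 := h1 z 0
    have a2 := h2 z 0
    rw [sub_zero] at a1 a2
    have a3 : (g z - g 0 - z * a) ^ 2 ≤ (2 * l ^ 2 * z ^ 2) ^ 2 :=
      pow_le_pow_left₀ (by linarith) (by linarith) 2
    nlinarith [sq_nonneg (g z - g 0 - 2 * (z * a))]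
  have p2 : ∀ z, a ^ 2 / 2 - 8 * l ^ 4 * z ^ 2 ≤ a * g1 z := by
    intro z
    have key : (g1 z - a) ^ 2 ≤ 16 * l ^ 4 * z ^ 2 := by
      rcases eq_or_ne z 0 with rfl | hz
      · simp [ha]
      · have a1 := h1 z 0
        have a2 := h2 z 0
        have a3 := h1 0 z
        have a4 := h2 0 z
        rw [sub_zero] at a1 a2
        rw [zero_sub] at a3 a4
        have a5 : (z * (g1 z - a)) ^ 2 ≤ (4 * l ^ 2 * z ^ 2) ^ 2 :=
          pow_le_pow_left₀ (by nlinarith) (by nlinarith) 2
        have hz2 : 0 < z ^ 2 := by positivity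
        refine le_of_mul_le_mul_left ?_ hz2
        nlinarith
    nlinarith [sq_nonneg (a + (g1 z - a))]
  have q1 := integral_mono (hg2.sub (hg.const_mul (2 * g 0)))
    (((m2.const_mul (2 * a ^ 2)).add (int4.const_mul (8 * l ^ 4))).sub (integrable_const (g 0 ^ 2))) p1
  have q2 := integral_mono ((integrable_const (a ^ 2 / 2)).sub (m2.const_mul (8 * l ^ 4)))
    (hg1.const_mul a) p2
  simp only [Pi.sub_apply, Pi.add_apply] at q1 q2
  rw [integral_sub hg2 (hg.const_mul _), integral_sub (iadd (m2.const_mul _) (int4.const_mul _))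
    (integrable_const _), integral_add (m2.const_mul _) (int4.const_mul _)] at q1
  rw [integral_sub (integrable_const _) (m2.const_mul _)] at q2
  simp only [integral_const_mul, m3, integral_const, probReal_univ, smul_eq_mul, one_mul] at q1 q2
  have hM := M4_nonneg
  have hC := CC0_pos
  have q3 : ∫ z, g z * g z ∂gaussianReal 0 1 - (∫ z, g z ∂gaussianReal 0 1) ^ 2 ≤
      2 * a ^ 2 + 8 * l ^ 4 * M4 := by
    unfold M4
    nlinarith [sq_nonneg (∫ z, g z ∂gaussianReal 0 1 - g 0)]
  have q4 : (2 * a ^ 2 + 8 * l ^ 4 * M4) / CC0 ≤ a ^ 2 / 64 + l ^ 4 / 2 := by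
    rw [div_le_iff₀ hC]
    unfold CC0
    have : 0 ≤ l ^ 4 := by positivity
    nlinarith [mul_nonneg (sq_nonneg a) hM, sq_nonneg a]
  have q5 := div_le_div_of_nonneg_right q3 hC.le
  nlinarith [sq_nonneg a]

theorem jen (φ ψ : ℝ → ℝ) (u : ℝ) (hψ : Integrable ψ (gaussianReal 0 1))
    (hφ : Integrable (fun z => φ (z + u) * exp (-u * z - u ^ 2 / 2)) (gaussianReal 0 1))
    (h : ∀ z, exp (ψ z) ≤ φ (z + u)) :
    ∫ z, ψ z ∂gaussianReal 0 1 - u ^ 2 / 2 ≤ log (∫ z, φ z ∂gaussianReal 0 1) := by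
  obtain ⟨m1, -, -, -⟩ := Lin.mom
  set c := ∫ z, ψ z ∂gaussianReal 0 1 - u ^ 2 / 2 with hc
  have p : ∀ z, exp c * (ψ z - u * z) + exp c * (1 - u ^ 2 / 2 - c) ≤
      φ (z + u) * exp (-u * z - u ^ 2 / 2) := by
    intro z
    have a1 := add_one_le_exp (ψ z + (-u * z - u ^ 2 / 2) - c)
    have a2 : exp (ψ z) * exp (-u * z - u ^ 2 / 2) =
        exp c * exp (ψ z + (-u * z - u ^ 2 / 2) - c) := by
      rw [← exp_add, ← exp_add]; congr 1; ring
    have a3 := mul_le_mul_of_nonneg_right (h z) (exp_pos (-u * z - u ^ 2 / 2)).le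
    have a4 := mul_le_mul_of_nonneg_left a1 (exp_pos c).le
    nlinarith
  have q := integral_mono (((hψ.sub (m1.const_mul u)).const_mul (exp c)).add (integrable_const _))
    hφ p
  simp only [Pi.add_apply, Pi.sub_apply] at q
  rw [integral_add ((isub hψ (m1.const_mul u)).const_mul (exp c)) (integrable_const _),
    integral_const_mul, integral_sub hψ (m1.const_mul u), integral_const_mul, ← cm] at q
  simp only [integral_const, probReal_univ, smul_eq_mul, one_mul, integral_id_gaussianReal] at q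
  rw [le_log_iff_exp_le]
  · have : exp c * (∫ z, ψ z ∂gaussianReal 0 1 - u * 0) + exp c * (1 - u ^ 2 / 2 - c) = exp c := by
      rw [hc]; ring
    linarith
  · have : exp c * (∫ z, ψ z ∂gaussianReal 0 1 - u * 0) + exp c * (1 - u ^ 2 / 2 - c) = exp c := by
      rw [hc]; ring
    linarith [exp_pos c]

variable {S : Type} [Fintype S] [Nonempty S]

theorem gl (h : StmtNB) : Gr (lse : (S → ℝ) → ℝ) :=
  (h.lipG lse 1 (fun x y => by rw [one_mul]; exact h.lip x y)).1

theorem ge (h : StmtNB) (θ : ℝ) : Gr (fun v : S → ℝ => exp (θ * lse v)) :=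
  (h.lipG (fun v => θ * lse v) |θ| (fun x y => by
    rw [← mul_sub, abs_mul]; exact mul_le_mul_of_nonneg_left (h.lip x y) (abs_nonneg _))).2

omit [Nonempty S] in
theorem i1 (h : StmtNB) {f : (S → ℝ) → ℝ} (hf : Gr f) (x w : S → ℝ) :
    Integrable (fun z : ℝ => f (x + z • w)) (gaussianReal 0 1) := by
  simpa using h.int1 f x w 0 hf

omit [Nonempty S] in
theorem sc (h : StmtNB) (m : ℕ) (w : Fin (m + 1) → S → ℝ) {f : (S → ℝ) → ℝ} (hf : Gr f)
    (x : S → ℝ) : ∫ v, f (x + v) ∂gn (m + 1) w =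
      ∫ z, ∫ v, f (x + z • w 0 + v) ∂gn m (fun k => w k.succ) ∂gaussianReal 0 1 := by
  rw [h.succ m w _ (h.shift f x hf)]
  simp only [add_assoc]

theorem main (h : StmtNB) {l θ : ℝ} (hθ : 0 ≤ θ) : ∀ (m : ℕ) (w : Fin m → S → ℝ),
    (∀ k, ‖w k‖ ≤ l) → ∀ x y : S → ℝ,
    θ * (∫ v, lse (x + v) ∂gn m w + ∫ v, dl (x + v) y ∂gn m w) +
      θ ^ 2 * ((∫ v, lse (x + v) * lse (x + v) ∂gn m w - (∫ v, lse (x + v) ∂gn m w) ^ 2) / CC0 -
        m * l ^ 4) ≤ log (∫ v, exp (θ * lse (x + y + v)) ∂gn m w) := by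
  intro m
  induction m with
  | zero =>
    intro w _ x y
    simp only [h.zero, add_zero, log_exp, Nat.cast_zero, zero_mul, sub_zero]
    have := mul_le_mul_of_nonneg_left (h.cvx x y) hθ
    rw [← sq, sub_self, zero_div, mul_zero, add_zero]
    exact this
  | succ m ih =>
    intro w hw x y
    set w' : Fin m → S → ℝ := fun k => w k.succ with hw'
    have := h.prob m w'
    have ih' := ih w' (fun k => hw _)
    have gL := gl (S := S) h
    have gL2 := h.mul _ _ gL gL
    set G : (S → ℝ) → ℝ := fun x => ∫ v, lse (x + v) ∂gn m w' with hG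
    set G2 : (S → ℝ) → ℝ := fun x => ∫ v, lse (x + v) * lse (x + v) ∂gn m w' with hG2
    set Dy : (S → ℝ) → ℝ := fun x => ∫ v, dl (x + v) y ∂gn m w' with hDy
    set Dw : (S → ℝ) → ℝ := fun x => ∫ v, dl (x + v) (w 0) ∂gn m w' with hDw
    set Ex : (S → ℝ) → ℝ := fun x => ∫ v, exp (θ * lse (x + v)) ∂gn m w' with hEx
    have gG : Gr G := h.par m w' _ gL
    have gG2 : Gr G2 := h.par m w' _ gL2
    have gDy : Gr Dy := h.par m w' _ (h.dlG y)
    have gDw : Gr Dw := h.par m w' _ (h.dlG (w 0))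
    have gEx : Gr Ex := h.par m w' _ (ge h θ)
    rw [sc h m w gL x, sc h m w gL2 x, sc h m w (h.dlG y) x, sc h m w (ge h θ) (x + y)]
    change θ * (∫ z, G (x + z • w 0) ∂gaussianReal 0 1 + ∫ z, Dy (x + z • w 0) ∂gaussianReal 0 1) +
      θ ^ 2 * ((∫ z, G2 (x + z • w 0) ∂gaussianReal 0 1 -
        (∫ z, G (x + z • w 0) ∂gaussianReal 0 1) ^ 2) / CC0 - ((m + 1 : ℕ) : ℝ) * l ^ 4) ≤
      log (∫ z, Ex (x + y + z • w 0) ∂gaussianReal 0 1)
    have hl : ‖w 0‖ ^ 2 ≤ l ^ 2 := pow_le_pow_left₀ (norm_nonneg _) (hw 0) 2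
    have e0 : ∀ z z' : ℝ, ∀ v, x + z • w 0 + v = x + z' • w 0 + v + (z - z') • w 0 := by
      intro z z' v; rw [sub_smul]; abel
    have k1 := one (fun z => G (x + z • w 0)) (fun z => Dw (x + z • w 0)) l (i1 h gG _ _)
      (i1 h (h.mul _ _ gG gG) _ _) (i1 h gDw _ _) (fun z z' => by
        simp only [hG, hDw]
        rw [← integral_const_mul, ← integral_add (h.int m w' _ _ gL)
          ((h.int m w' _ _ (h.dlG _)).const_mul _)]
        refine integral_mono ((h.int m w' _ _ gL).add ((h.int m w' _ _ (h.dlG _)).const_mul _))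
          (h.int m w' _ _ gL) fun v => ?_
        have := h.cvx (x + z' • w 0 + v) ((z - z') • w 0)
        rw [(h.dl_lin _ 0 _ _).2, ← e0] at this
        exact this) (fun z z' => by
        simp only [hG, hDw]
        have i2 := iadd (h.int m w' _ (x + z' • w 0) gL)
          ((h.int m w' _ (x + z' • w 0) (h.dlG (w 0))).const_mul (z - z'))
        have := integral_mono (h.int m w' _ (x + z • w 0) gL)
          (i2.add (integrable_const (2 * l ^ 2 * (z - z') ^ 2))) fun v => by
            have := h.scv (x + z' • w 0 + v) ((z - z') • w 0)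
            rw [(h.dl_lin _ 0 _ _).2, ← e0, norm_smul, mul_pow, Real.norm_eq_abs, sq_abs] at this
            have h3 := mul_le_mul_of_nonneg_left hl (sq_nonneg (z - z'))
            simp only [Pi.add_apply]
            linarith
        simp only [Pi.add_apply] at this
        rw [integral_add i2 (integrable_const _), integral_add (h.int m w' _ _ gL)
          ((h.int m w' _ _ (h.dlG _)).const_mul _), integral_const_mul] at this
        simpa using this)
    set a := Dw (x + (0 : ℝ) • w 0) / 16 with ha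
    set u := θ * a with hu
    have k2 := jen (fun z => Ex (x + y + z • w 0)) (fun z => θ * (G (x + z • w 0) +
        (Dy (x + z • w 0) + u * Dw (x + z • w 0))) + θ ^ 2 * ((G2 (x + z • w 0) -
          G (x + z • w 0) * G (x + z • w 0)) / CC0 - m * l ^ 4)) u
      ((((i1 h gG _ _).add ((i1 h gDy _ _).add ((i1 h gDw _ _).const_mul u))).const_mul θ).add
        (((((i1 h gG2 _ _).sub (i1 h (h.mul _ _ gG gG) _ _)).div_const CC0).sub
          (integrable_const _)).const_mul _))
      (by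
        have := (h.int1 Ex (x + y + u • w 0) (w 0) (-u) gEx).mul_const (exp (-(u ^ 2 / 2)))
        refine this.congr (ae_of_all _ fun z => ?_)
        simp only
        rw [mul_assoc, ← exp_add, add_smul, sub_eq_add_neg]
        congr 2
        abel)
      (fun z => by
        have a1 := ih' (x + z • w 0) (y + u • w 0)
        have a2 : ∫ v, dl (x + z • w 0 + v) (y + u • w 0) ∂gn m w' =
            Dy (x + z • w 0) + u * Dw (x + z • w 0) := by
          simp only [hDy, hDw, (h.dl_lin _ _ _ _).1]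
          rw [integral_add (h.int m w' _ _ (h.dlG _)) ((h.int m w' _ _ (h.dlG _)).const_mul _),
            integral_const_mul]
        have a3 : x + z • w 0 + (y + u • w 0) = x + y + (z + u) • w 0 := by rw [add_smul]; abel
        rw [a2, a3, sq (∫ v, lse (x + z • w 0 + v) ∂gn m w')] at a1
        have a4 : 0 < Ex (x + y + (z + u) • w 0) :=
          integral_exp_pos (h.int m w' _ _ (ge h θ))
        exact (le_log_iff_exp_le a4).1 a1)
    refine le_trans ?_ k2
    rw [integral_add ((iadd (i1 h gG _ _) (iadd (i1 h gDy _ _) ((i1 h gDw _ _).const_mul u))).const_mul θ)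
      ((isub ((isub (i1 h gG2 _ _) (i1 h (h.mul _ _ gG gG) _ _)).div_const CC0)
          (integrable_const _)).const_mul _), integral_const_mul, integral_const_mul,
      integral_add (i1 h gG _ _) (iadd (i1 h gDy _ _) ((i1 h gDw _ _).const_mul u)),
      integral_add (i1 h gDy _ _) ((i1 h gDw _ _).const_mul u), integral_const_mul,
      integral_sub ((isub (i1 h gG2 _ _) (i1 h (h.mul _ _ gG gG) _ _)).div_const CC0)
        (integrable_const _), integral_div,
      integral_sub (i1 h gG2 _ _) (i1 h (h.mul _ _ gG gG) _ _)]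
    simp only [integral_const, probReal_univ, smul_eq_mul, one_mul]
    have k3 := mul_le_mul_of_nonneg_left k1 (sq_nonneg θ)
    push_cast
    rw [hu]
    have e1 : ∀ A B C : ℝ, (A - C) / CC0 = (A - B) / CC0 + (B - C) / CC0 := by intro A B C; ring
    rw [e1 _ (∫ z, G (x + z • w 0) * G (x + z • w 0) ∂gaussianReal 0 1)]
    nlinarith

end GA

theorem stmtGA (h : StmtNB) : StmtGA := by
  refine ⟨GA.CC0, GA.CC0_pos.le, fun S _ _ m w l θ hθ hw => ?_⟩
  have k := GA.main h hθ m w hw 0 0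
  have e : ∀ v : S → ℝ, dl v 0 = 0 := fun v => by simp [dl]
  simp only [zero_add, e, integral_zero, add_zero, ← sq] at k
  have hC := GA.CC0_pos
  have k2 : θ ^ 2 * (∫ v, lse v ^ 2 ∂gn m w - (∫ v, lse v ∂gn m w) ^ 2) / GA.CC0 ≤
      log (∫ v, exp (θ * lse v) ∂gn m w) - θ * ∫ v, lse v ∂gn m w + θ ^ 2 * (m * l ^ 4) := by
    rw [mul_div_assoc]; linarith
  rw [div_le_iff₀ hC] at k2
  linarith

end

end Vale.Agent.P146
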