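import Vale.Agent.P146.Spec

/-! P146 module GL: the central limit link. -/

namespace Vale.Agent.P146

open MeasureTheory ProbabilityTheory Finset Real Filter
open Vale.Agent.P157

noncomputable section

namespace Gl

section
variable {O S : Type} [Fintype O] [DecidableEq O] [Fintype S] [Inhabited S]

theorem xx_skip (n : ℕ) (L : Multiset (St O S)) (Z : Om O S → ℝ) (κ j : ℕ) (hj : j < n)
    (hL : ∀ s ∈ L, s.1 = κ) (hne : j ≠ κ) :
    XX (chain L) (ex n) Z (j + 2) = XX (chain L) (ex n) Z (j + 1) := by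
  have hm := ((cApi.ok n L (by omega)).pos (j + 1) (by omega)).ne'
  have h0 : L.filter (fun s => s.1 = j) = 0 :=
    Multiset.filter_eq_nil.2 fun s hs h => hne (by rw [← h, hL s hs])
  ext ω
  show (ex n (j + 1))⁻¹ * log (lv ((L.filter (fun s => s.1 = j)).map vec) _ ω) = _
  rw [h0, Multiset.map_zero, cApi.lv_zero, LinearMap.id_apply, log_exp, inv_mul_cancel_left₀ hm]

theorem xx_run (n : ℕ) (L : Multiset (St O S)) (Z : Om O S → ℝ) (κ a : ℕ)
    (hL : ∀ s ∈ L, s.1 = κ) : ∀ b, a ≤ b → b ≤ n → (κ < a ∨ b ≤ κ) →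
    XX (chain L) (ex n) Z (b + 1) = XX (chain L) (ex n) Z (a + 1) := by
  intro b hb
  induction b, hb using Nat.le_induction with
  | base => intro _ _; rfl
  | succ b hb ih =>
    intro h1 h2
    rw [← ih (by omega) (by omega)]
    exact xx_skip n L Z κ b (by omega) hL (by omega)

theorem tt_one (n κ : ℕ) (hκ : κ < n) (L : Multiset (St O S)) (g : O → ℝ → ℝ)
    (hL : ∀ s ∈ L, s.1 = κ) :
    TT n g L = (1 - (κ : ℝ) / n)⁻¹ * log (lv (L.map vec) (fun ω : Om O S => exp ((1 - (κ : ℝ) / n) *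
      log ((∑ σ, exp (ZZ g (ω.1, σ))) / (Fintype.card S : ℝ)))) (0, default)) := by
  have h0 : L.filter (fun s => s.1 = κ) = L := Multiset.filter_eq_self.2 hL
  unfold TT
  rw [xx_run n L _ κ (κ + 1) hL n hκ le_rfl (Or.inl (Nat.lt_succ_self κ))]
  show (ex n (κ + 1))⁻¹ * log (lv ((L.filter (fun s => s.1 = κ)).map vec)
    (fun ω' => exp (ex n (κ + 1) * XX (chain L) (ex n) (ZZ g) (κ + 1) ω')) _) = _
  rw [xx_run n L _ κ 0 hL κ (Nat.zero_le κ) hκ.le (Or.inr le_rfl), h0]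
  have e : XX (chain L) (ex n) (ZZ g) (0 + 1) = fun ω : Om O S =>
      log ((∑ σ, exp (ZZ g (ω.1, σ))) / (Fintype.card S : ℝ)) := by
    ext ω
    show (1 : ℝ)⁻¹ * log ((∑ σ, exp (1 * ZZ g (ω.1, σ))) / _) = _
    simp
  rw [e]
  rfl

end

variable {S : Type} [Fintype S]

def Lp (F : (S → ℝ) → ℝ) : Prop := ∀ x y, |F x - F y| ≤ 1 * ‖x - y‖

def LE (l : Multiset (S → ℝ)) (F : (S → ℝ) → ℝ) (x : S → ℝ) : ℝ :=
  (lv l : Op ((S → ℝ) × Unit)) (fun ω => exp (F ω.1)) (x, ())

theorem LE_pos (l : Multiset (S → ℝ)) (F : (S → ℝ) → ℝ) (x : S → ℝ) : 0 < LE l F x :=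
  (exp_pos _).trans_le (aApi.jen (cApi.lv_mk l) (fun ω : (S → ℝ) × Unit => F ω.1) (x, ()))

theorem int_pos (h : StmtNB) {F : (S → ℝ) → ℝ} (hF : Lp F) (m : ℕ) (w : Fin m → S → ℝ)
    (x : S → ℝ) : 0 < ∫ v, exp (F (x + v)) ∂gn m w := by
  have := h.prob m w
  exact integral_exp_pos (h.int m w _ x (h.lipG F 1 hF).2)

theorem H_lp (h : StmtNB) {F : (S → ℝ) → ℝ} (hF : Lp F) (m : ℕ) (w : Fin m → S → ℝ) :
    Lp (fun y => log (∫ v, exp (F (y + v)) ∂gn m w)) := by
  have key : ∀ x y : S → ℝ, log (∫ v, exp (F (x + v)) ∂gn m w) ≤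
      log (∫ v, exp (F (y + v)) ∂gn m w) + ‖x - y‖ := by
    intro x y
    have h1 : ∫ v, exp (F (x + v)) ∂gn m w ≤ ∫ v, exp (F (y + v)) * exp ‖x - y‖ ∂gn m w := by
      refine integral_mono (h.int m w _ x (h.lipG F 1 hF).2)
        ((h.int m w _ y (h.lipG F 1 hF).2).mul_const _) (fun v => ?_)
      have h2 := (abs_le.1 (hF (x + v) (y + v))).2
      rw [add_sub_add_right_eq_sub, one_mul] at h2
      change exp (F (x + v)) ≤ exp (F (y + v)) * exp ‖x - y‖
      rw [← exp_add]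
      exact exp_le_exp.2 (by linarith)
    rw [integral_mul_const] at h1
    have h3 := log_le_log (int_pos h hF m w x) h1
    rwa [log_mul (int_pos h hF m w y).ne' (exp_pos _).ne', log_exp] at h3
  intro x y
  have a1 := key x y
  have a2 := key y x
  rw [norm_sub_rev] at a2
  rw [one_mul, abs_le]
  constructor <;> linarith

theorem LE_cmp (l : Multiset (S → ℝ)) (G : (S → ℝ) × Unit → ℝ) (H : (S → ℝ) → ℝ) (c : ℝ)
    (hG : ∀ ω, 0 < G ω) (hc : ∀ ω, |log (G ω) - H ω.1| ≤ c) (x : S → ℝ) :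
    |log ((lv l : Op ((S → ℝ) × Unit)) G (x, ())) - log (LE l H x)| ≤ c := by
  have hk := cApi.lv_mk (S := Unit) l
  have e : ∀ a : ℝ, (lv l : Op ((S → ℝ) × Unit)) (fun ω => exp (H ω.1 + a)) (x, ()) =
      LE l H x * exp a := by
    intro a
    have : (fun ω : (S → ℝ) × Unit => exp (H ω.1 + a)) = exp a • fun ω => exp (H ω.1) := by
      ext ω; simp only [Pi.smul_apply, smul_eq_mul, exp_add]; ring
    rw [this, map_smul, Pi.smul_apply, smul_eq_mul, mul_comm]; rfl
  have h1 := aApi.mono' hk (g := G) (h := fun ω => exp (H ω.1 + c)) (fun ω =>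
    (log_le_iff_le_exp (hG ω)).1 (by linarith [(abs_le.1 (hc ω)).2])) (x, ())
  have h2 := aApi.mono' hk (g := fun ω => exp (H ω.1 + -c)) (h := G) (fun ω =>
    (le_log_iff_exp_le (hG ω)).1 (by linarith [(abs_le.1 (hc ω)).1])) (x, ())
  rw [e] at h1 h2
  have hp := LE_pos l H x
  have h3 := log_le_log ((mul_pos hp (exp_pos _)).trans_le h2) h1
  have h4 := log_le_log (mul_pos hp (exp_pos _)) h2
  rw [log_mul hp.ne' (exp_pos _).ne', log_exp] at h3 h4
  exact abs_le.2 ⟨by linarith, by linarith⟩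

theorem pi (h : StmtNB) {ε : ℝ} : ∀ (m : ℕ) (w : Fin m → S → ℝ) (l : Fin m → Multiset (S → ℝ)),
    (∀ k, ∀ F : (S → ℝ) → ℝ, Lp F → ∀ x, |log (LE (l k) F x) -
      log (∫ z, exp (F (x + z • w k)) ∂gaussianReal 0 1)| ≤ ε) →
    ∀ F : (S → ℝ) → ℝ, Lp F → ∀ x,
      |log (LE (∑ k, l k) F x) - log (∫ v, exp (F (x + v)) ∂gn m w)| ≤ m * ε
  | 0, w, l, _, F, _, x => by
    rw [h.zero w (fun v => exp (F (x + v)))]
    simp [LE, cApi.lv_zero]
  | m + 1, w, l, hl, F, hF, x => by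
    have ih := pi h m (fun k => w k.succ) (fun k => l k.succ) (fun k => hl k.succ) F hF
    set H : (S → ℝ) → ℝ := fun y => log (∫ v, exp (F (y + v)) ∂gn m (fun k => w k.succ)) with hH
    have hHL : Lp H := H_lp h hF m _
    have e1 := hl 0 H hHL x
    have e2 := LE_cmp (l 0) (fun ω => LE (∑ k : Fin m, l k.succ) F ω.1) H _
      (fun ω => LE_pos _ _ _) (fun ω => ih ω.1) x
    have e3 : LE (∑ k, l k) F x = (lv (l 0) : Op ((S → ℝ) × Unit))
        (fun ω => LE (∑ k : Fin m, l k.succ) F ω.1) (x, ()) := by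
      rw [Fin.sum_univ_succ, LE, cApi.lv_add]; rfl
    have e4 : ∫ v, exp (F (x + v)) ∂gn (m + 1) w =
        ∫ z, exp (H (x + z • w 0)) ∂gaussianReal 0 1 := by
      rw [h.succ m w (fun v => exp (F (x + v))) (h.shift _ x (h.lipG F 1 hF).2)]
      refine integral_congr_ae (Eventually.of_forall (fun z => ?_))
      simp only [hH]
      rw [exp_log (int_pos h hF m _ _)]
      simp only [add_assoc]
    rw [e3, e4]
    push_cast
    rw [abs_le] at e1 e2 ⊢
    constructor <;> linarith [e1.1, e1.2, e2.1, e2.2]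

theorem base {K ε : ℝ} (hε : 0 < ε) :
    ∀ᶠ D : ℕ in atTop, ∀ w : S → ℝ, ‖w‖ ≤ K → ∀ F : (S → ℝ) → ℝ, Lp F → ∀ x,
      |log (LE (D • ({(1 / √(D : ℝ)) • w} : Multiset (S → ℝ))) F x) -
        log (∫ z, exp (F (x + z • w)) ∂gaussianReal 0 1)| ≤ ε := by
  obtain ⟨η, hη, H⟩ := hLin K 1 ε hε
  have ht : Tendsto (fun D : ℕ => 1 / √(D : ℝ)) atTop (nhds 0) := by
    simp only [one_div]
    exact tendsto_inv_atTop_zero.comp (Real.tendsto_sqrt_atTop.comp tendsto_natCast_atTop_atTop)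
  filter_upwards [ht.eventually (ge_mem_nhds hη), eventually_ge_atTop 1] with D hD hD1 w hw F hF x
  have hD0 : (0 : ℝ) < D := by exact_mod_cast hD1
  have h1 := (H (fun t => F (t • w + x)) (D • ({1 / √(D : ℝ)} : Multiset ℝ)) 1 0 (fun t s => by
      refine (hF _ _).trans ?_
      rw [add_sub_add_right_eq_sub, ← sub_smul, add_sub_cancel_left, norm_smul, Real.norm_eq_abs,
        one_mul, mul_comm]
      exact mul_le_mul_of_nonneg_right hw (abs_nonneg _))
    zero_le_one le_rfl (fun a ha => by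
      rw [Multiset.mem_singleton.1 (Multiset.mem_of_mem_nsmul ha), abs_of_nonneg (by positivity)]
      exact hD) (by
      rw [Multiset.map_nsmul, Multiset.sum_nsmul, Multiset.map_singleton, Multiset.sum_singleton,
        div_pow, Real.sq_sqrt hD0.le, nsmul_eq_mul, one_pow, mul_one_div_cancel hD0.ne', sub_self,
        abs_zero]
      exact hη.le)).2
  have h2 := cApi.lv_map ((smulAddHom ℝ (S → ℝ)).flip w) x (fun u : Unit => u)
    (D • ({1 / √(D : ℝ)} : Multiset ℝ)) (fun ω : (S → ℝ) × Unit => exp (F ω.1)) (0, ())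
  simp only [AddMonoidHom.flip_apply, smulAddHom_apply, zero_smul, zero_add, Multiset.map_nsmul,
    Multiset.map_singleton] at h2
  rw [h2] at h1
  simp only [Real.sqrt_one, one_mul, zero_add, add_comm _ x] at h1
  exact h1

theorem steps (N κ D : ℕ) (β : ℝ) :
    (D • skr N κ (β / √((N : ℝ) * D))).map vec =
      (∑ k, D • ({(1 / √(D : ℝ)) • wv N β k} : Multiset ((Fin N → Bool) → ℝ))).map
        (AddMonoidHom.single (fun _ : Option Empty => (Fin N → Bool) → ℝ) none) := by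
  rw [← smul_sum, Multiset.map_nsmul, Multiset.map_nsmul]
  congr 1
  have h1 := Equiv.sum_comp (Fintype.equivFin (Pr N)).symm (fun p : Pr N =>
    ({(1 / √(D : ℝ)) • ((β / √(N : ℝ)) • pw p)} : Multiset ((Fin N → Bool) → ℝ)))
  unfold wv
  rw [h1]
  unfold skr
  have h2 : ∑ p : Pr N, ({(1 / √(D : ℝ)) • ((β / √(N : ℝ)) • pw p)} :
      Multiset ((Fin N → Bool) → ℝ)) =
      (univ : Finset (Pr N)).val.map (fun p => (1 / √(D : ℝ)) • ((β / √(N : ℝ)) • pw p)) := by
    rw [← Multiset.bind_singleton]; rfl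
  rw [h2, Multiset.map_map, Multiset.map_map]
  refine Multiset.map_congr rfl (fun p _ => ?_)
  show (Pi.single none ((β / √((N : ℝ) * D)) • pw p) :
    Option Empty → (Fin N → Bool) → ℝ) = Pi.single none ((1 / √(D : ℝ)) • ((β / √(N : ℝ)) • pw p))
  rw [smul_smul, Real.sqrt_mul (Nat.cast_nonneg N)]
  congr 2
  rw [div_mul_div_comm, one_mul, mul_comm]

end Gl

open Gl in
theorem stmtGL (h : StmtNB) : StmtGL := by
  intro β ε n N κ hβ hε hκ hN
  set M := Fintype.card (Pr N) with hM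
  set m : ℝ := 1 - (κ : ℝ) / n with hm
  have hn0 : (0 : ℝ) < n := by exact_mod_cast (Nat.zero_le κ).trans_lt hκ
  have hm0 : 0 < m := Mono.mu_pos hκ
  have hm1 : m ≤ 1 := Mono.mu_le n κ
  have hε' : 0 < ε * m / (M + 1) := by positivity
  filter_upwards [base (S := Fin N → Bool) (K := β / √(N : ℝ)) hε'] with D hD
  have hF : Lp (fun x : (Fin N → Bool) → ℝ => m * lse x) := by
    intro x y
    rw [← mul_sub, abs_mul, abs_of_pos hm0]
    exact mul_le_mul hm1 (h.lip x y) (abs_nonneg _) zero_le_one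
  have h1 := Gl.pi h M (wv N β) _ (fun k => hD (wv N β k) (h.wv_le N β k hβ)) _ hF 0
  simp only [zero_add] at h1
  rw [tt_one n κ hκ _ _ (fun s hs => by
    obtain ⟨p, -, rfl⟩ := Multiset.mem_map.1 (Multiset.mem_of_mem_nsmul hs)
    rfl), steps, ← hm]
  set l := ∑ k, D • ({(1 / √(D : ℝ)) • wv N β k} : Multiset ((Fin N → Bool) → ℝ)) with hl
  have h2 := cApi.lv_map (AddMonoidHom.single (fun _ : Option Empty => (Fin N → Bool) → ℝ) none) 0
    (fun _ : Unit => (default : Fin N → Bool)) l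
    (fun ω : Om (Option Empty) (Fin N → Bool) => exp (m * log ((∑ σ,
      exp (ZZ (gg Empty f0) (ω.1, σ))) / (Fintype.card (Fin N → Bool) : ℝ)))) (0, ())
  simp only [map_zero, add_zero] at h2
  rw [← h2]
  have h3 : (fun x : ((Fin N → Bool) → ℝ) × Unit => exp (m * log ((∑ σ, exp (ZZ (gg Empty f0)
      (AddMonoidHom.single (fun _ : Option Empty => (Fin N → Bool) → ℝ) none x.1, σ))) /
        (Fintype.card (Fin N → Bool) : ℝ)))) =
      exp (-(m * (N * log 2))) • fun x => exp (m * lse x.1) := by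
    ext x
    have hz : ∀ σ, ZZ (gg Empty f0)
        (AddMonoidHom.single (fun _ : Option Empty => (Fin N → Bool) → ℝ) none x.1, σ) = x.1 σ := by
      intro σ
      unfold ZZ
      rw [Fintype.sum_option]
      simp [gg]
    have hp : 0 < ∑ σ : Fin N → Bool, exp (x.1 σ) := sum_pos (fun _ _ => exp_pos _) univ_nonempty
    simp only [hz, Pi.smul_apply, smul_eq_mul, ← exp_add]
    congr 1
    rw [log_div hp.ne' (by positivity)]
    simp only [Fintype.card_pi, Fintype.card_bool, prod_const, card_univ, Fintype.card_fin,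
      Nat.cast_pow, Nat.cast_ofNat, log_pow, lse]
    ring
  rw [h3, map_smul, Pi.smul_apply, smul_eq_mul]
  have hp := LE_pos l (fun x => m * lse x) 0
  change |m⁻¹ * log (_ * LE l (fun x => m * lse x) 0) - _| ≤ ε
  rw [log_mul (exp_pos _).ne' hp.ne', log_exp]
  have h4 : m⁻¹ * (-(m * (N * log 2)) + log (LE l (fun x => m * lse x) 0)) -
      (m⁻¹ * log (∫ v, exp (m * lse v) ∂gs N β) - N * log 2) =
      m⁻¹ * (log (LE l (fun x => m * lse x) 0) - log (∫ v, exp (m * lse v) ∂gs N β)) := by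
    field_simp; ring
  rw [h4, abs_mul, abs_of_pos (inv_pos.2 hm0), inv_mul_le_iff₀ hm0]
  refine le_trans h1 ?_
  rw [mul_div_assoc', div_le_iff₀ (by positivity)]
  nlinarith [mul_pos hε hm0]

end

end Vale.Agent.P146
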