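import Vale.Agent.P146.Spec

/-! P146: subgaussian upper bound. -/

namespace Vale.Agent.P146

open MeasureTheory ProbabilityTheory Finset Real

namespace GT

lemma exp_le (y : ℝ) : exp y ≤ 1 + y + y ^ 2 * exp |y| := by
  have h1 : 1 ≤ exp |y| := one_le_exp (abs_nonneg y)
  by_cases h : |y| ≤ 1
  · have := (abs_le.1 (Real.abs_exp_sub_one_sub_id_le h)).2
    nlinarith [sq_nonneg y]
  · push Not at h
    rcases le_total 0 y with hy | hy
    · rw [abs_of_nonneg hy] at h h1 ⊢
      nlinarith [mul_nonneg (show 0 ≤ y ^ 2 - 1 by nlinarith) (exp_pos y).le]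
    · have h2 : exp y ≤ 1 := exp_le_one_iff.2 hy
      rw [abs_of_nonpos hy] at h
      nlinarith [mul_nonneg (sq_nonneg y) (sub_nonneg.2 h1)]

noncomputable def bb (z : ℝ) : ℝ := 2 * (exp (2 * z) + exp (-2 * z))

lemma bb_int : Integrable bb (gaussianReal 0 1) :=
  ((integrable_exp_mul_gaussianReal 2).add (integrable_exp_mul_gaussianReal (-2))).const_mul 2

lemma bb_ge (z : ℝ) : z ^ 2 * exp |z| ≤ bb z := by
  have h1 : z ^ 2 ≤ 2 * exp |z| := by
    have := Real.quadratic_le_exp_of_nonneg (abs_nonneg z)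
    nlinarith [abs_nonneg z, sq_abs z]
  have h2 : exp |z| * exp |z| ≤ exp (2 * z) + exp (-2 * z) := by
    rw [← exp_add]
    rcases le_total 0 z with hz | hz
    · rw [abs_of_nonneg hz, show z + z = 2 * z by ring]; linarith [exp_pos (-2 * z)]
    · rw [abs_of_nonpos hz, show -z + -z = -2 * z by ring]; linarith [exp_pos (2 * z)]
  unfold bb
  nlinarith [exp_pos |z|]

noncomputable def cc : ℝ := ∫ z, bb z ∂gaussianReal 0 1

lemma cc_nn : 0 ≤ cc := integral_nonneg fun z => by unfold bb; positivity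

lemma one {G : ℝ → ℝ} {a : ℝ} (ha : 0 ≤ a) (ha1 : a ≤ 1) (hG : Integrable G (gaussianReal 0 1))
    (hl : ∀ z, |G z - G 0| ≤ a * |z|) {F : ℝ → ℝ} {c : ℝ} (hF0 : ∀ z, 0 ≤ F z)
    (hF : ∀ z, F z ≤ exp (G z + c)) :
    ∫ z, F z ∂gaussianReal 0 1 ≤ exp (∫ z, G z ∂gaussianReal 0 1 + c + cc * a ^ 2) := by
  have hi : Integrable (fun z => exp (G 0 + c) * (1 + (G z - G 0) + a ^ 2 * bb z))
      (gaussianReal 0 1) :=
    (((integrable_const 1).add (hG.sub (integrable_const _))).add (bb_int.const_mul _)).const_mul _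
  have h1 : ∫ z, F z ∂gaussianReal 0 1 ≤
      ∫ z, exp (G 0 + c) * (1 + (G z - G 0) + a ^ 2 * bb z) ∂gaussianReal 0 1 := by
    refine integral_mono_of_nonneg (Filter.Eventually.of_forall hF0) hi
      (Filter.Eventually.of_forall fun z => (hF z).trans ?_)
    have e : exp (G z + c) = exp (G 0 + c) * exp (G z - G 0) := by rw [← exp_add]; congr 1; ring
    rw [e]
    refine mul_le_mul_of_nonneg_left ((exp_le _).trans ?_) (exp_pos _).le
    have h2 : (G z - G 0) ^ 2 ≤ a ^ 2 * z ^ 2 := by
      rw [← sq_abs, ← sq_abs z, ← mul_pow]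
      exact pow_le_pow_left₀ (abs_nonneg _) (hl z) 2
    have h3 : exp |G z - G 0| ≤ exp |z| :=
      exp_le_exp.2 ((hl z).trans (by nlinarith [abs_nonneg z]))
    have h4 : (G z - G 0) ^ 2 * exp |G z - G 0| ≤ a ^ 2 * z ^ 2 * exp |z| :=
      mul_le_mul h2 h3 (exp_pos _).le (by positivity)
    nlinarith [mul_le_mul_of_nonneg_left (bb_ge z) (sq_nonneg a)]
  have i1 : Integrable (fun z => G z - G 0) (gaussianReal 0 1) := hG.sub (integrable_const _)
  have i2 : Integrable (fun z => 1 + (G z - G 0)) (gaussianReal 0 1) := (integrable_const 1).add i1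
  rw [integral_const_mul, integral_add i2 (bb_int.const_mul _), integral_add (integrable_const 1) i1,
    integral_sub hG (integrable_const _), integral_const_mul] at h1
  simp only [integral_const, probReal_univ, one_smul] at h1
  refine h1.trans ?_
  have e : exp (∫ z, G z ∂gaussianReal 0 1 + c + cc * a ^ 2) =
      exp (G 0 + c) * exp ((∫ z, G z ∂gaussianReal 0 1 - G 0) + a ^ 2 * cc) := by
    rw [← exp_add]; congr 1; ring
  rw [e]
  refine mul_le_mul_of_nonneg_left ?_ (exp_pos _).le
  have := add_one_le_exp ((∫ z, G z ∂gaussianReal 0 1 - G 0) + a ^ 2 * cc)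
  unfold cc at this ⊢
  linarith

variable {S : Type} [Fintype S] [Nonempty S]

lemma main (h : StmtNB) {l μ : ℝ} (hμ : 0 ≤ μ) (hl : μ * l ≤ 1) : ∀ (m : ℕ) (w : Fin m → S → ℝ),
    (∀ k, ‖w k‖ ≤ l) → ∀ x : S → ℝ, ∫ v, exp (μ * lse (x + v)) ∂gn m w ≤
      exp (μ * ∫ v, lse (x + v) ∂gn m w + cc * (m * (μ * l) ^ 2)) := by
  have gl : Gr (lse : (S → ℝ) → ℝ) := (h.lipG lse 1 fun x y => by simpa using h.lip x y).1
  have ge : Gr (fun v : S → ℝ => exp (μ * lse v)) :=
    (h.lipG (fun v => μ * lse v) μ fun x y => by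
      rw [← mul_sub, abs_mul, abs_of_nonneg hμ]
      exact mul_le_mul_of_nonneg_left (h.lip x y) hμ).2
  intro m
  induction m with
  | zero =>
    intro w _ x
    rw [h.zero, h.zero]
    simp
  | succ m ih =>
    intro w hw x
    have hl0 : 0 ≤ l := (norm_nonneg _).trans (hw 0)
    have := h.prob m (fun k => w k.succ)
    rw [h.succ m w _ (h.shift _ x ge), h.succ m w _ (h.shift _ x gl)]
    simp only [← add_assoc]
    have hG : Integrable (fun z : ℝ => ∫ v, lse (x + z • w 0 + v) ∂gn m (fun k => w k.succ))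
        (gaussianReal 0 1) := by
      simpa using h.int1 _ x (w 0) 0 (h.par m (fun k => w k.succ) _ gl)
    have key := one (a := μ * l) (c := cc * (m * (μ * l) ^ 2)) (mul_nonneg hμ hl0) hl
      (hG.const_mul μ) (fun z => ?_)
      (F := fun z => ∫ v, exp (μ * lse (x + z • w 0 + v)) ∂gn m (fun k => w k.succ))
      (fun z => integral_nonneg fun v => (exp_pos _).le)
      (fun z => ih _ (fun k => hw k.succ) _)
    · refine key.trans (le_of_eq ?_)
      rw [integral_const_mul]
      congr 1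
      push_cast
      ring
    · rw [← mul_sub, abs_mul, abs_of_nonneg hμ, mul_assoc]
      refine mul_le_mul_of_nonneg_left ?_ hμ
      rw [← integral_sub (h.int m _ lse _ gl) (h.int m _ lse _ gl)]
      have hb : ∀ v : S → ℝ, ‖lse (x + z • w 0 + v) - lse (x + (0 : ℝ) • w 0 + v)‖ ≤ l * |z| := by
        intro v
        refine (h.lip _ _).trans ?_
        have e : x + z • w 0 + v - (x + (0 : ℝ) • w 0 + v) = z • w 0 := by simp
        rw [e, norm_smul, Real.norm_eq_abs, mul_comm]
        exact mul_le_mul_of_nonneg_right (hw 0) (abs_nonneg z)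
      have := norm_integral_le_of_norm_le_const (μ := gn m (fun k => w k.succ))
        (Filter.Eventually.of_forall hb)
      simpa using this

end GT

theorem stmtGT (h : StmtNB) : StmtGT := by
  refine ⟨GT.cc, GT.cc_nn, fun S _ _ m w l μ hμ hl hw => ?_⟩
  have key := GT.main h hμ hl m w hw 0
  simp only [zero_add] at key
  have ge : Gr (fun v : S → ℝ => exp (μ * lse v)) :=
    (h.lipG (fun v => μ * lse v) μ fun x y => by
      rw [← mul_sub, abs_mul, abs_of_nonneg hμ]
      exact mul_le_mul_of_nonneg_left (h.lip x y) hμ).2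
  have := h.prob m w
  have hi := h.int m w _ 0 ge
  simp only [zero_add] at hi
  exact (log_le_iff_le_exp (integral_exp_pos hi)).2 key

end Vale.Agent.P146
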