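import Vale.Agent.P146.Spec

/-! P146 module HS: head sums of the overlap profile. -/

namespace Vale.Agent.P146

open MeasureTheory ProbabilityTheory Finset Real Filter
open Vale.Agent.P157

noncomputable section

namespace HS

theorem sm0 : Sm 1 f0 f0 f0 := by
  refine ⟨fun t h => ⟨by simp [f0], ?_⟩, fun t h => ⟨by simp [f0], ?_⟩, fun t h => ⟨by simp [f0], ?_⟩,
    by simp [f0], by simp [f0], fun t h => by simp [f0]⟩ <;> simp [f0] <;> positivity

theorem sp_sq {N : ℕ} (τ : Fin N) (σ : Fin N → Bool) : sp τ σ ^ 2 = 1 := ConcM.spin_sq _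

theorem path_nn {n : ℕ} {P : ℕ → ℝ} (h : P157.Path n P) (d : ℕ) (hd : d ≤ n) : 0 ≤ P d := by
  induction hd using Nat.decreasingInduction with
  | self => exact h.2.ge
  | of_succ k hk ih => exact ih.trans (h.1 k hk)

theorem trunc_path {n κ : ℕ} {P : ℕ → ℝ} (h : P157.Path n P) (hκ : κ < n) :
    P157.Path n (trunc κ P) := by
  refine ⟨fun d hd => ?_, by simp [trunc, hκ]⟩
  unfold trunc
  split_ifs with h1 h2 h2
  · exact h.1 d hd
  · omega
  · exact path_nn h d hd.le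
  · exact le_rfl

theorem stepS : ∃ C : ℝ, 0 ≤ C ∧ ∀ (n N : ℕ) (L : Sy Empty (Fin N)) (τ : Fin N) (κ m : ℕ) (η : ℝ),
    1 ≤ n → κ < n → |η| ≤ 1 → m * η ^ 2 ≤ 1 →
    |TT n (gg Empty f0) (L + lift none (sp τ) (m • {(κ, η)})) - TT n (gg Empty f0) L -
      m * η ^ 2 * (1 - (1 / (n : ℝ)) * ∑ d ∈ Icc 1 κ,
        EE n (gg Empty f0) L d (fun ω ω' => sp τ ω.2 * sp τ ω'.2)) / 2| ≤
      C * (m * η ^ 2 * √(m * η ^ 2)) := by
  obtain ⟨C, hC, h⟩ := hMs 1 le_rfl
  refine ⟨C, hC, fun n N L τ κ m η hn hκ hη hm => ?_⟩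
  have hv : vr (lift (none : Option Empty) (sp τ) (m • ({(κ, η)} : Multiset (ℕ × ℝ)))) =
      m * η ^ 2 := by
    rw [(hG.lift_vr none (sp τ) _ (sp_sq τ)).1, Multiset.map_nsmul, Multiset.sum_nsmul]; simp
  have h1 := (h (Option Empty) (Fin N → Bool) n (gg Empty f0) (gg1 Empty f0) (gg2 Empty f0) L
    (lift none (sp τ) (m • {(κ, η)})) hn (cApi.smg Empty 1 f0 f0 f0 le_rfl sm0)
    (hG.lift_small n 1 none (sp τ) _ (sp_sq τ) (fun s hs => by
      rw [Multiset.mem_singleton.1 (Multiset.mem_of_mem_nsmul hs)]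
      exact ⟨hκ, by simpa using hη⟩))).2 (by rw [hv]; exact hm)
  rw [hv] at h1
  have e2 : E1 n (gg Empty f0) L (ob (fun t => gg2 Empty f0 none t + gg1 Empty f0 none t ^ 2) none
      (fun _ : Fin N → Bool => 1)) = 1 := by
    have : ob (fun t => gg2 Empty f0 none t + gg1 Empty f0 none t ^ 2) (none : Option Empty)
        (fun _ : Fin N → Bool => 1) = fun _ => 1 := by
      funext ω; simp [ob, gg1, gg2]
    rw [this]
    exact (aApi.ce (cApi.ok n _ hn) _ 0 (n + 1) le_rfl).2 _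
  have e3 : ((lift (none : Option Empty) (sp τ) (m • ({(κ, η)} : Multiset (ℕ × ℝ)))).map
      (Gam n (gg Empty f0) (gg1 Empty f0) (gg2 Empty f0) L)).sum =
      m * η ^ 2 * (1 - (1 / (n : ℝ)) * ∑ d ∈ Icc 1 κ,
        EE n (gg Empty f0) L d (fun ω ω' => sp τ ω.2 * sp τ ω'.2)) / 2 := by
    have e4 : lift (none : Option Empty) (sp τ) (m • ({(κ, η)} : Multiset (ℕ × ℝ))) =
        m • {(κ, none, η • sp τ)} := by
      rw [lift, Multiset.map_nsmul, Multiset.map_singleton]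
    rw [e4, Multiset.map_nsmul, Multiset.sum_nsmul,
      Multiset.map_singleton, Multiset.sum_singleton, hG.gam_one _ _ _ _ _ _ _ _ _ (sp_sq τ), e2]
    simp only [ob, gg1, Option.elim, one_mul, nsmul_eq_mul]
    ring
  rw [e3] at h1
  exact h1

theorem ovl_eq {n N : ℕ} (L : Sy Empty (Fin N)) {d : ℕ} (h1 : 1 ≤ d) (h2 : d < n) :
    ovl n f0 L univ d = (1 / (N : ℝ)) * ∑ τ : Fin N,
      EE n (gg Empty f0) L d (fun ω ω' => sp τ ω.2 * sp τ ω'.2) := by
  rw [ovl, if_neg (by omega), if_pos h2]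
  unfold EE
  rw [← aApi.e2sum]
  have := aApi.e2add (chain L) (ex n) (ZZ (gg Empty f0)) (d + 1) (n + 1)
    (fun ω ω' => ∑ τ : Fin N, sp τ ω.2 * sp τ ω'.2) (fun _ _ => 0) (1 / (N : ℝ)) 0 (0, default)
  simp only [zero_mul, add_zero] at this
  rw [← this]
  congr 1
  funext ω ω'
  simp only [Rr, card_univ, Fintype.card_fin]
  ring

theorem arith {A0 A1 V p0 p1 r0 r1 θ t a b E1 E C1 C2 C3 u : ℝ} (ht : 0 < t) (hθ1 : t / 2 ≤ θ)
    (hθ2 : θ ≤ t) (hC1 : 0 ≤ C1) (hC3 : 0 ≤ C3) (hE : E1 ≤ 2 * E) (hu : u ≤ E) (hE0 : 0 ≤ E)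
    (h0 : |A0 - V - p0| ≤ C1 * E1) (h1 : |A1 - V - p1| ≤ C1 * E1) (h2 : |p0 - r0| ≤ 2 * u)
    (h3 : |p1 - r1| ≤ 2 * u) (h4 : |r1 - r0 - θ * (1 - b) / 2| ≤ C2 * (θ * √θ))
    (h5 : |A1 - A0 - θ * (1 - a) / 2| ≤ C3 * (θ * √θ)) :
    |a - b| ≤ (16 * C1 + 16 + 2 * (|C2| + C3)) * (E / t + √t) := by
  have hθ : 0 < θ := by linarith
  have hs : √θ ≤ √t := sqrt_le_sqrt hθ2
  have hs0 : 0 ≤ √θ := sqrt_nonneg _
  have b1 : C1 * E1 ≤ C1 * (2 * E) := mul_le_mul_of_nonneg_left hE hC1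
  have b2 : C2 * (θ * √θ) ≤ |C2| * (θ * √t) :=
    mul_le_mul (le_abs_self _) (mul_le_mul_of_nonneg_left hs hθ.le) (by positivity) (abs_nonneg _)
  have b3 : C3 * (θ * √θ) ≤ C3 * (θ * √t) :=
    mul_le_mul_of_nonneg_left (mul_le_mul_of_nonneg_left hs hθ.le) hC3
  have b4 : E ≤ 2 * θ * (E / t) := by
    have : E = t * (E / t) := by field_simp
    have h6 : 0 ≤ E / t := by positivity
    nlinarith
  have b5 : (C1 + 1) * E ≤ (C1 + 1) * (2 * θ * (E / t)) := mul_le_mul_of_nonneg_left b4 (by linarith)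
  have b6 : |θ / 2 * (a - b)| ≤ 4 * ((C1 + 1) * E) + (|C2| * (θ * √t) + C3 * (θ * √t)) := by
    obtain ⟨x1, x2⟩ := abs_le.1 h0
    obtain ⟨x3, x4⟩ := abs_le.1 h1
    obtain ⟨x5, x6⟩ := abs_le.1 h2
    obtain ⟨x7, x8⟩ := abs_le.1 h3
    obtain ⟨x9, x10⟩ := abs_le.1 h4
    obtain ⟨x11, x12⟩ := abs_le.1 h5
    rw [abs_le]; constructor <;> linarith
  rw [abs_mul, abs_of_pos (by positivity : 0 < θ / 2)] at b6
  have b7 : 0 ≤ θ * ((C1 + 1) * √t) := by positivity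
  have b8 : 0 ≤ θ * ((|C2| + C3) * (E / t)) := by positivity
  have b9 : θ / 2 * |a - b| ≤ θ / 2 * ((16 * C1 + 16 + 2 * (|C2| + C3)) * (E / t + √t)) := by
    linarith
  exact le_of_mul_le_mul_left b9 (by positivity)

end HS

open HS in
theorem stmtHS (h : StmtCV) : StmtHS := by
  intro β
  obtain ⟨C1, hC1, hCV⟩ := h β
  obtain ⟨C2, hS2⟩ := ConcM.step aApi cApi hG hMs
  obtain ⟨C3, hC3, hS3⟩ := stepS
  refine ⟨16 * C1 + 16 + 2 * (|C2| + C3), by positivity, fun n N t ζ hn hN ht ht1 hζ => ?_⟩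
  have hNp : (0 : ℝ) < N := by exact_mod_cast hN
  have hnp : (0 : ℝ) < n := by exact_mod_cast hn
  obtain ⟨η1, hη1, h2⟩ := hG2 n 0 (β ^ 2 + 1) (1 / N) hn (by positivity)
  refine ⟨min (η1 ^ 2) (min ((1 / N) ^ 2) 1), by positivity,
    fun κ D1 D2 c Y e y hκ hβ hc hy hY hconc => ?_⟩
  set L := sk n N κ D1 D2 c y with hL
  set P := ovl n f0 L univ with hP
  set c2 : ℝ := N * c ^ 2 with hc2
  have hc20 : 0 ≤ c2 := by positivity
  have : Nonempty (Fin N) := ⟨⟨0, hN⟩⟩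
  obtain ⟨hPp, hP0⟩ := hG.ovl_path n f0 L univ hn univ_nonempty
  rw [← hP] at hPp hP0
  have hT1 := trunc_path hPp (show n - 1 < n by omega)
  have hT2 := trunc_path hPp hκ
  have hT10 : trunc (n - 1) P 0 = 1 := by simp [trunc, hP0]
  have hT20 : trunc κ P 0 = 1 := by simp [trunc, hP0]
  set q : ℕ → ℝ := fun d => (D1 * trunc (n - 1) P d + D2 * trunc κ P d) * c2 with hq
  have hqp : P157.Path n q := by
    refine ⟨fun d hd => mul_le_mul_of_nonneg_right (add_le_add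
      (mul_le_mul_of_nonneg_left (hT1.1 d hd) (Nat.cast_nonneg _))
      (mul_le_mul_of_nonneg_left (hT2.1 d hd) (Nat.cast_nonneg _))) hc20, ?_⟩
    simp only [hq, hT1.2, hT2.2]; ring
  have hq0 : q 0 ≤ β ^ 2 := by simp only [hq, hT10, hT20, mul_one]; exact hβ
  set l0 := D1 • sprof n (trunc (n - 1) P) c2 + D2 • sprof n (trunc κ P) c2 with hl0
  have hl0s : ∀ s ∈ l0, |s.2| ≤ η1 := by
    have h3 : √c2 ≤ η1 := by
      rw [sqrt_le_left hη1.le]; exact hc.trans (min_le_left _ _)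
    intro s hs
    rcases Multiset.mem_add.1 hs with hs | hs
    · have := ((hG.sprof_var n _ c2 hT1 hc20).2.2 s (Multiset.mem_of_mem_nsmul hs)).2
      rw [hT10, mul_one] at this; exact this.trans h3
    · have := ((hG.sprof_var n _ c2 hT2 hc20).2.2 s (Multiset.mem_of_mem_nsmul hs)).2
      rw [hT20, mul_one] at this; exact this.trans h3
  have hl0v : ∀ d, d < n → lvar l0 d = q d - q (d + 1) := by
    intro d hd
    rw [hl0, (hG.lvar_add _ _ 0 d).1, (hG.lvar_add _ 0 D1 d).2, (hG.lvar_add _ 0 D2 d).2,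
      (hG.sprof_var n _ c2 hT1 hc20).2.1 d hd, (hG.sprof_var n _ c2 hT2 hc20).2.1 d hd]
    simp only [hq]; ring
  set η : ℝ := min (min η1 1) (min (t / 2) (ζ / n)) with hη
  have hη0 : 0 < η := by positivity
  have hηa : η ≤ η1 := (min_le_left _ _).trans (min_le_left _ _)
  have hηb : η ≤ 1 := (min_le_left _ _).trans (min_le_right _ _)
  have hηc : η ≤ t / 2 := (min_le_right _ _).trans (min_le_left _ _)
  have hηd : η ≤ ζ / n := (min_le_right _ _).trans (min_le_right _ _)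
  have hη2 : η ^ 2 ≤ η := by nlinarith
  have hη2p : 0 < η ^ 2 := by positivity
  set a : ℕ → ℕ := fun d => ⌊(q d - q (d + 1)) / η ^ 2⌋₊ with ha
  have ha1 : ∀ d, d < n → a d * η ^ 2 ≤ q d - q (d + 1) ∧ q d - q (d + 1) ≤ a d * η ^ 2 + η ^ 2 := by
    intro d hd
    have h3 := Nat.floor_le (div_nonneg (sub_nonneg.2 (hqp.1 d hd)) hη2p.le)
    have h4 := Nat.lt_floor_add_one ((q d - q (d + 1)) / η ^ 2)
    rw [le_div_iff₀ hη2p] at h3
    rw [div_lt_iff₀ hη2p] at h4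
    exact ⟨h3, by simp only [ha]; linarith⟩
  refine ⟨η, a, hη0.le, fun d hd => ?_, fun k hk => ?_⟩
  · have e1 : ∑ j ∈ Ico d n, (q j - q (j + 1)) = q d := by
      rw [Finset.sum_Ico_eq_sub _ hd, Finset.sum_range_sub', Finset.sum_range_sub', hqp.2]; ring
    have e2 : η ^ 2 * cum n a d = ∑ j ∈ Ico d n, a j * η ^ 2 := by
      rw [cum, ← Finset.sum_mul]; push_cast; ring
    change η ^ 2 * cum n a d ≤ q d ∧ q d ≤ η ^ 2 * cum n a d + ζ
    rw [e2, ← e1]
    refine ⟨sum_le_sum (fun j hj => (ha1 j (mem_Ico.1 hj).2).1),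
      (sum_le_sum (fun j hj => (ha1 j (mem_Ico.1 hj).2).2)).trans ?_⟩
    rw [sum_add_distrib, sum_const, Nat.card_Ico, nsmul_eq_mul]
    have h3 : ((n - d : ℕ) : ℝ) ≤ n := by exact_mod_cast Nat.sub_le n d
    have h4 : η * n ≤ ζ := (le_div_iff₀ hnp).1 hηd
    nlinarith
  have hcmp : ∀ m : ℕ, m * η ^ 2 ≤ 1 →
      |PD n (m • {(k, η)} + l0) - PD n (lat n η a + m • {(k, η)})| ≤ 2 * (1 / N) := by
    intro m hm
    set θ : ℝ := m * η ^ 2 with hθ
    have hθ0 : 0 ≤ θ := by positivity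
    have hqθ : P157.Path n (fun d => q d + if d ≤ k then θ else 0) := by
      refine ⟨fun d hd => add_le_add (hqp.1 d hd) ?_, by simp [hqp.2, hk]⟩
      split_ifs <;> first | omega | linarith
    have hXs : ∀ s ∈ m • ({(k, η)} : Multiset (ℕ × ℝ)), |s.2| ≤ η1 := fun s hs => by
      rw [Multiset.mem_singleton.1 (Multiset.mem_of_mem_nsmul hs), abs_of_pos hη0]; exact hηa
    have hXv : ∀ d, lvar (m • ({(k, η)} : Multiset (ℕ × ℝ))) d =
        (if d ≤ k then θ else 0) - (if d + 1 ≤ k then θ else 0) := by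
      intro d
      rw [(hG.lvar_add _ 0 m d).2, ConcM.lvar_one]
      split_ifs <;> first | omega | ring
    have a1 := (h2 _ (m • {(k, η)} + l0) hqθ (by simp only [Nat.zero_le, if_true]; linarith)
      (fun s hs => (Multiset.mem_add.1 hs).elim (hXs s) (hl0s s))
      (fun d hd => by
        rw [(hG.lvar_add _ _ 0 d).1, hXv, hl0v d hd, abs_le]
        constructor <;> linarith)).2
    have a2 := (h2 _ (lat n η a + m • {(k, η)}) hqθ (by simp only [Nat.zero_le, if_true]; linarith)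
      (fun s hs => (Multiset.mem_add.1 hs).elim
        (fun hs => by rw [ConcM.mem_lat hs, abs_of_pos hη0]; exact hηa) (hXs s))
      (fun d hd => by
        rw [(hG.lvar_add _ _ 0 d).1, hXv, ConcM.lvar_lat hG, if_pos hd, abs_le]
        obtain ⟨x1, x2⟩ := ha1 d hd
        constructor <;> linarith)).2
    obtain ⟨x1, x2⟩ := abs_le.1 a1
    obtain ⟨x3, x4⟩ := abs_le.1 a2
    rw [abs_le]; constructor <;> linarith
  set m : ℕ := ⌊t / η ^ 2⌋₊ with hm
  have hm1 : m * η ^ 2 ≤ t := (le_div_iff₀ hη2p).1 (Nat.floor_le (by positivity))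
  have hm2 : t / 2 ≤ m * η ^ 2 := by
    have h4 := Nat.lt_floor_add_one (t / η ^ 2)
    rw [div_lt_iff₀ hη2p, ← hm] at h4
    linarith
  have hτ : ∀ τ : Fin N, |(1 / (n : ℝ)) * ∑ d ∈ Icc 1 k,
      EE n (gg Empty f0) L d (fun ω ω' => sp τ ω.2 * sp τ ω'.2) -
      (1 / (n : ℝ)) * ∑ d ∈ Icc 1 k, piD n (lat n η a) d| ≤
      (16 * C1 + 16 + 2 * (|C2| + C3)) * ((√e + 1 / N + n * Y ^ 2) / t + √t) := by
    intro τ
    obtain ⟨V, hV⟩ := hCV n N κ D1 D2 c Y e y P τ hκ hβ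
      (hc.trans ((min_le_right _ _).trans (min_le_right _ _))) hy hY hPp hP0 hconc
    have a0 := hV 0 (by simp) (by simp)
    have a1 := hV (m • {(k, η)}) (fun s hs => by
        rw [Multiset.mem_singleton.1 (Multiset.mem_of_mem_nsmul hs)]
        exact ⟨hk, by rw [abs_of_pos hη0]; exact hηb⟩)
      (by rw [Multiset.map_nsmul, Multiset.sum_nsmul]; simpa using hm1.trans ht1)
    have a2 := hcmp 0 (by simp)
    have a3 := hcmp m (hm1.trans ht1)
    have a4 := hS2 n (lat n η a) k m η hn hk (by rw [abs_of_pos hη0]; exact hηb) (hm1.trans ht1)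
    have a5 := hS3 n N L τ k m η hn hk (by rw [abs_of_pos hη0]; exact hηb) (hm1.trans ht1)
    have e0 : lift (none : Option Empty) (sp τ) 0 = 0 := rfl
    rw [e0, add_zero] at a0
    rw [zero_smul, add_zero] at a2
    have h3 : √c2 ≤ 1 / N := by
      rw [sqrt_le_left (by positivity)]; exact hc.trans ((min_le_right _ _).trans (min_le_left _ _))
    have h4 : 0 ≤ √e := sqrt_nonneg _
    have h5 : 0 ≤ (n : ℝ) * Y ^ 2 := by positivity
    have h6 : (0 : ℝ) ≤ 1 / N := by positivity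
    exact arith ht hm2 hm1 hC1 hC3 (by linarith) (by linarith) (by linarith) a0 a1 a2 a3 a4 a5
  have e : (1 / (n : ℝ)) * ∑ d ∈ Icc 1 k, (P d - piD n (lat n η a) d) =
      (1 / (N : ℝ)) * ∑ τ : Fin N, ((1 / (n : ℝ)) * ∑ d ∈ Icc 1 k,
        EE n (gg Empty f0) L d (fun ω ω' => sp τ ω.2 * sp τ ω'.2) -
        (1 / (n : ℝ)) * ∑ d ∈ Icc 1 k, piD n (lat n η a) d) := by
    rw [sum_sub_distrib, sum_sub_distrib, sum_const, card_univ, Fintype.card_fin, nsmul_eq_mul,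
      ← mul_sum, sum_comm, sum_congr rfl (fun d hd => ovl_eq L (mem_Icc.1 hd).1
        ((mem_Icc.1 hd).2.trans_lt hk)), ← mul_sum]
    field_simp
  rw [e, abs_mul, abs_of_pos (by positivity : (0 : ℝ) < 1 / N)]
  have h7 := (abs_sum_le_sum_abs _ _).trans (sum_le_card_nsmul univ _ _ (fun τ _ => hτ τ))
  rw [card_univ, Fintype.card_fin, nsmul_eq_mul] at h7
  refine (mul_le_mul_of_nonneg_left h7 (by positivity)).trans (le_of_eq ?_)
  field_simp

end

end Vale.Agent.P146
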