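import Vale.Agent.P146.Spec

/-! P146: the overlap at the top levels is small. -/

namespace Vale.Agent.P146

open MeasureTheory ProbabilityTheory Finset Real
open Vale.Agent.P157

namespace KY

lemma fin {tt a a' b b' E r C : ℝ} (h0 : 0 ≤ tt) (h1 : tt ≤ 1) (ha : 0 ≤ a) (hab : a ≤ b)
    (hA : |a - a'| ≤ E) (hB : |b - b'| ≤ E) (hr : 0 ≤ r) (hC : 0 ≤ C)
    (h : a' * b ≤ (1 - tt) * (a * b') + 2 * C * r * b + r ^ 2) :
    tt * a ≤ 2 * E + (2 * C + 1) * r := by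
  have hE : 0 ≤ E := (abs_nonneg _).trans hA
  have hCr : 0 ≤ C * r := mul_nonneg hC hr
  rcases le_or_gt a r with har | har
  · nlinarith
  · have hb : 0 < b := by linarith
    have e1 : (a - E) * b ≤ a' * b :=
      mul_le_mul_of_nonneg_right (by linarith [(abs_le.1 hA).2]) hb.le
    have e2 : a * b' ≤ a * (b + E) :=
      mul_le_mul_of_nonneg_left (by linarith [(abs_le.1 hB).1]) ha
    have e3 : (1 - tt) * (a * b') ≤ (1 - tt) * (a * (b + E)) :=
      mul_le_mul_of_nonneg_left e2 (by linarith)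
    have e4 : (1 - tt) * (a * E) ≤ b * E := by
      nlinarith [mul_nonneg ha hE, mul_nonneg (sub_nonneg.2 hab) hE, mul_nonneg h0 (mul_nonneg ha hE)]
    have e5 : r ^ 2 ≤ r * b := by nlinarith
    refine le_of_mul_le_mul_right ?_ hb
    nlinarith

lemma anti {n : ℕ} {P : ℕ → ℝ} (h : P157.Path n P) {a b : ℕ} (hab : a ≤ b) (hb : b ≤ n) :
    P b ≤ P a := by
  induction b, hab using Nat.le_induction with
  | base => exact le_rfl
  | succ k _ ih => exact (h.1 k (by omega)).trans (ih (by omega))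

lemma nn {n : ℕ} {P : ℕ → ℝ} (h : P157.Path n P) {a : ℕ} (ha : a ≤ n) : 0 ≤ P a := by
  have := anti h ha le_rfl
  rwa [h.2] at this

lemma piD_bd {n : ℕ} (l : Multiset (ℕ × ℝ)) {d : ℕ} (hd : d < n) :
    0 ≤ piD n l d ∧ piD n l d ≤ 1 := by
  obtain ⟨h1, h2⟩ := hG.w_path n (fun _ : Unit => id) (lift () spin l) (fun ω => spin ω.2) 1
    (by omega) (fun ω => by cases ω.2 <;> simp [spin])
  have e1 := nn h1 hd.le
  have e2 := anti h1 (Nat.zero_le d) hd.le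
  simp only [hd, if_true, show 0 < n by omega] at e1 e2
  exact ⟨e1, by unfold piD; linarith⟩

lemma head {n : ℕ} {f : ℕ → ℝ} {ε : ℝ} (hn : 1 ≤ n)
    (h : ∀ k, k < n → |(1 / (n : ℝ)) * ∑ d ∈ Icc 1 k, f d| ≤ ε) {a b : ℕ} (hab : a ≤ b)
    (hb : b < n) : |∑ d ∈ Ioc a b, f d| ≤ 2 * (n * ε) := by
  have hn' : (0 : ℝ) < n := by exact_mod_cast hn
  have h1 : ∀ k, k < n → |∑ d ∈ Ioc 0 k, f d| ≤ n * ε := fun k hk => by
    have := h k hk
    rw [show Icc 1 k = Ioc 0 k by ext; simp only [mem_Icc, mem_Ioc]; omega, abs_mul,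
      abs_of_pos (by positivity : (0 : ℝ) < 1 / n), one_div, inv_mul_le_iff₀ hn'] at this
    exact this
  have e := sum_Ioc_consecutive f (Nat.zero_le a) hab
  have h2 := abs_le.1 (h1 a (by omega))
  have h3 := abs_le.1 (h1 b hb)
  rw [abs_le]
  constructor <;> linarith [h2.1, h2.2, h3.1, h3.2]

lemma core {n j : ℕ} {P Q : ℕ → ℝ} {tt ε C : ℝ} (hj : 1 ≤ j) (hn : 2 * j + 1 ≤ n)
    (hP : P157.Path n P) (h0 : 0 ≤ tt) (h1 : tt ≤ 1) (hC : 0 ≤ C)
    (hh : ∀ k, k < n → |(1 / (n : ℝ)) * ∑ d ∈ Icc 1 k, (P d - Q d)| ≤ ε)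
    (hp : ∀ d ∈ Ioc (n - 1 - j) (n - 1), ∀ s ∈ Ioc (n - 1 - j - j) (n - 1 - j),
      Q d * P s ≤ (1 - tt) * (P d * Q s) + 2 * C * (j / n) * P s + (j / n) ^ 2) :
    tt * ((1 / (j : ℝ)) * ∑ d ∈ Ioc (n - 1 - j) (n - 1), P d) ≤
      4 * ((n : ℝ) / j * ε) + (2 * C + 1) * (j / n) := by
  have hj' : (0 : ℝ) < j := by exact_mod_cast hj
  set S := Ioc (n - 1 - j) (n - 1) with hS
  set S' := Ioc (n - 1 - j - j) (n - 1 - j) with hS'
  have c1 : (S.card : ℝ) = j := by rw [hS, Nat.card_Ioc]; congr 1; omega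
  have c2 : (S'.card : ℝ) = j := by rw [hS', Nat.card_Ioc]; congr 1; omega
  have s1 : (∑ d ∈ S, Q d) * ∑ s ∈ S', P s ≤ (1 - tt) * ((∑ d ∈ S, P d) * ∑ s ∈ S', Q s) +
      j * (2 * C * (j / n) * ∑ s ∈ S', P s) + j * (j * (j / n) ^ 2) := by
    rw [sum_mul_sum, sum_mul_sum]
    refine (sum_le_sum fun d hd => sum_le_sum fun s hs => hp d hd s hs).trans (le_of_eq ?_)
    simp only [sum_add_distrib, ← mul_sum, sum_const, nsmul_eq_mul, c1, c2]
    ring
  have a1 : ∑ d ∈ S, P d ≤ j * P (n - 1 - j) := by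
    rw [← c1, ← nsmul_eq_mul]
    refine sum_le_card_nsmul _ _ _ fun d hd => ?_
    rw [hS, mem_Ioc] at hd
    exact anti hP hd.1.le (by omega)
  have a2 : j * P (n - 1 - j) ≤ ∑ s ∈ S', P s := by
    rw [← c2, ← nsmul_eq_mul]
    refine card_nsmul_le_sum _ _ _ fun d hd => ?_
    rw [hS', mem_Ioc] at hd
    exact anti hP hd.2 (by omega)
  have a0 : 0 ≤ ∑ d ∈ S, P d := sum_nonneg fun d hd => by
    rw [hS, mem_Ioc] at hd
    exact nn hP (by omega)
  have d1 := head (by omega) hh (show n - 1 - j ≤ n - 1 by omega) (by omega)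
  have d2 := head (by omega) hh (show n - 1 - j - j ≤ n - 1 - j by omega) (by omega)
  rw [sum_sub_distrib, ← hS] at d1
  rw [sum_sub_distrib, ← hS'] at d2
  have hi : 0 < 1 / (j : ℝ) := by positivity
  have dv : ∀ x y : ℝ, |x - y| ≤ 2 * (n * ε) →
      |1 / (j : ℝ) * x - 1 / (j : ℝ) * y| ≤ 2 * ((n : ℝ) / j * ε) := fun x y h => by
    rw [← mul_sub, abs_mul, abs_of_pos hi]
    refine (mul_le_mul_of_nonneg_left h hi.le).trans (le_of_eq ?_)
    ring
  have key := fin (C := C) (r := (j : ℝ) / n) h0 h1 (mul_nonneg hi.le a0)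
    (mul_le_mul_of_nonneg_left (a1.trans a2) hi.le) (dv _ _ d1) (dv _ _ d2) (by positivity) hC ?_
  · linarith
  · have := mul_le_mul_of_nonneg_left s1 (mul_nonneg hi.le hi.le)
    refine le_of_eq_of_le (by ring) (this.trans (le_of_eq ?_))
    field_simp

end KY

theorem stmtKY (h : StmtHS) (hs : StmtSC) : StmtKY := by
  intro β hβ
  obtain ⟨C1, hC1, h⟩ := h β
  obtain ⟨C2, hC2, hs⟩ := hs (β ^ 2)
  refine ⟨4 * C1 + 2 * C2 + 1, by positivity, fun n N j t hj hn hN ht ht1 => ?_⟩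
  have hj' : (0 : ℝ) < j := by exact_mod_cast hj
  have hn' : (0 : ℝ) < n := by exact_mod_cast (by omega : 0 < n)
  obtain ⟨η0, hη0, h⟩ := h n N t (β ^ 2 * (j / n) ^ 2) (by omega) hN ht ht1 (by positivity)
  refine ⟨η0, hη0, fun D1 D2 c Y e y hD hc hy hY hcon => ?_⟩
  obtain ⟨η, a, hη, hq, hh⟩ := h (n - 1 - j) D1 D2 c Y e y (by omega) hD.le hc hy hY hcon
  have hne : (univ : Finset (Fin N)).Nonempty := ⟨⟨0, by omega⟩, mem_univ _⟩
  obtain ⟨hP, hP0⟩ := hG.ovl_path n f0 (sk n N (n - 1 - j) D1 D2 c y) univ (by omega) hne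
  set P := ovl n f0 (sk n N (n - 1 - j) D1 D2 c y) univ with hPdef
  have hb2 : 0 < β ^ 2 := by positivity
  have hD0 : (0 : ℝ) < D1 + D2 := by
    rcases (show (0 : ℝ) ≤ D1 + D2 by positivity).eq_or_lt with h0 | h0
    · rw [← h0] at hD; linarith
    · exact h0
  have hν : (N : ℝ) * c ^ 2 = β ^ 2 / (D1 + D2) := by rw [← hD]; field_simp
  have h0 : (0 : ℝ) ≤ D2 / (D1 + D2) := by positivity
  have h1 : (D2 : ℝ) / (D1 + D2) ≤ 1 := by
    rw [div_le_one hD0]; linarith [(Nat.cast_nonneg D1 : (0 : ℝ) ≤ D1)]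
  have key := KY.core hj hn hP h0 h1 hC2 hh (fun d hd s hs' => ?_)
  · refine key.trans ?_
    have hε := (abs_nonneg _).trans (hh 0 (by omega))
    have hX : 0 ≤ (n : ℝ) / j * ((√e + 1 / N + n * Y ^ 2) / t + √t) := by positivity
    have hr : (0 : ℝ) ≤ j / n := by positivity
    nlinarith [mul_nonneg hC2 hX, mul_nonneg hC1 hr]
  · rw [mem_Ioc] at hd hs'
    obtain ⟨q1, q2⟩ := hq s (by omega)
    obtain ⟨q3, -⟩ := hq d (by omega)
    have e1 : (D1 * trunc (n - 1) P s + D2 * trunc (n - 1 - j) P s) * (N * c ^ 2) = β ^ 2 * P s := by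
      rw [trunc, trunc, if_pos (by omega), if_pos hs'.2, ← hD]; ring
    have e2 : (D1 * trunc (n - 1) P d + D2 * trunc (n - 1 - j) P d) * (N * c ^ 2) =
        β ^ 2 * ((1 - D2 / (D1 + D2)) * P d) := by
      rw [trunc, trunc, if_pos hd.2, if_neg (by omega), hν]; field_simp; ring
    rw [e1] at q1 q2
    rw [e2] at q3
    have p1 : P s ≤ 1 := hP0 ▸ KY.anti hP (Nat.zero_le s) (by omega)
    have p0 : 0 ≤ P s := KY.nn hP (by omega)
    have k := hs n η a s d hη (by omega) (by omega) (q1.trans (by nlinarith))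
    obtain ⟨b1, b2⟩ := KY.piD_bd (lat n η a) (show d < n by omega)
    obtain ⟨b3, -⟩ := KY.piD_bd (lat n η a) (show s < n by omega)
    have r1 : 1 - (s : ℝ) / n ≤ 2 * (j / n) := by
      have : (n : ℝ) ≤ s + 2 * j := by exact_mod_cast (by omega : n ≤ s + 2 * j)
      rw [sub_le_iff_le_add, ← mul_div_assoc, ← add_div, le_div_iff₀ hn']; linarith
    have cs : 0 ≤ η ^ 2 * (cum n a s : ℝ) := by positivity
    have k2 := mul_le_mul_of_nonneg_left k (sq_nonneg η)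
    have t1 : C2 * (1 - (s : ℝ) / n) * (η ^ 2 * cum n a s) ≤ C2 * (2 * (j / n)) * (β ^ 2 * P s) :=
      (mul_le_mul_of_nonneg_right (mul_le_mul_of_nonneg_left r1 hC2) cs).trans
        (mul_le_mul_of_nonneg_left q1 (by positivity))
    have t2 := mul_le_mul_of_nonneg_right q3 b3
    have t3 := mul_le_mul_of_nonneg_left q2 b1
    have t4 : piD n (lat n η a) d * (β ^ 2 * (j / n) ^ 2) ≤ β ^ 2 * (j / n) ^ 2 :=
      mul_le_of_le_one_left (by positivity) b2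
    refine le_of_mul_le_mul_left ?_ hb2
    linear_combination k2 + t1 + t2 + t3 + t4

end Vale.Agent.P146
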