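import Vale.Agent.P146.Spec

/-! P146 module SC: the scalar inequality on the lattice. -/

namespace Vale.Agent.P146

open Finset Real
open Vale.Agent.P157 Vale.Agent.P157.Mono

noncomputable section

namespace SC

theorem avn_lin (a b c : ℝ) (f g : ℤ → ℝ) : ∀ (m : ℕ) (k : ℤ),
    av^[m] (fun i => a + b * f i + c * g i) k = a + b * av^[m] f k + c * av^[m] g k
  | 0, _ => rfl
  | m + 1, k => by
    simp only [Function.iterate_succ_apply']
    rw [av, av, av, avn_lin a b c f g m, avn_lin a b c f g m]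
    ring

theorem avn_mono {f g : ℤ → ℝ} (h : ∀ i, f i ≤ g i) : ∀ (m : ℕ) (k : ℤ), av^[m] f k ≤ av^[m] g k
  | 0, k => h k
  | m + 1, k => by
    simp only [Function.iterate_succ_apply']
    have h1 := avn_mono h m (k + 1)
    have h2 := avn_mono h m (k - 1)
    change (av^[m] f (k + 1) + av^[m] f (k - 1)) / 2 ≤ (av^[m] g (k + 1) + av^[m] g (k - 1)) / 2
    linarith

theorem avn_const (a : ℝ) (m : ℕ) (k : ℤ) : av^[m] (fun _ => a) k = a := by
  have := avn_lin a 0 0 (fun _ => 0) (fun _ => 0) m k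
  simpa using this

theorem avn_abs {g : ℤ → ℝ} (h : ∀ i, |g i| ≤ 1) (m : ℕ) (k : ℤ) : |av^[m] g k| ≤ 1 := by
  have h1 := avn_mono (f := g) (g := fun _ => 1) (fun i => (abs_le.1 (h i)).2) m k
  have h2 := avn_mono (f := fun _ => -1) (g := g) (fun i => (abs_le.1 (h i)).1) m k
  rw [avn_const] at h1 h2
  exact abs_le.2 ⟨h2, h1⟩

theorem avn_odd {u : ℤ → ℝ} (h : ∀ k, u (-k) = -u k) : ∀ (m : ℕ) (k : ℤ),
    av^[m] u (-k) = -av^[m] u k
  | 0, k => h k
  | m + 1, k => by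
    simp only [Function.iterate_succ_apply']
    change (av^[m] u (-k + 1) + av^[m] u (-k - 1)) / 2 = -((av^[m] u (k + 1) + av^[m] u (k - 1)) / 2)
    rw [show -k + 1 = -(k - 1) by ring, show -k - 1 = -(k + 1) by ring, avn_odd h m, avn_odd h m]
    ring

def dv (v : ℤ → ℝ) (k : ℤ) : ℝ := (v (k + 1) - v (k - 1)) / 2

theorem dv_av (v : ℤ → ℝ) : dv (av v) = av (dv v) := by
  funext k
  unfold dv av
  rw [show k + 1 - 1 = k - 1 + 1 by ring]
  ring

theorem dv_avn (v : ℤ → ℝ) : ∀ r : ℕ, dv (av^[r] v) = av^[r] (dv v)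
  | 0 => rfl
  | r + 1 => by
    rw [Function.iterate_succ_apply', Function.iterate_succ_apply', dv_av, dv_avn v r]

def AA (v : ℤ → ℝ) (m r : ℕ) : ℝ := av^[m] (fun i => av^[r] v i * av^[r] v i) 0

theorem AA_nonneg (v : ℤ → ℝ) (m r : ℕ) : 0 ≤ AA v m r := by
  have := avn_mono (f := fun _ => 0) (g := fun i => av^[r] v i * av^[r] v i)
    (fun i => mul_self_nonneg _) m 0
  rwa [avn_const] at this

theorem AA_succ (v : ℤ → ℝ) (m r : ℕ) : AA v (m + 1) r = AA v m (r + 1) + AA (dv v) m r := by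
  unfold AA
  rw [Function.iterate_succ_apply, ← dv_avn]
  have h : av (fun i => av^[r] v i * av^[r] v i) = fun i =>
      0 + 1 * (av^[r + 1] v i * av^[r + 1] v i) + 1 * (dv (av^[r] v) i * dv (av^[r] v) i) := by
    funext i
    rw [Function.iterate_succ_apply']
    generalize av^[r] v = w
    unfold av dv
    ring
  rw [h, avn_lin]
  ring

theorem AA_chain (v : ℤ → ℝ) (m : ℕ) : ∀ j r : ℕ, AA v m (r + j) ≤ AA v (m + j) r
  | 0, _ => le_rfl
  | j + 1, r => by
    have h1 := AA_chain v m j (r + 1)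
    have h2 := AA_succ v (m + j) r
    have h3 := AA_nonneg (dv v) (m + j) r
    rw [show r + (j + 1) = r + 1 + j by ring, show m + (j + 1) = m + j + 1 by ring]
    linarith

theorem AA_zero {u : ℤ → ℝ} (h : ∀ k, u (-k) = -u k) (r : ℕ) : AA u 0 r = 0 := by
  have := avn_odd h r 0
  rw [neg_zero] at this
  have h0 : av^[r] u 0 = 0 := by linarith
  change av^[r] u 0 * av^[r] u 0 = 0
  rw [h0, mul_zero]

theorem AA_le {u : ℤ → ℝ} (h : ∀ k, u (-k) = -u k) : ∀ m r : ℕ,
    AA u m (r + 1) ≤ m * AA (dv u) m r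
  | 0, r => by rw [AA_zero h]; simp
  | m + 1, r => by
    have h1 := AA_le h m (r + 1)
    have h2 := AA_succ u m (r + 1)
    have h3 := AA_chain (dv u) m 1 r
    have h4 : ((m : ℝ) + 1) * AA (dv u) m (r + 1) ≤ ((m : ℝ) + 1) * AA (dv u) (m + 1) r :=
      mul_le_mul_of_nonneg_left h3 (by positivity)
    push_cast
    linarith

theorem AA_ratio {u : ℤ → ℝ} (h : ∀ k, u (-k) = -u k) (m : ℕ) : ∀ j r : ℕ,
    ((m : ℝ) + j) * AA u m (r + j) ≤ m * AA u (m + j) r
  | 0, r => by simp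
  | j + 1, r => by
    have h1 := AA_ratio h m j (r + 1)
    have h2 := AA_succ u (m + j) r
    have h3 := AA_le h m (r + j)
    have h4 : (m : ℝ) * AA (dv u) m (r + j) ≤ m * AA (dv u) (m + j) r :=
      mul_le_mul_of_nonneg_left (AA_chain (dv u) m j r) (by positivity)
    rw [show r + (j + 1) = r + 1 + j by ring, show m + (j + 1) = m + j + 1 by ring, h2]
    rw [show r + j + 1 = r + 1 + j by ring] at h3
    push_cast
    linarith

/-! tilted versus plain averages -/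

def Lp (η : ℝ) (X : ℤ → ℝ) : Prop := ∀ k, |X (k + 1) - X (k - 1)| ≤ 2 * η

theorem sX_shift (m : ℝ) (X : ℤ → ℝ) (t k : ℤ) : sX m (fun i => X (i + t)) k = sX m X (k + t) := by
  unfold sX av
  beta_reduce
  rw [show k + 1 + t = k + t + 1 by ring, show k - 1 + t = k + t - 1 by ring]

theorem Lp.step {η m : ℝ} {X : ℤ → ℝ} (h : Lp η X) (hm : 0 < m) : Lp η (sX m X) := by
  intro k
  have h1 := abs_le.1 (h (k + 1))
  have h2 := abs_le.1 (h (k - 1))
  rw [sub_eq_add_neg (k + 1) 1] at h1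
  rw [sub_eq_add_neg (k - 1) 1] at h2
  rw [sub_eq_add_neg k 1, ← sX_shift, ← sX_shift]
  have a1 : sX m (fun i => X (i + 1)) k ≤ sX m (fun i => X (i + -1)) k + 2 * η :=
    sX_le hm (by linarith [h1.2]) (by linarith [h2.2])
  have a2 : sX m (fun i => X (i + -1)) k ≤ sX m (fun i => X (i + 1)) k + 2 * η :=
    sX_le hm (by linarith [h1.1]) (by linarith [h2.1])
  exact abs_le.2 ⟨by linarith, by linarith⟩

theorem lp_rX (n : ℕ) {η : ℝ} {X : ℤ → ℝ} (h : Lp η X) : ∀ l : List ℕ, (∀ d ∈ l, d < n) →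
    Lp η (rX n l X)
  | [], _ => h
  | d :: l, hl => (lp_rX n h l (fun d hd => hl d (List.mem_cons_of_mem _ hd))).step
      (mu_pos (hl d List.mem_cons_self))

theorem log_cosh_le (a h b : ℝ) (hb : |h| ≤ b) : log (cosh (a + h)) ≤ log (cosh a) + b := by
  have h1 : cosh (a + h) ≤ cosh a * exp b := by
    rw [cosh_eq, cosh_eq]
    have e1 : exp (a + h) ≤ exp a * exp b := by
      rw [← exp_add]; exact exp_le_exp.2 (by linarith [(abs_le.1 hb).2])
    have e2 : exp (-(a + h)) ≤ exp (-a) * exp b := by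
      rw [← exp_add]; exact exp_le_exp.2 (by linarith [(abs_le.1 hb).1])
    linarith
  have := log_le_log (cosh_pos _) h1
  rwa [log_mul (cosh_pos _).ne' (exp_pos _).ne', log_exp] at this

theorem lp_X0 {η : ℝ} (hη : 0 ≤ η) : Lp η (X0 η) := by
  intro k
  unfold X0
  have h1 := log_cosh_le (((k - 1 : ℤ) : ℝ) * η) (2 * η) (2 * η) (by rw [abs_of_nonneg]; linarith)
  have h2 := log_cosh_le (((k + 1 : ℤ) : ℝ) * η) (-(2 * η)) (2 * η)
    (by rw [abs_neg, abs_of_nonneg]; linarith)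
  rw [show ((k - 1 : ℤ) : ℝ) * η + 2 * η = ((k + 1 : ℤ) : ℝ) * η by push_cast; ring] at h1
  rw [show ((k + 1 : ℤ) : ℝ) * η + -(2 * η) = ((k - 1 : ℤ) : ℝ) * η by push_cast; ring] at h2
  exact abs_le.2 ⟨by linarith, by linarith⟩

theorem sig_sq (y : ℝ) : (2 * (exp y / (1 + exp y)) - 1) ^ 2 ≤ y ^ 2 := by
  have he := exp_pos y
  have h1 : 2 * (exp y / (1 + exp y)) - 1 = (exp y - 1) / (1 + exp y) := by field_simp; ring
  have h2 := add_one_le_exp y
  have h3 : exp y - 1 ≤ y * exp y := by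
    have h4 := add_one_le_exp (-y)
    have h5 : exp (-y) * exp y = 1 := by rw [← exp_add]; simp
    nlinarith
  rw [h1, sq_le_sq, abs_div, abs_of_pos (by positivity : 0 < 1 + exp y),
    div_le_iff₀ (by positivity)]
  rcases le_total 0 y with hy | hy
  · rw [abs_of_nonneg hy, abs_of_nonneg (by linarith)]; nlinarith
  · have h6 : exp y ≤ 1 := exp_le_one_iff.2 hy
    rw [abs_of_nonpos hy, abs_of_nonpos (by linarith)]; nlinarith

theorem sG_sq {η m m0 : ℝ} {X : ℤ → ℝ} (h : Lp η X) (hm : 0 < m) (hm0 : m ≤ m0) (g : ℤ → ℝ)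
    (k : ℤ) : sG m X g k ^ 2 ≤ exp (4 * (m0 * η) ^ 2) * av (fun i => g i ^ 2) k := by
  have h1 : (2 * pr m X k - 1) ^ 2 ≤ 4 * (m0 * η) ^ 2 := by
    refine (sig_sq _).trans ?_
    have h2 := h k
    have hη : 0 ≤ 2 * η := (abs_nonneg _).trans h2
    have h3 : |m * (X (k + 1) - X (k - 1))| ≤ m0 * (2 * η) := by
      rw [abs_mul, abs_of_pos hm]
      exact mul_le_mul hm0 h2 (abs_nonneg _) (hm.le.trans hm0)
    have h4 := pow_le_pow_left₀ (abs_nonneg _) h3 2
    rw [sq_abs] at h4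
    linarith
  have h5 := add_one_le_exp (4 * (m0 * η) ^ 2)
  have h6 : 0 ≤ av (fun i => g i ^ 2) k := by unfold av; positivity
  refine le_trans ?_ (mul_le_mul_of_nonneg_right (show 1 + (2 * pr m X k - 1) ^ 2 ≤ _ by linarith) h6)
  rw [sG_eq]
  unfold av
  generalize pr m X k = p
  nlinarith [sq_nonneg ((2 * p - 1) * (g (k + 1) + g (k - 1)) - (g (k + 1) - g (k - 1)))]

theorem rG_sq (n s : ℕ) {η : ℝ} {X : ℤ → ℝ} (h : Lp η X) (g : ℤ → ℝ) : ∀ l : List ℕ,
    (∀ d ∈ l, s ≤ d ∧ d < n) → ∀ k,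
      rG n l X g k ^ 2 ≤ exp (l.length * (4 * (mu n s * η) ^ 2)) * av^[l.length] (fun i => g i ^ 2) k
  | [], _, k => by simp [rG]
  | d :: l, hl, k => by
    have ih := rG_sq n s h g l (fun d hd => hl d (List.mem_cons_of_mem _ hd))
    have hd := hl d List.mem_cons_self
    have h1 := sG_sq (lp_rX n h l (fun d hd => (hl d (List.mem_cons_of_mem _ hd)).2))
      (mu_pos hd.2) (mu_anti n hd.1) (rG n l X g) k
    refine h1.trans ?_
    rw [List.length_cons, Function.iterate_succ_apply']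
    push_cast
    rw [add_mul, one_mul, add_comm, exp_add, mul_assoc]
    refine mul_le_mul_of_nonneg_left ?_ (exp_pos _).le
    have a1 := ih (k + 1)
    have a2 := ih (k - 1)
    change (rG n l X g (k + 1) ^ 2 + rG n l X g (k - 1) ^ 2) / 2 ≤ _ *
      ((av^[l.length] (fun i => g i ^ 2) (k + 1) + av^[l.length] (fun i => g i ^ 2) (k - 1)) / 2)
    linarith

theorem rG_aff (n : ℕ) (a b : ℝ) (X g : ℤ → ℝ) : ∀ (l : List ℕ) (k : ℤ),
    rG n l X (fun i => a + b * g i) k = a + b * rG n l X g k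
  | [], _ => rfl
  | d :: l, k => by
    simp only [rG, sG_eq, rG_aff n a b X g l]
    ring

theorem rG_abs (n : ℕ) (X : ℤ → ℝ) {g : ℤ → ℝ} (h : ∀ i, |g i| ≤ 1) : ∀ (l : List ℕ) (k : ℤ),
    |rG n l X g k| ≤ 1
  | [], k => h k
  | d :: l, k => by
    have h1 := abs_le.1 (rG_abs n X h l (k + 1))
    have h2 := abs_le.1 (rG_abs n X h l (k - 1))
    have p1 := pr_nonneg (mu n d) (rX n l X) k
    have p2 := pr_le (mu n d) (rX n l X) k
    simp only [rG, sG_eq]
    exact abs_le.2 ⟨by nlinarith [h1.1, h2.1], by nlinarith [h1.2, h2.2]⟩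

def CQ (Q : ℝ) : ℝ := 8 * |Q| * exp (4 * |Q|) + 1

theorem rG_one_side (n s : ℕ) (hs : s < n) {η Q : ℝ} {X : ℤ → ℝ} (h : Lp η X) (g : ℤ → ℝ)
    (hg : ∀ i, |g i| ≤ 1) (l : List ℕ) (hl : ∀ d ∈ l, s ≤ d ∧ d < n) (hQ : η ^ 2 * l.length ≤ Q)
    (e : ℝ) (he : e ^ 2 = 1) (k : ℤ) :
    e * (rG n l X g k - av^[l.length] g k) ≤ CQ Q * mu n s := by
  set a := mu n s with ha
  have ha0 : 0 < a := mu_pos hs
  have ha1 : a ≤ 1 := mu_le n s
  have h1 := rG_sq n s h (fun i => 1 + a * e * g i) l hl k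
  rw [rG_aff, ← ha] at h1
  set x : ℝ := l.length * (4 * (a * η) ^ 2) with hx
  have hx0 : 0 ≤ x := by positivity
  have hQ' : η ^ 2 * l.length ≤ |Q| := hQ.trans (le_abs_self Q)
  have hx1 : x ≤ 4 * |Q| * a ^ 2 := by
    have := mul_le_mul_of_nonneg_left hQ' (show 0 ≤ 4 * a ^ 2 by positivity)
    rw [hx]; nlinarith
  have ha2 : a ^ 2 ≤ 1 := pow_le_one₀ ha0.le ha1
  have hx2 : x ≤ 4 * |Q| := hx1.trans (by nlinarith [abs_nonneg Q])
  have hE : exp x - 1 ≤ 4 * |Q| * a ^ 2 * exp (4 * |Q|) := by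
    have h4 := add_one_le_exp (-x)
    have h5 : exp (-x) * exp x = 1 := by rw [← exp_add]; simp
    have h6 : exp x - 1 ≤ x * exp x := by nlinarith [exp_pos x]
    exact h6.trans (mul_le_mul hx1 (exp_le_exp.2 hx2) (exp_pos _).le (by positivity))
  have hE0 : 0 ≤ exp x - 1 := by linarith [add_one_le_exp x]
  have h2 : av^[l.length] (fun i => (1 + a * e * g i) ^ 2) k ≤
      1 + a ^ 2 + 2 * a * e * av^[l.length] g k := by
    have := avn_mono (f := fun i => (1 + a * e * g i) ^ 2)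
      (g := fun i => (1 + a ^ 2) + (2 * a * e) * g i + 0 * g i) (fun i => by
        have h7 : g i ^ 2 ≤ 1 := by
          have := pow_le_pow_left₀ (abs_nonneg _) (hg i) 2
          rwa [sq_abs, one_pow] at this
        have h8 : (a * e * g i) ^ 2 ≤ a ^ 2 := by
          rw [mul_pow, mul_pow, he]; nlinarith [sq_nonneg a]
        nlinarith) l.length k
    rw [avn_lin] at this
    linarith
  set A := av^[l.length] g k
  set R := rG n l X g k
  have hA : |A| ≤ 1 := avn_abs hg _ _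
  have heA : e * A ≤ 1 := by
    have h9 : (e * A) ^ 2 ≤ 1 := by
      rw [mul_pow, he, one_mul, ← sq_abs]; exact pow_le_one₀ (abs_nonneg _) hA
    nlinarith
  have h3 : (1 + a * e * R) ^ 2 ≤ exp x * (1 + a ^ 2 + 2 * a * e * A) :=
    h1.trans (mul_le_mul_of_nonneg_left h2 (exp_pos _).le)
  have h10 : 1 + a ^ 2 + 2 * a * e * A ≤ 4 := by nlinarith
  have h11 : (exp x - 1) * (1 + a ^ 2 + 2 * a * e * A) ≤ (exp x - 1) * 4 :=
    mul_le_mul_of_nonneg_left h10 hE0
  have h12 : a * (e * (R - A)) ≤ a * (CQ Q * a) := by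
    unfold CQ
    nlinarith [sq_nonneg (a * e * R), sq_nonneg a]
  exact le_of_mul_le_mul_left h12 ha0

theorem rG_close (n s : ℕ) (hs : s < n) {η Q : ℝ} {X : ℤ → ℝ} (h : Lp η X) (g : ℤ → ℝ)
    (hg : ∀ i, |g i| ≤ 1) (l : List ℕ) (hl : ∀ d ∈ l, s ≤ d ∧ d < n) (hQ : η ^ 2 * l.length ≤ Q)
    (k : ℤ) : |rG n l X g k - av^[l.length] g k| ≤ CQ Q * mu n s := by
  have h1 := rG_one_side n s hs h g hg l hl hQ 1 (by norm_num) k
  have h2 := rG_one_side n s hs h g hg l hl hQ (-1) (by norm_num) k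
  exact abs_le.2 ⟨by linarith, by linarith⟩

theorem lev_split' (c : ℕ → ℕ) {a d : ℕ} (had : a ≤ d) :
    ∀ b, d ≤ b → lev c a b = lev c d b ++ lev c a d := by
  intro b hb
  induction b, hb using Nat.le_induction with
  | base => simp [lev_self]
  | succ b hb ih => simp only [lev, hb, had.trans hb, if_true, ih, List.append_assoc]

theorem lev_ge (c : ℕ → ℕ) (a : ℕ) : ∀ b, ∀ d ∈ lev c a b, a ≤ d
  | 0, d, h => by simp [lev] at h
  | b + 1, d, h => by
    unfold lev at h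
    split_ifs at h with hb
    · rcases List.mem_append.1 h with h | h
      · rw [List.eq_of_mem_replicate h]; exact hb
      · exact lev_ge c a b d h
    · simp at h

theorem lev_len (n : ℕ) (c : ℕ → ℕ) (a : ℕ) : (lev c a n).length = cum n c a := by
  rw [← count_zero, lev_count, max_eq_left (Nat.zero_le a)]; rfl

theorem u0_abs (η : ℝ) (k : ℤ) : |u0 η k| ≤ 1 := by
  unfold u0
  rw [abs_div, abs_of_pos (cosh_pos _), div_le_one (cosh_pos _), abs_le]
  have h1 := sinh_lt_cosh (k * η)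
  have h2 := sinh_lt_cosh (-(k * η))
  rw [sinh_neg, cosh_neg] at h2
  exact ⟨by linarith, h1.le⟩

theorem abs_mul_self_le {g : ℤ → ℝ} (h : ∀ i, |g i| ≤ 1) (i : ℤ) : |g i * g i| ≤ 1 := by
  rw [abs_mul]; exact mul_le_one₀ (h i) (abs_nonneg _) (h i)

end SC

open SC in
theorem stmtSC : StmtSC := by
  intro Q
  have hC0 : 0 ≤ CQ Q := by unfold CQ; positivity
  refine ⟨4 * CQ Q, by positivity, fun n η c s d hη hsd hdn hQ => ?_⟩
  have hsn : s < n := lt_of_le_of_lt hsd hdn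
  rw [piD_eq cApi aApi n η c d hdn.le, piD_eq cApi aApi n η c s hsn.le]
  have hl0 : ∀ x ∈ lev c 0 s, x < n := fun x hx => (lev_lt c 0 s x hx).trans hsn
  set X1 := rX n (lev c 0 s) (X0 η) with hX1
  set u := rG n (lev c 0 s) (X0 η) (u0 η) with hu
  have hX1p : Lp η X1 := lp_rX n (lp_X0 hη) _ hl0
  have huo : ∀ k, u (-k) = -u k := fun k => by
    have := (pad n hη _ hl0).ig.sym k
    rw [← hu] at this
    linarith
  have hub : ∀ k, |u k| ≤ 1 := rG_abs n _ (u0_abs η) _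
  rw [lev_split c s d hsd, rX_append, rG_append, ← hX1, ← hu]
  set l1 := lev c d n with hl1
  set l2 := lev c s d with hl2
  have hsp : lev c s n = l1 ++ l2 := lev_split' c hsd n hdn.le
  have hlen : l1.length + l2.length = cum n c s := by
    rw [← lev_len, hsp, List.length_append]
  have hlen1 : l1.length = cum n c d := lev_len n c d
  have hm1 : ∀ x ∈ l1, s ≤ x ∧ x < n := fun x hx =>
    ⟨hsd.trans (lev_ge c d n x hx), lev_lt c d n x hx⟩
  have hm2 : ∀ x ∈ l2, s ≤ x ∧ x < n := fun x hx =>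
    ⟨lev_ge c s d x hx, (lev_lt c s d x hx).trans hdn⟩
  have hm : ∀ x ∈ lev c s n, s ≤ x ∧ x < n := fun x hx => ⟨lev_ge c s n x hx, lev_lt c s n x hx⟩
  have hlenR : (l1.length : ℝ) + l2.length = cum n c s := by exact_mod_cast hlen
  have hn1 : (0 : ℝ) ≤ l1.length := Nat.cast_nonneg _
  have hn2 : (0 : ℝ) ≤ l2.length := Nat.cast_nonneg _
  have hQ1 : η ^ 2 * l1.length ≤ Q := le_trans (by nlinarith [sq_nonneg η]) hQ
  have hQ2 : η ^ 2 * l2.length ≤ Q := le_trans (by nlinarith [sq_nonneg η]) hQ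
  set δ := CQ Q * mu n s with hδ
  have hδ0 : 0 ≤ δ := mul_nonneg hC0 (mu_pos hsn).le
  set w := rG n l2 X1 u with hw
  have hwb : ∀ k, |w k| ≤ 1 := rG_abs n _ hub _
  have e1 := abs_le.1 (rG_close n s hsn (Q := Q) hX1p _ (abs_mul_self_le hub) (lev c s n) hm
    (by rw [lev_len]; exact hQ) 0)
  have e2 := abs_le.1 (rG_close n s hsn (lp_rX n hX1p l2 (fun x hx => (hm2 x hx).2)) _
    (abs_mul_self_le hwb) l1 hm1 hQ1 0)
  have e3 : av^[l1.length] (fun i => w i * w i) 0 ≤ 2 * δ + AA u l1.length l2.length := by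
    have := avn_mono (f := fun i => w i * w i) (g := fun i => 2 * δ +
      1 * (av^[l2.length] u i * av^[l2.length] u i) + 0 * u i) (fun i => by
        have a1 := rG_close n s hsn hX1p u hub l2 hm2 hQ2 i
        rw [← hw, ← hδ] at a1
        have a2 := hwb i
        have a3 := avn_abs hub l2.length i
        have a4 : |w i + av^[l2.length] u i| ≤ 2 := (abs_add_le _ _).trans (by linarith)
        have a5 : |(w i - av^[l2.length] u i) * (w i + av^[l2.length] u i)| ≤ δ * 2 := by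
          rw [abs_mul]; exact mul_le_mul a1 a4 (abs_nonneg _) hδ0
        have a6 := (abs_le.1 a5).2
        nlinarith) l1.length 0
    rw [avn_lin] at this
    unfold AA
    linarith
  have e4 := AA_ratio huo l1.length l2.length 0
  rw [zero_add, hlen] at e4
  have e5 : AA u (cum n c s) 0 = av^[(lev c s n).length] (fun i => u i * u i) 0 := by
    rw [lev_len]; rfl
  rw [← e5, ← hδ] at e1
  rw [← hδ] at e2
  rw [← hlen1, ← hlenR]
  change _ ≤ _ + 4 * CQ Q * mu n s * _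
  rw [mul_assoc 4, ← hδ]
  have f1 := mul_le_mul_of_nonneg_right (show rG n l1 (rX n l2 X1) (fun k => w k * w k) 0 ≤
    AA u l1.length l2.length + 3 * δ by linarith [e2.2]) (add_nonneg hn1 hn2)
  have f2 := mul_le_mul_of_nonneg_left (show AA u (cum n c s) 0 ≤
    rG n (lev c s n) X1 (fun k => u k * u k) 0 + δ by linarith [e1.1]) hn1
  nlinarith [mul_nonneg hδ0 hn2]

end

end Vale.Agent.P146
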