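import Vale.Agent.P146.CV1

/-! P146 module TL: moving all couplings down by `j` levels. -/

namespace Vale.Agent.P146

open MeasureTheory ProbabilityTheory Finset Real Filter Topology
open Vale.Agent.P157

noncomputable section

namespace TL

open CV

variable {N : ℕ}

theorem pairs_le (F : Fin N → ℝ) : ∑ p : Pr N, F p.1.1 * F p.1.2 ≤ (∑ i, F i) ^ 2 / 2 := by
  have h1 : ∑ p : Pr N, F p.1.1 * F p.1.2 =
      ∑ q ∈ univ.filter (fun q : Fin N × Fin N => q.1 < q.2), F q.1 * F q.2 :=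
    (Finset.sum_subtype _ (by simp) (fun q : Fin N × Fin N => F q.1 * F q.2)).symm
  rw [h1, sum_filter, Fintype.sum_prod_type]
  have h2 : ∑ i, ∑ j, (if i < j then F i * F j else 0) = ∑ i, ∑ j, (if j < i then F i * F j else 0) := by
    rw [sum_comm]
    exact sum_congr rfl fun i _ => sum_congr rfl fun j _ => by rw [mul_comm]
  have h3 : ∑ i, ∑ j, (if i < j then F i * F j else 0) + ∑ i, ∑ j, (if j < i then F i * F j else 0) ≤
      (∑ i, F i) ^ 2 := by
    rw [sq, sum_mul_sum, ← sum_add_distrib]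
    refine sum_le_sum fun i _ => ?_
    rw [← sum_add_distrib]
    have : ∀ j, (if i < j then F i * F j else 0) + (if j < i then F i * F j else 0) =
        F i * F j - (if i = j then F i * F j else 0) := by
      intro j
      rcases lt_trichotomy i j with h | h | h
      · simp [h, h.ne, h.le.not_gt]
      · simp [h]
      · simp [h, h.ne', h.le.not_gt]
    simp only [this]
    rw [sum_sub_distrib, sum_ite_eq, if_pos (mem_univ i)]
    linarith [mul_self_nonneg (F i)]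
  linarith

theorem skr_small {n κ : ℕ} {c : ℝ} (hκ : κ < n) (hc : |c| ≤ 1) : Small n 1 (skr N κ c) := by
  intro s hs
  obtain ⟨p, -, rfl⟩ := Multiset.mem_map.1 hs
  exact ⟨hκ, by rw [one_mul]; exact (norm_le p c).trans hc⟩

theorem skr_vr (κ : ℕ) (c : ℝ) : vr (skr N κ c) ≤ (N : ℝ) ^ 2 * c ^ 2 := by
  have h1 : vr (skr N κ c) = ∑ p : Pr N, ‖c • pw p‖ ^ 2 := by
    unfold vr skr; rw [Multiset.map_map]; rfl
  rw [h1]
  refine (sum_le_card_nsmul _ _ (c ^ 2) fun p _ => ?_).trans ?_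
  · rw [← sq_abs c]; exact pow_le_pow_left₀ (norm_nonneg _) (norm_le p c) 2
  · rw [nsmul_eq_mul, card_univ]
    refine mul_le_mul_of_nonneg_right ?_ (sq_nonneg c)
    have := Fintype.card_subtype_le (fun p : Fin N × Fin N => p.1 < p.2)
    rw [Fintype.card_prod, Fintype.card_fin] at this
    rw [sq]; exact_mod_cast this

theorem gam_skr {n : ℕ} (hn : 1 ≤ n) (B : Sy Empty (Fin N)) (k : ℕ) (c : ℝ) :
    ((skr N k c).map (Gam n (gg Empty f0) (gg1 Empty f0) (gg2 Empty f0) B)).sum =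
      c ^ 2 * (Fintype.card (Pr N) - (1 / (n : ℝ)) * ∑ d ∈ Icc 1 k,
        EE n (gg Empty f0) B d (fun ω ω' => ∑ p : Pr N, pw p ω.2 * pw p ω'.2)) / 2 := by
  have h1 : ((skr N k c).map (Gam n (gg Empty f0) (gg1 Empty f0) (gg2 Empty f0) B)).sum =
      ∑ p : Pr N, Gam n (gg Empty f0) (gg1 Empty f0) (gg2 Empty f0) B (k, none, c • pw p) := by
    unfold skr; rw [Multiset.map_map]; rfl
  rw [h1, sum_congr rfl (fun p _ => hG.gam_one _ _ _ _ _ _ _ _ _ (pw_sq p)), e1_one hn]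
  have h2 : ∀ d, EE n (gg Empty f0) B d (fun ω ω' => ∑ p : Pr N, pw p ω.2 * pw p ω'.2) =
      ∑ p : Pr N, EE n (gg Empty f0) B d (fun ω ω' => pw p ω.2 * pw p ω'.2) := fun d =>
    aApi.e2sum _ _ _ _ _ _ _ _
  simp only [h2, ob, gg1, Option.elim, one_mul]
  rw [sum_comm, ← sum_div, ← mul_sum, sum_sub_distrib, ← mul_sum, sum_const, card_univ, nsmul_eq_mul,
    mul_one]

theorem ee_mono {n d : ℕ} (hn : 1 ≤ n) (hd : d ≤ n) (B : Sy Empty (Fin N))
    {φ ψ : Om (Option Empty) (Fin N → Bool) → Om (Option Empty) (Fin N → Bool) → ℝ}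
    (h : ∀ x x', φ x x' ≤ ψ x x') : EE n (gg Empty f0) B d φ ≤ EE n (gg Empty f0) B d ψ :=
  aApi.e2mono (cApi.ok n B hn) _ (d + 1) (by omega) h _

theorem ee_aff {n d : ℕ} (hn : 1 ≤ n) (hd : d ≤ n) (B : Sy Empty (Fin N))
    (φ : Om (Option Empty) (Fin N → Bool) → Om (Option Empty) (Fin N → Bool) → ℝ) (a b : ℝ) :
    EE n (gg Empty f0) B d (fun x x' => a * φ x x' + b) = a * EE n (gg Empty f0) B d φ + b := by
  have h1 := aApi.e2add (chain B) (ex n) (ZZ (gg Empty f0)) (d + 1) (n + 1) φ (fun _ _ => 1) a b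
    (0, default)
  rw [aApi.e2const (cApi.ok n B hn) _ (d + 1) (by omega)] at h1
  simp only [mul_one] at h1
  exact h1

theorem path_le {n : ℕ} {P : ℕ → ℝ} (hP : P157.Path n P) (d : ℕ) (hd : d ≤ n) : P d ≤ P 0 := by
  induction d with
  | zero => exact le_rfl
  | succ d ih => exact (hP.1 d hd).trans (ih (by omega))

/-- one round is moved -/
theorem incr : ∃ C1 C2 : ℝ, 0 ≤ C1 ∧ 0 ≤ C2 ∧ ∀ (n N κ : ℕ) (B : Sy Empty (Fin N)) (c e : ℝ),
    1 ≤ N → κ ≤ n - 1 → 1 ≤ n → (N : ℝ) ^ 2 * c ^ 2 ≤ 1 →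
    Conc n f0 (B + skr N κ c) univ (ovl n f0 (B + skr N κ c) univ) e →
    TT n (gg Empty f0) (B + skr N κ c) - TT n (gg Empty f0) (B + skr N (n - 1) c) ≤
      C1 * ((N : ℝ) ^ 2 * c ^ 2) * (e + (1 / (n : ℝ)) * ∑ d ∈ Ioc κ (n - 1),
        ovl n f0 (B + skr N κ c) univ d) +
        C2 * (((N : ℝ) ^ 2 * c ^ 2) * √((N : ℝ) ^ 2 * c ^ 2)) := by
  obtain ⟨Cm, hCm, hM⟩ := hMs 1 le_rfl
  obtain ⟨Cg, hCg, hGr⟩ := hGra 1 le_rfl
  refine ⟨exp Cg / 2, 2 * Cm, by positivity, by positivity, fun n N κ B c e hN hκ hn hw hconc => ?_⟩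
  have hNp : (1 : ℝ) ≤ N := by exact_mod_cast hN
  have hnp : (0 : ℝ) < n := by exact_mod_cast hn
  have hc : |c| ≤ 1 := by
    rw [← sq_le_one_iff_abs_le_one]
    have : (1 : ℝ) ≤ (N : ℝ) ^ 2 := one_le_pow₀ hNp
    nlinarith [sq_nonneg c]
  set w : ℝ := (N : ℝ) ^ 2 * c ^ 2 with hwdef
  have key : ∀ k, k < n → |TT n (gg Empty f0) (B + skr N k c) - TT n (gg Empty f0) B -
      c ^ 2 * (Fintype.card (Pr N) - (1 / (n : ℝ)) * ∑ d ∈ Icc 1 k,
        EE n (gg Empty f0) B d (fun ω ω' => ∑ p : Pr N, pw p ω.2 * pw p ω'.2)) / 2| ≤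
      Cm * (w * √w) := by
    intro k hk
    have h1 := (hM _ _ n _ _ _ B (skr N k c) hn smg (skr_small hk hc)).2 ((skr_vr k c).trans hw)
    rw [gam_skr hn] at h1
    refine h1.trans (mul_le_mul_of_nonneg_left ?_ hCm)
    exact mul_le_mul (skr_vr k c) (sqrt_le_sqrt (skr_vr k c)) (sqrt_nonneg _) (by positivity)
  have a1 := (abs_le.1 (key κ (by omega))).2
  have a2 := (abs_le.1 (key (n - 1) (by omega))).1
  have hsplit : ∀ G : ℕ → ℝ, ∑ d ∈ Icc 1 (n - 1), G d =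
      ∑ d ∈ Icc 1 κ, G d + ∑ d ∈ Ioc κ (n - 1), G d := by
    intro G
    have e1 : ∀ m : ℕ, Icc 1 m = Ioc 0 m := fun m => by ext x; simp; omega
    rw [e1, e1, sum_Ioc_consecutive _ (Nat.zero_le _) hκ]
  rw [hsplit] at a2
  set S := B + skr N κ c with hS
  set P := ovl n f0 S univ with hP
  have : Nonempty (Fin N) := ⟨⟨0, hN⟩⟩
  obtain ⟨hPp, hP0⟩ := hG.ovl_path n f0 S univ hn univ_nonempty
  rw [← hP] at hPp hP0
  have b1 : ∀ d ∈ Ioc κ (n - 1),
      EE n (gg Empty f0) B d (fun ω ω' => ∑ p : Pr N, pw p ω.2 * pw p ω'.2) ≤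
      (N : ℝ) ^ 2 * exp Cg *
        (EE n (gg Empty f0) S d (fun ω ω' => (Rr univ ω.2 ω'.2 - P d) ^ 2) + P d) := by
    intro d hd
    have hdn : d ≤ n := by have := (mem_Ioc.1 hd).2; omega
    have c1 : EE n (gg Empty f0) B d (fun ω ω' => ∑ p : Pr N, pw p ω.2 * pw p ω'.2) ≤
        (N : ℝ) ^ 2 / 2 * EE n (gg Empty f0) B d (fun ω ω' => Rr univ ω.2 ω'.2 ^ 2) + 0 := by
      rw [← ee_aff hn hdn]
      refine ee_mono hn hdn B (fun x x' => ?_)
      have := pairs_le (fun i => sp i x.2 * sp i x'.2)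
      have e1 : ∀ p : Pr N, pw p x.2 * pw p x'.2 =
          sp p.1.1 x.2 * sp p.1.1 x'.2 * (sp p.1.2 x.2 * sp p.1.2 x'.2) := fun p => by
        simp only [pw, Pi.mul_apply]; ring
      simp only [e1]
      refine this.trans (le_of_eq ?_)
      simp only [Rr, card_univ, Fintype.card_fin]
      field_simp
      ring
    have c2 := (hGr _ _ n (gg Empty f0) B (skr N κ c) (fun σ σ' => Rr univ σ σ' ^ 2) d hn hdn
      (fun o => (smg o).d0) (skr_small (by omega) hc) (fun _ _ => sq_nonneg _)).2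
    have c3 : exp (Cg * vr (skr N κ c)) ≤ exp Cg :=
      exp_le_exp.2 (mul_le_of_le_one_right hCg ((skr_vr κ c).trans hw))
    have hP1 : 0 ≤ P d := path_nn hPp d hdn
    have hP2 : P d ≤ 1 := hP0 ▸ path_le hPp d hdn
    have c4 : EE n (gg Empty f0) S d (fun ω ω' => Rr univ ω.2 ω'.2 ^ 2) ≤
        2 * EE n (gg Empty f0) S d (fun ω ω' => (Rr univ ω.2 ω'.2 - P d) ^ 2) + 2 * P d := by
      rw [← ee_aff hn hdn]
      refine ee_mono hn hdn S (fun x x' => ?_)
      nlinarith [sq_nonneg (Rr univ x.2 x'.2 - 2 * P d)]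
    have c5 : 0 ≤ EE n (gg Empty f0) S d (fun ω ω' => Rr univ ω.2 ω'.2 ^ 2) := by
      have := ee_mono hn hdn S (φ := fun _ _ => 0 * 0 + 0) (ψ := fun ω ω' => Rr univ ω.2 ω'.2 ^ 2)
        (fun x x' => by rw [mul_zero, add_zero]; exact sq_nonneg _)
      rw [ee_aff hn hdn S (fun _ _ => 0) 0 0, zero_mul, add_zero] at this
      exact this
    have c6 := c2.trans ((mul_le_mul_of_nonneg_right c3 c5).trans
      (mul_le_mul_of_nonneg_left c4 (exp_pos Cg).le))
    have c7 := mul_le_mul_of_nonneg_left c6 (show 0 ≤ (N : ℝ) ^ 2 / 2 by positivity)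
    linarith
  have b2 := sum_le_sum b1
  rw [← mul_sum, sum_add_distrib] at b2
  have b3 : (1 / (n : ℝ)) * ∑ d ∈ Ioc κ (n - 1),
      EE n (gg Empty f0) S d (fun ω ω' => (Rr univ ω.2 ω'.2 - P d) ^ 2) ≤ e := by
    refine le_trans (mul_le_mul_of_nonneg_left ?_ (by positivity)) hconc
    refine sum_le_sum_of_subset_of_nonneg (fun d hd => ?_) (fun d hd _ => ?_)
    · rw [mem_Ioc] at hd; rw [mem_Ico]; omega
    · have hdn : d ≤ n := (mem_Ico.1 hd).2.le
      have := ee_mono hn hdn S (φ := fun _ _ => 0 * 0 + 0)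
        (ψ := fun ω ω' => (Rr univ ω.2 ω'.2 - P d) ^ 2)
        (fun x x' => by rw [mul_zero, add_zero]; exact sq_nonneg _)
      rw [ee_aff hn hdn S (fun _ _ => 0) 0 0, zero_mul, add_zero] at this
      exact this
  have b4 := mul_le_mul_of_nonneg_left b2 (show 0 ≤ c ^ 2 / 2 * (1 / (n : ℝ)) by positivity)
  have b5 := mul_le_mul_of_nonneg_left b3 (show 0 ≤ exp Cg / 2 * w by positivity)
  rw [hwdef] at b5
  linarith

theorem sum_inv_sqrt (D : ℕ) : ∑ r ∈ range D, 1 / √((r : ℝ) + 1) ≤ 2 * √(D : ℝ) := by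
  induction D with
  | zero => simp
  | succ D ih =>
    rw [sum_range_succ]
    push_cast
    have h1 : 0 < √((D : ℝ) + 1) := sqrt_pos.2 (by positivity)
    have h2 : √((D : ℝ) + 1) ^ 2 = D + 1 := sq_sqrt (by positivity)
    have h3 : √(D : ℝ) ^ 2 = D := sq_sqrt (by positivity)
    have h4 : 1 / √((D : ℝ) + 1) ≤ 2 * √((D : ℝ) + 1) - 2 * √(D : ℝ) := by
      rw [div_le_iff₀ h1]
      nlinarith [sq_nonneg (√((D : ℝ) + 1) - √(D : ℝ))]
    linarith

theorem fld_cost : ∃ C : ℝ, 0 ≤ C ∧ ∀ (n N : ℕ) (L : Sy Empty (Fin N)) (y : ℕ → ℝ) (Y : ℝ), 1 ≤ n →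
    Y ≤ 1 → (∀ d, d < n → |y d| ≤ Y) →
    |TT n (gg Empty f0) (L + fld Empty univ (ys n y)) - TT n (gg Empty f0) L| ≤
      C * (N * (n * Y ^ 2)) := by
  obtain ⟨Cm, hCm, hM⟩ := hMs 1 le_rfl
  refine ⟨Cm, hCm, fun n N L y Y hn hY hy => ?_⟩
  obtain ⟨h1, -, h2, -⟩ := hG.fld_vr (ι := Empty) n 1 (univ : Finset (Fin N)) (ys n y) 0
  refine (hM _ _ n _ _ _ L _ hn smg (h2 (fun s hs => ?_))).1.trans
    (mul_le_mul_of_nonneg_left ?_ hCm)
  · obtain ⟨d, hd, rfl⟩ := Multiset.mem_map.1 hs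
    have hd' := mem_range.1 (Finset.mem_def.2 hd)
    exact ⟨hd', by rw [one_mul]; exact (hy d hd').trans hY⟩
  · rw [h1, card_univ, Fintype.card_fin]
    refine mul_le_mul_of_nonneg_left ?_ (Nat.cast_nonneg _)
    have e : ((ys n y).map (fun s => s.2 ^ 2)).sum = ∑ d ∈ range n, y d ^ 2 := by
      unfold ys; rw [Multiset.map_map]; rfl
    rw [e]
    refine (sum_le_card_nsmul _ _ (Y ^ 2) fun d hd => ?_).trans ?_
    · rw [← sq_abs]; exact pow_le_pow_left₀ (abs_nonneg _) (hy d (mem_range.1 hd)) 2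
    · rw [nsmul_eq_mul, card_range]

theorem sq_trick {a K D r : ℝ} (h1 : a ≤ 1) (hK : 0 ≤ K) (hD : 0 < D) (hr : 0 < r)
    (h : r / D * a ≤ K) : a ≤ √K * √D * (1 / √r) := by
  rcases le_or_gt a 0 with h0 | h0
  · exact h0.trans (by positivity)
  have e : √K * √D * (1 / √r) = √(K * D / r) := by
    rw [sqrt_div' _ hr.le, sqrt_mul hK]; ring
  rw [e]
  refine le_sqrt_of_sq_le ?_
  rw [le_div_iff₀ hr]
  rw [div_mul_eq_mul_div, div_le_iff₀ hD] at h
  nlinarith [mul_le_mul_of_nonneg_left h1 (mul_pos hr h0).le]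

end TL

open TL in
theorem stmtTL (h : StmtKY) : StmtTL := by
  intro β hβ
  obtain ⟨Ck, hCk, hKY⟩ := h β hβ
  obtain ⟨C1, C2, hC1, hC2, hinc⟩ := incr
  obtain ⟨C3, hC3, hfld⟩ := fld_cost
  refine ⟨C1 * β ^ 2 * (1 + 2 * √Ck) + 13 * C3, by positivity,
    fun n N j t lam e ε hj hjn hN ht ht1 hlam hl3 hε he hCC => ?_⟩
  obtain ⟨η0, hη0, hKY⟩ := hKY n N j t hj hjn hN ht ht1
  have hn : 1 ≤ n := by omega
  have hNp : (0 : ℝ) < N := by exact_mod_cast hN
  have hnp : (1 : ℝ) ≤ n := by exact_mod_cast hn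
  have hjp : (0 : ℝ) < j := by exact_mod_cast hj
  have hl1 : 3 * lam ≤ 1 := by
    rw [← sq_le_one_iff₀ (by positivity)]
    nlinarith [sq_nonneg (3 * lam)]
  have t1 : Tendsto (fun D : ℕ => β ^ 2 / (D : ℝ)) atTop (𝓝 0) :=
    tendsto_const_div_atTop_nhds_zero_nat _
  have t2 : Tendsto (fun D : ℕ => β ^ 2 * N / (D : ℝ)) atTop (𝓝 0) :=
    tendsto_const_div_atTop_nhds_zero_nat _
  have t3 : Tendsto (fun D : ℕ => C2 * (β ^ 2 * N * √(β ^ 2 * N / (D : ℝ)))) atTop (𝓝 0) := by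
    simpa using (t2.sqrt.const_mul (β ^ 2 * N)).const_mul C2
  filter_upwards [eventually_ge_atTop 1, t1.eventually_lt_const hη0, t2.eventually_lt_const one_pos,
    t3.eventually_lt_const hε] with D hD e1 e2 e3
  have hDp : (0 : ℝ) < D := by exact_mod_cast hD
  set c : ℝ := β / √((N : ℝ) * D) with hc
  have hc2 : c ^ 2 = β ^ 2 / (N * D) := by rw [hc, div_pow, sq_sqrt (by positivity)]
  have hw1 : (N : ℝ) * c ^ 2 = β ^ 2 / D := by rw [hc2]; field_simp
  have hw2 : (N : ℝ) ^ 2 * c ^ 2 = β ^ 2 * N / D := by rw [hc2]; field_simp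
  set κ := n - 1 - j with hκ
  set δ : ℝ := (n : ℝ) / j * ((√e + 1 / N + n * (3 * lam) ^ 2) / t + √t) + j / n with hδ
  have hδ0 : 0 ≤ δ := by positivity
  set L : ℕ → Sy Empty (Fin N) := fun r => (D - r) • skr N (n - 1) c + r • skr N κ c with hL
  choose y hy using fun r => maxStmt cApi (Fin N) Empty n f0 (L r) univ lam (N / lam) hn hlam
    (by rw [card_univ, Fintype.card_fin]; field_simp; exact le_rfl)
  have hyb : ∀ r d, d < n → |y r d| ≤ 3 * lam := fun r d hd => by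
    obtain ⟨a1, a2⟩ := (hy r).1 d hd
    rw [abs_of_pos (hlam.trans_le a1)]; exact a2
  set U : ℕ → ℝ := fun r => TT n (gg Empty f0) (L r + fld Empty univ (ys n (y r))) -
    pen n lam (N / lam) (y r) with hU
  have hstep : ∀ r ∈ range D, U (r + 1) - U r ≤
      C1 * (β ^ 2 * N / D) * (e + j / n * (√(Ck * δ) * √(D : ℝ) * (1 / √((r : ℝ) + 1)))) +
        C2 * (β ^ 2 * N / D * √(β ^ 2 * N / D)) := by
    intro r hr
    have hr' := mem_range.1 hr
    set B := (D - (r + 1)) • skr N (n - 1) c + r • skr N κ c + fld Empty univ (ys n (y (r + 1)))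
      with hB
    have e4 : L (r + 1) + fld Empty univ (ys n (y (r + 1))) = B + skr N κ c := by
      simp only [hL, hB]; rw [succ_nsmul]; abel
    have e5 : L r + fld Empty univ (ys n (y (r + 1))) = B + skr N (n - 1) c := by
      simp only [hL, hB]
      rw [show D - r = D - (r + 1) + 1 by omega, succ_nsmul]; abel
    have a1 := (hy r).2 (y (r + 1))
    have a2 := hCC _ _ (hy (r + 1))
    have a3 := hKY (D - (r + 1)) (r + 1) c (3 * lam) e (y (r + 1))
      (by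
        rw [hw1, ← Nat.cast_add, show D - (r + 1) + (r + 1) = D by omega]; field_simp)
      (by rw [hw1]; exact e1.le) (hyb (r + 1)) hl3 a2
    have e6 : sk n N κ (D - (r + 1)) (r + 1) c (y (r + 1)) = B + skr N κ c := e4
    rw [← Nat.cast_add, show D - (r + 1) + (r + 1) = D by omega, e6] at a3
    rw [e4] at a2
    have a4 := hinc n N κ B c e hN (by omega) hn (by rw [hw2]; exact e2.le) a2
    rw [hw2] at a4
    set P := ovl n f0 (B + skr N κ c) univ with hP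
    have : Nonempty (Fin N) := ⟨⟨0, hN⟩⟩
    obtain ⟨hPp, hP0⟩ := hG.ovl_path n f0 (B + skr N κ c) univ hn univ_nonempty
    rw [← hP] at hPp hP0
    have a5 : (1 / (j : ℝ)) * ∑ d ∈ Ioc κ (n - 1), P d ≤ 1 := by
      have := sum_le_card_nsmul (Ioc κ (n - 1)) P 1 (fun d hd => hP0 ▸ path_le hPp d (by
        have := (mem_Ioc.1 hd).2; omega))
      rw [Nat.card_Ioc, show n - 1 - κ = j by omega, nsmul_eq_mul, mul_one] at this
      rw [one_div, inv_mul_le_iff₀ hjp, mul_one]; exact this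
    push_cast at a3
    have a6 := sq_trick a5 (by positivity) hDp (by positivity) a3
    have a7 : (1 / (n : ℝ)) * ∑ d ∈ Ioc κ (n - 1), P d ≤
        j / n * (√(Ck * δ) * √(D : ℝ) * (1 / √((r : ℝ) + 1))) := by
      refine le_trans (le_of_eq ?_) (mul_le_mul_of_nonneg_left a6 (by positivity))
      field_simp
    have a8 := mul_le_mul_of_nonneg_left (add_le_add (le_refl e) a7)
      (show 0 ≤ C1 * (β ^ 2 * N / D) by positivity)
    simp only [hU]
    rw [e4]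
    rw [e5] at a1
    linarith
  have s1 := sum_le_sum hstep
  rw [sum_range_sub, sum_add_distrib, ← mul_sum, sum_add_distrib, ← mul_sum, ← mul_sum, sum_const,
    sum_const, card_range, nsmul_eq_mul, nsmul_eq_mul] at s1
  have s2 : √(Ck * δ) * √(D : ℝ) * ∑ r ∈ range D, 1 / √((r : ℝ) + 1) ≤ D * (2 * √Ck * √δ) := by
    refine (mul_le_mul_of_nonneg_left (sum_inv_sqrt D) (by positivity)).trans (le_of_eq ?_)
    rw [sqrt_mul hCk]
    have : √(D : ℝ) * √(D : ℝ) = D := mul_self_sqrt hDp.le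
    linear_combination (2 * √Ck * √δ) * this
  have s3 : C1 * (β ^ 2 * N / D) * (D * e + j / n *
      (√(Ck * δ) * √(D : ℝ) * ∑ r ∈ range D, 1 / √((r : ℝ) + 1))) ≤
      C1 * β ^ 2 * N * (e + 2 * √Ck * (j / n * √δ)) := by
    refine (mul_le_mul_of_nonneg_left (add_le_add le_rfl
      (mul_le_mul_of_nonneg_left s2 (by positivity))) (by positivity)).trans (le_of_eq ?_)
    field_simp
  have s4 : D * (C2 * (β ^ 2 * N / D * √(β ^ 2 * N / D))) =
      C2 * (β ^ 2 * N * √(β ^ 2 * N / D)) := by field_simp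
  have u1 := (hy D).2 (fun _ => 2 * lam)
  have u2 := (abs_le.1 (hfld n N (L D) (fun _ => 2 * lam) (2 * lam) hn (by linarith)
    (fun d _ => by rw [abs_of_pos (by positivity)]))).1
  have u3 := (abs_le.1 (hfld n N (L 0) (y 0) (3 * lam) hn hl1 (hyb 0))).2
  have u4 : pen n lam (N / lam) (fun _ => 2 * lam) = 0 := by simp [pen]
  have u5 : 0 ≤ pen n lam (N / lam) (y 0) := by unfold pen; positivity
  have u6 : L D = D • skr N κ c := by simp [hL]
  have u7 : L 0 = D • skr N (n - 1) c := by simp [hL]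
  rw [← u6, ← u7]
  simp only [hU] at s1
  have p1 : 0 ≤ (N : ℝ) * e := by positivity
  have p2 : 0 ≤ (N : ℝ) * (j / n * √δ) := by positivity
  have p3 : 0 ≤ (N : ℝ) * (n * lam ^ 2) := by positivity
  have q1 : 0 ≤ C1 * β ^ 2 := by positivity
  have q2 : 0 ≤ C1 * β ^ 2 * √Ck := by positivity
  have r1 := mul_nonneg q1 p2
  have r2 := mul_nonneg q1 p3
  have r3 := mul_nonneg q2 p1
  have r4 := mul_nonneg q2 p3
  have r5 := mul_nonneg hC3 p1
  have r6 := mul_nonneg hC3 p2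
  linarith

end

end Vale.Agent.P146
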