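import Vale.Agent.P146.Spec

/-! P146: the variance bound with free parameters. -/

namespace Vale.Agent.P146

open MeasureTheory ProbabilityTheory Finset Real Filter
open Vale.Agent.P157

noncomputable section

theorem stmtVB (hN : StmtNB) (hA : StmtGA) (hT : StmtGT) (hL : StmtGL) (h : StmtTL) : StmtVB := by
  intro β hβ
  obtain ⟨CA, a0, hA⟩ := hA
  obtain ⟨CT, t0, hT⟩ := hT
  obtain ⟨C, c0, h⟩ := h β hβ
  refine ⟨CA * (C + CT * β ^ 2 + β ^ 4), by positivity,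
    fun n N j t lam e hj hjn hN1 ht ht1 hl hnl hβn he hC => ?_⟩
  have j1 : (1 : ℝ) ≤ j := by exact_mod_cast hj
  have n1 : (1 : ℝ) ≤ n := by exact_mod_cast (show 1 ≤ n by omega)
  have N1 : (1 : ℝ) ≤ N := by exact_mod_cast hN1
  have e1 : 1 - ((n - 1 - j : ℕ) : ℝ) / n = (j + 1) / n := by
    rw [Nat.cast_sub (by omega), Nat.cast_sub (by omega)]; push_cast; field_simp; ring
  have e2 : 1 - ((n - 1 : ℕ) : ℝ) / n = 1 / n := by
    rw [Nat.cast_sub (by omega)]; push_cast; field_simp; ring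
  obtain ⟨s, hs⟩ : ∃ s, s = √((n : ℝ) / j * ((√e + 1 / N + n * (3 * lam) ^ 2) / t + √t) + j / n) :=
    ⟨_, rfl⟩
  have s0 : 0 ≤ s := hs ▸ sqrt_nonneg _
  have key : (((j : ℝ) + 1) / n)⁻¹ * log (∫ v, exp ((j + 1) / n * lse v) ∂gs N β) -
      (1 / (n : ℝ))⁻¹ * log (∫ v, exp (1 / n * lse v) ∂gs N β) ≤
      C * N * (e + j / n * s + n * lam ^ 2) := by
    refine le_of_forall_pos_le_add fun ε hε => ?_
    obtain ⟨D, h1, h2, h3⟩ := ((h n N j t lam e (ε / 3) hj hjn hN1 ht ht1 hl hnl (by positivity) he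
      hC).and ((hL β (ε / 3) n N (n - 1 - j) hβ.le (by positivity) (by omega) hN1).and
      (hL β (ε / 3) n N (n - 1) hβ.le (by positivity) (by omega) hN1))).exists
    rw [e1] at h2
    rw [e2] at h3
    rw [← hs] at h1
    linarith [(abs_le.1 h2).1, (abs_le.1 h3).2]
  have sN : 1 ≤ √(N : ℝ) := one_le_sqrt.2 N1
  have l2 : (β / √(N : ℝ)) ^ 2 = β ^ 2 / N := by rw [div_pow, sq_sqrt (by positivity)]
  have k1 := hA _ _ (wv N β) (β / √N) ((j + 1) / n) (by positivity) (fun k => hN.wv_le N β k hβ.le)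
  have k2 := hT _ _ (wv N β) (β / √N) (1 / n) (by positivity) (by
    rw [div_mul_div_comm, one_mul, div_le_one (by positivity)]
    exact hβn.trans (le_mul_of_one_le_right (by positivity) sN)) (fun k => hN.wv_le N β k hβ.le)
  rw [hN.var, ← hs]
  unfold gs at key ⊢
  have hm := hN.card_le N
  generalize (∫ v, lse v ^ 2 ∂gn _ (wv N β) - (∫ v, lse v ∂gn _ (wv N β)) ^ 2) = V at k1 ⊢
  generalize log (∫ v, exp ((j + 1) / n * lse v) ∂gn _ (wv N β)) = L1 at k1 key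
  generalize log (∫ v, exp (1 / n * lse v) ∂gn _ (wv N β)) = L2 at k2 key
  generalize (∫ v, lse v ∂gn _ (wv N β)) = E at k1 k2
  generalize (Fintype.card (Pr N) : ℝ) = m at k1 k2 hm
  have m2 : m * (β / √(N : ℝ)) ^ 2 ≤ β ^ 2 * N := by
    rw [l2]
    exact (mul_le_mul_of_nonneg_right hm (by positivity)).trans (le_of_eq (by field_simp))
  have m4 : m * (β / √(N : ℝ)) ^ 4 ≤ β ^ 4 := by
    rw [show (β / √(N : ℝ)) ^ 4 = ((β / √(N : ℝ)) ^ 2) ^ 2 by ring, l2]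
    exact (mul_le_mul_of_nonneg_right hm (by positivity)).trans (le_of_eq (by field_simp))
  have k3 : (1 / (n : ℝ))⁻¹ * L2 ≤ E + CT * (β ^ 2 * N) * (1 / n) := by
    refine (mul_le_mul_of_nonneg_left k2 (by positivity)).trans ?_
    have := mul_le_mul_of_nonneg_right (mul_le_mul_of_nonneg_left m2 t0)
      (by positivity : 0 ≤ 1 / (n : ℝ))
    refine le_trans (le_of_eq ?_) (add_le_add_right this E)
    field_simp
  obtain ⟨θ, hθ⟩ : ∃ θ : ℝ, θ = (j + 1) / n := ⟨_, rfl⟩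
  have θ0 : 0 < θ := by rw [hθ]; positivity
  have θ1 : θ⁻¹ ≤ n / j := by
    rw [hθ, inv_div]
    exact div_le_div_of_nonneg_left (by positivity) (by positivity) (by linarith)
  rw [← hθ] at key k1
  have k4 : V ≤ CA * (θ⁻¹ * (θ⁻¹ * L1 - E) + m * (β / √(N : ℝ)) ^ 4) := by
    refine le_of_mul_le_mul_left (k1.trans (le_of_eq ?_)) (by positivity : 0 < θ ^ 2)
    field_simp
  have k5 : θ⁻¹ * (θ⁻¹ * L1 - E) ≤
      n / j * (C * N * (e + j / n * s + n * lam ^ 2) + CT * (β ^ 2 * N) * (1 / n)) :=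
    (mul_le_mul_of_nonneg_left (by linarith) (by positivity)).trans
      (mul_le_mul_of_nonneg_right θ1 (by positivity))
  have k6 : (n : ℝ) / j * (C * N * (e + j / n * s + n * lam ^ 2) + CT * (β ^ 2 * N) * (1 / n)) =
      C * (N * ((e + n * lam ^ 2) * (n / j) + s)) + CT * β ^ 2 * (N * (1 / n * (n / j))) := by
    field_simp; ring
  obtain ⟨u, hu⟩ : ∃ u : ℝ, u = N * ((e + n * lam ^ 2) * (n / j) + s) := ⟨_, rfl⟩
  obtain ⟨w, hw⟩ : ∃ w : ℝ, w = N * (1 / n * (n / j)) := ⟨_, rfl⟩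
  have u0 : 0 ≤ u := by rw [hu]; positivity
  have w0 : 0 ≤ w := by rw [hw]; positivity
  rw [k6, ← hu, ← hw] at k5
  rw [show CA * (C + CT * β ^ 2 + β ^ 4) * N * ((e + n * lam ^ 2 + 1 / n) * (n / j) + s) =
    CA * ((C + CT * β ^ 2 + β ^ 4) * (u + w)) by rw [hu, hw]; ring, ← mul_add]
  refine k4.trans (mul_le_mul_of_nonneg_left ?_ a0)
  have p1 : 0 ≤ C * w := by positivity
  have p2 : 0 ≤ CT * β ^ 2 * u := by positivity
  have p3 : 0 ≤ β ^ 4 * (u + w) := by positivity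
  have p4 : 0 ≤ CT * β ^ 2 := by positivity
  linarith

end

end Vale.Agent.P146
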