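import Vale.Agent.P146.NB
import Vale.Agent.P146.GA
import Vale.Agent.P146.GT
import Vale.Agent.P146.GL
import Vale.Agent.P146.CN
import Vale.Agent.P146.SC
import Vale.Agent.P146.CV
import Vale.Agent.P146.HS
import Vale.Agent.P146.KY
import Vale.Agent.P146.TL
import Vale.Agent.P146.VB
import Vale.Agent.P146.Fin

namespace Vale.Agent.P146

theorem fin : StmtFin :=
  stmtFin stmtCN (stmtVB stmtNB (stmtGA stmtNB) (stmtGT stmtNB) (stmtGL stmtNB)
    (stmtTL (stmtKY (stmtHS stmtCV) stmtSC)))

end Vale.Agent.P146
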