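import Vale.Agent.P146.Spec

/-! P146: basic facts on Gaussian fields. -/

namespace Vale.Agent.P146

open MeasureTheory ProbabilityTheory Finset Real Filter
open Vale.Agent.P157

noncomputable section

namespace NB

theorem int_abs (a : ℝ) : Integrable (fun z : ℝ => exp (a * |z|)) (gaussianReal 0 1) := by
  refine ((integrable_exp_mul_gaussianReal a).add (integrable_exp_mul_gaussianReal (-a))).mono'
    (by fun_prop) (Eventually.of_forall fun z => ?_)
  rw [Real.norm_eq_abs, abs_of_pos (exp_pos _)]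
  simp only [Pi.add_apply]
  rcases abs_choice z with h | h
  · rw [h]; linarith [exp_pos (-a * z)]
  · rw [h, show a * -z = -a * z by ring]; linarith [exp_pos (a * z)]

section
variable {S : Type} [Fintype S]

theorem lin_meas (m : ℕ) (w : Fin m → S → ℝ) :
    Measurable (fun g : Fin m → ℝ => ∑ k, g k • w k) := by
  refine Continuous.measurable ?_
  fun_prop

theorem gr_nn {f : (S → ℝ) → ℝ} {A K : ℝ} (h : ∀ v, |f v| ≤ A * exp (K * ‖v‖)) : 0 ≤ A := by
  have h0 := (abs_nonneg _).trans (h 0)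
  simpa using h0

theorem gr_add {f : (S → ℝ) → ℝ} {A K : ℝ} (hK : 0 ≤ K) (h : ∀ v, |f v| ≤ A * exp (K * ‖v‖))
    (x v : S → ℝ) : |f (x + v)| ≤ A * exp (K * ‖x‖) * exp (K * ‖v‖) := by
  refine (h _).trans ?_
  rw [mul_assoc, ← exp_add, ← mul_add]
  exact mul_le_mul_of_nonneg_left
    (exp_le_exp.2 (mul_le_mul_of_nonneg_left (norm_add_le _ _) hK)) (gr_nn h)

theorem int_exp (m : ℕ) (w : Fin m → S → ℝ) {K : ℝ} (hK : 0 ≤ K) :
    Integrable (fun g : Fin m → ℝ => exp (K * ‖∑ k, g k • w k‖))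
      (Measure.pi fun _ : Fin m => gaussianReal 0 1) := by
  have h := Integrable.fintype_prod (μ := fun _ : Fin m => gaussianReal 0 1)
    (f := fun k z => exp (K * ‖w k‖ * |z|)) (fun k => int_abs _)
  refine h.mono' (Continuous.aestronglyMeasurable (by fun_prop)) (Eventually.of_forall fun g => ?_)
  rw [Real.norm_eq_abs, abs_of_pos (exp_pos _), ← exp_sum]
  refine exp_le_exp.2 ((mul_le_mul_of_nonneg_left (norm_sum_le _ _) hK).trans (le_of_eq ?_))
  rw [mul_sum]
  refine sum_congr rfl fun k _ => ?_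
  rw [norm_smul, Real.norm_eq_abs]
  ring

theorem int_pi (m : ℕ) (w : Fin m → S → ℝ) {f : (S → ℝ) → ℝ} (hf : Gr f) (x : S → ℝ) :
    Integrable (fun g : Fin m → ℝ => f (x + ∑ k, g k • w k))
      (Measure.pi fun _ : Fin m => gaussianReal 0 1) := by
  obtain ⟨hm, A, K, hK, h⟩ := hf
  refine ((int_exp m w hK).const_mul (A * exp (K * ‖x‖))).mono'
    (hm.comp ((lin_meas m w).const_add x)).aestronglyMeasurable (Eventually.of_forall fun g => ?_)
  exact gr_add hK h x _

theorem prob (m : ℕ) (w : Fin m → S → ℝ) : IsProbabilityMeasure (gn m w) :=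
  Measure.isProbabilityMeasure_map (lin_meas m w).aemeasurable

theorem int (m : ℕ) (w : Fin m → S → ℝ) (f : (S → ℝ) → ℝ) (x : S → ℝ) (hf : Gr f) :
    Integrable (fun v => f (x + v)) (gn m w) :=
  (integrable_map_measure (hf.1.comp (measurable_const_add x)).aestronglyMeasurable
    (lin_meas m w).aemeasurable).2 (int_pi m w hf x)

theorem gn_int (m : ℕ) (w : Fin m → S → ℝ) {f : (S → ℝ) → ℝ} (hf : Measurable f) :
    ∫ v, f v ∂gn m w = ∫ g, f (∑ k, g k • w k) ∂Measure.pi fun _ : Fin m => gaussianReal 0 1 :=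
  integral_map (lin_meas m w).aemeasurable hf.aestronglyMeasurable

theorem zero (w : Fin 0 → S → ℝ) (f : (S → ℝ) → ℝ) : ∫ v, f v ∂gn 0 w = f 0 := by
  have e : gn 0 w = Measure.dirac 0 := by
    unfold gn
    simp
  rw [e, integral_dirac]

theorem succ (m : ℕ) (w : Fin (m + 1) → S → ℝ) (f : (S → ℝ) → ℝ) (hf : Gr f) :
    ∫ v, f v ∂gn (m + 1) w =
      ∫ z, ∫ v, f (z • w 0 + v) ∂gn m (fun k => w k.succ) ∂gaussianReal 0 1 := by
  have hp := measurePreserving_piFinSuccAbove (fun _ : Fin (m + 1) => gaussianReal 0 1) 0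
  have he : (fun g : Fin (m + 1) → ℝ => f (∑ k, g k • w k)) =
      (fun p : ℝ × (Fin m → ℝ) => f (p.1 • w 0 + ∑ k : Fin m, p.2 k • w k.succ)) ∘
        MeasurableEquiv.piFinSuccAbove (fun _ : Fin (m + 1) => ℝ) 0 := by
    ext g
    rw [Fin.sum_univ_succ]
    rfl
  have hi := int_pi (m + 1) w hf 0
  simp only [zero_add] at hi
  rw [he] at hi
  have hi2 := (hp.integrable_comp_emb (MeasurableEquiv.measurableEmbedding _)).1 hi
  rw [gn_int _ _ hf.1, he]
  refine (hp.integral_comp' (fun p : ℝ × (Fin m → ℝ) =>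
    f (p.1 • w 0 + ∑ k : Fin m, p.2 k • w k.succ))).trans ?_
  rw [integral_prod _ hi2]
  refine integral_congr_ae (Eventually.of_forall fun z => ?_)
  exact (gn_int m (fun k => w k.succ) (f := fun v => f (z • w 0 + v))
    (hf.1.comp (measurable_const_add _))).symm

theorem int1 (f : (S → ℝ) → ℝ) (x w : S → ℝ) (a : ℝ) (hf : Gr f) :
    Integrable (fun z : ℝ => f (x + z • w) * exp (a * z)) (gaussianReal 0 1) := by
  obtain ⟨hm, A, K, hK, h⟩ := hf
  have m1 : Measurable fun z : ℝ => x + z • w := Continuous.measurable (by fun_prop)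
  refine ((int_abs (K * ‖w‖ + |a|)).const_mul (A * exp (K * ‖x‖))).mono'
    ((hm.comp m1).mul (by fun_prop)).aestronglyMeasurable (Eventually.of_forall fun z => ?_)
  rw [Real.norm_eq_abs, abs_mul, abs_of_pos (exp_pos _), add_mul, exp_add, ← mul_assoc]
  have h1 := gr_add hK h x (z • w)
  rw [norm_smul, Real.norm_eq_abs, show K * (|z| * ‖w‖) = K * ‖w‖ * |z| by ring] at h1
  refine mul_le_mul h1 (exp_le_exp.2 ?_) (exp_pos _).le ((abs_nonneg _).trans h1)
  rw [← abs_mul]
  exact le_abs_self _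

theorem par (m : ℕ) (w : Fin m → S → ℝ) (f : (S → ℝ) → ℝ) (hf : Gr f) :
    Gr (fun x => ∫ v, f (x + v) ∂gn m w) := by
  have := prob m w
  obtain ⟨hm, A, K, hK, h⟩ := hf
  have hE : Gr (fun v : S → ℝ => exp (K * ‖v‖)) :=
    ⟨by fun_prop, 1, K, hK, fun v => by rw [abs_of_pos (exp_pos _), one_mul]⟩
  have hI := int m w _ 0 hE
  simp only [zero_add] at hI
  refine ⟨?_, A * ∫ v, exp (K * ‖v‖) ∂gn m w, K, hK, fun x => ?_⟩
  · exact (StronglyMeasurable.integral_prod_right (f := fun x v : S → ℝ => f (x + v))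
      (hm.comp measurable_add).stronglyMeasurable).measurable
  · have h1 := norm_integral_le_of_norm_le (f := fun v => f (x + v))
      (hI.const_mul (A * exp (K * ‖x‖))) (Eventually.of_forall fun v => gr_add hK h x v)
    rw [integral_const_mul] at h1
    exact h1.trans (le_of_eq (by ring))

theorem add (f g : (S → ℝ) → ℝ) (hf : Gr f) (hg : Gr g) : Gr (fun v => f v + g v) := by
  obtain ⟨m1, A, K, hK, h⟩ := hf
  obtain ⟨m2, A', K', hK', h'⟩ := hg
  refine ⟨m1.add m2, A + A', K + K', by positivity, fun v => (abs_add_le _ _).trans ?_⟩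
  have n0 := norm_nonneg v
  have a1 : exp (K * ‖v‖) ≤ exp ((K + K') * ‖v‖) := exp_le_exp.2 (by nlinarith)
  have a2 : exp (K' * ‖v‖) ≤ exp ((K + K') * ‖v‖) := exp_le_exp.2 (by nlinarith)
  have b1 := mul_le_mul_of_nonneg_left a1 (gr_nn h)
  have b2 := mul_le_mul_of_nonneg_left a2 (gr_nn h')
  linarith [h v, h' v]

theorem mul (f g : (S → ℝ) → ℝ) (hf : Gr f) (hg : Gr g) : Gr (fun v => f v * g v) := by
  obtain ⟨m1, A, K, hK, h⟩ := hf
  obtain ⟨m2, A', K', hK', h'⟩ := hg
  refine ⟨m1.mul m2, A * A', K + K', by positivity, fun v => ?_⟩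
  rw [abs_mul, add_mul, exp_add]
  exact (mul_le_mul (h v) (h' v) (abs_nonneg _) ((abs_nonneg _).trans (h v))).trans
    (le_of_eq (by ring))

theorem shift (f : (S → ℝ) → ℝ) (x : S → ℝ) (hf : Gr f) : Gr (fun v => f (x + v)) := by
  obtain ⟨m1, A, K, hK, h⟩ := hf
  exact ⟨m1.comp (measurable_const_add x), _, K, hK, gr_add hK h x⟩

theorem lipG (f : (S → ℝ) → ℝ) (K : ℝ) (h : ∀ x y, |f x - f y| ≤ K * ‖x - y‖) :
    Gr f ∧ Gr (fun v => exp (f v)) := by
  have hc : Continuous f := by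
    refine (LipschitzWith.of_dist_le' (K := K) fun x y => ?_).continuous
    rw [Real.dist_eq, dist_eq_norm]
    exact h x y
  have hb : ∀ v, |f v| ≤ |f 0| + |K| * ‖v‖ := fun v => by
    have h1 := h v 0
    rw [sub_zero] at h1
    have h2 := mul_le_mul_of_nonneg_right (le_abs_self K) (norm_nonneg v)
    have h3 := abs_sub_abs_le_abs_sub (f v) (f 0)
    linarith
  refine ⟨⟨hc.measurable, |f 0| + 1, |K|, abs_nonneg _, fun v => (hb v).trans ?_⟩,
    ⟨hc.measurable.exp, exp |f 0|, |K|, abs_nonneg _, fun v => ?_⟩⟩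
  · have h1 := add_one_le_exp (|K| * ‖v‖)
    have h2 : 0 ≤ |K| * ‖v‖ := by positivity
    nlinarith [abs_nonneg (f 0)]
  · rw [abs_of_pos (exp_pos _), ← exp_add]
    exact exp_le_exp.2 ((le_abs_self _).trans (hb v))

theorem dl_lin (x v w : S → ℝ) (a : ℝ) :
    dl x (v + a • w) = dl x v + a * dl x w ∧ dl x (a • w) = a * dl x w := by
  unfold dl
  simp only [Pi.add_apply, Pi.smul_apply, smul_eq_mul]
  constructor
  · rw [← mul_div_assoc, ← add_div, mul_sum, ← sum_add_distrib]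
    congr 1
    exact sum_congr rfl fun σ _ => by ring
  · rw [← mul_div_assoc, mul_sum]
    congr 1
    exact sum_congr rfl fun σ _ => by ring

variable [Nonempty S]

theorem zpos (x : S → ℝ) : 0 < ∑ σ, exp (x σ) := sum_pos (fun _ _ => exp_pos _) univ_nonempty

theorem dl_mul (x v : S → ℝ) : dl x v * ∑ σ, exp (x σ) = ∑ σ, exp (x σ) * v σ :=
  div_mul_cancel₀ _ (zpos x).ne'

theorem dl_abs (x v : S → ℝ) : |dl x v| ≤ ‖v‖ := by
  unfold dl
  rw [abs_div, abs_of_pos (zpos x), div_le_iff₀ (zpos x), mul_sum]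
  refine (abs_sum_le_sum_abs _ _).trans (sum_le_sum fun σ _ => ?_)
  rw [abs_mul, abs_of_pos (exp_pos _), mul_comm]
  exact mul_le_mul_of_nonneg_right (norm_le_pi_norm v σ) (exp_pos _).le

theorem dlG (y : S → ℝ) : Gr (fun v => dl v y) := by
  refine ⟨?_, ‖y‖, 0, le_rfl, fun v => by simpa using dl_abs v y⟩
  unfold dl
  fun_prop

theorem lse_le {x y : S → ℝ} {c : ℝ} (h : ∑ σ, exp (x σ) ≤ exp c * ∑ σ, exp (y σ)) :
    lse x ≤ lse y + c := by
  unfold lse
  have h1 := log_le_log (zpos x) h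
  rw [log_mul (exp_pos _).ne' (zpos y).ne', log_exp] at h1
  linarith

theorem lip1 (x y : S → ℝ) : lse x ≤ lse y + ‖x - y‖ := by
  refine lse_le ?_
  rw [mul_sum]
  refine sum_le_sum fun σ _ => ?_
  rw [← exp_add]
  have h := norm_le_pi_norm (x - y) σ
  rw [Real.norm_eq_abs, Pi.sub_apply] at h
  exact exp_le_exp.2 (by linarith [le_abs_self (x σ - y σ)])

theorem lip (x y : S → ℝ) : |lse x - lse y| ≤ ‖x - y‖ := by
  have h1 := lip1 x y
  have h2 := lip1 y x
  rw [norm_sub_rev] at h2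
  rw [abs_le]
  constructor <;> linarith

theorem cvx (x v : S → ℝ) : lse x + dl x v ≤ lse (x + v) := by
  have h : lse x ≤ lse (x + v) + -dl x v := by
    refine lse_le ?_
    have h1 : ∑ σ, exp (x σ) = ∑ σ, exp (x σ) * (v σ - dl x v + 1) := by
      simp only [mul_add, mul_sub, sum_add_distrib, sum_sub_distrib, mul_one]
      rw [← sum_mul, ← dl_mul]
      ring
    rw [h1, mul_sum]
    refine sum_le_sum fun σ _ => ?_
    rw [Pi.add_apply, ← exp_add, show -dl x v + (x σ + v σ) = x σ + (v σ - dl x v) by ring,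
      exp_add]
    exact mul_le_mul_of_nonneg_left (add_one_le_exp _) (exp_pos _).le
  linarith

theorem scv (x v : S → ℝ) : lse (x + v) ≤ lse x + dl x v + 2 * ‖v‖ ^ 2 := by
  have n0 := norm_nonneg v
  rcases le_total ‖v‖ 1 with h | h
  · have h1 : lse (x + v) ≤ lse x + (dl x v + ‖v‖ ^ 2) := by
      refine lse_le ?_
      have h2 : ∑ σ, exp ((x + v) σ) ≤ ∑ σ, exp (x σ) * (v σ + ‖v‖ ^ 2 + 1) := by
        refine sum_le_sum fun σ _ => ?_
        rw [Pi.add_apply, exp_add]
        refine mul_le_mul_of_nonneg_left ?_ (exp_pos _).le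
        have h3 : |v σ| ≤ ‖v‖ := norm_le_pi_norm v σ
        have h4 := (abs_le.1 (abs_exp_sub_one_sub_id_le (h3.trans h))).2
        have h5 : v σ ^ 2 ≤ ‖v‖ ^ 2 := by
          rw [← sq_abs]
          exact pow_le_pow_left₀ (abs_nonneg _) h3 2
        linarith
      have h6 : ∑ σ, exp (x σ) * (v σ + ‖v‖ ^ 2 + 1) =
          (dl x v + ‖v‖ ^ 2 + 1) * ∑ σ, exp (x σ) := by
        simp only [mul_add, sum_add_distrib, mul_one]
        rw [← sum_mul, ← dl_mul]
        ring
      rw [h6] at h2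
      exact h2.trans (mul_le_mul_of_nonneg_right (add_one_le_exp _) (zpos x).le)
    nlinarith
  · have h1 := lip1 (x + v) x
    rw [add_sub_cancel_left] at h1
    have h2 := (abs_le.1 (dl_abs x v)).1
    nlinarith

theorem lseG : Gr (lse : (S → ℝ) → ℝ) := (lipG lse 1 fun x y => by simpa using lip x y).1

end

theorem fe_eq (N : ℕ) (β : ℝ) (g : Pr N → ℝ) :
    lse (∑ k, (MeasurableEquiv.piCongrLeft (fun _ => ℝ) (Fintype.equivFin (Pr N)) g) k •
      wv N β k) = FE N β g := by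
  unfold lse FE ham
  congr 1
  refine sum_congr rfl fun σ _ => ?_
  congr 1
  rw [← (Fintype.equivFin (Pr N)).sum_comp, Finset.sum_apply, mul_sum, mul_sum]
  refine sum_congr rfl fun p _ => ?_
  rw [MeasurableEquiv.piCongrLeft_apply_apply]
  simp only [wv, pw, Equiv.symm_apply_apply, Pi.smul_apply, Pi.mul_apply, smul_eq_mul, sp]
  have e : ∀ s, sg s = spin s := fun _ => rfl
  rw [e, e]
  ring

theorem fe_mp (N : ℕ) : MeasurePreserving
    (MeasurableEquiv.piCongrLeft (fun _ => ℝ) (Fintype.equivFin (Pr N))) (PG N)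
    (Measure.pi fun _ : Fin (Fintype.card (Pr N)) => gaussianReal 0 1) :=
  measurePreserving_piCongrLeft (fun _ : Fin (Fintype.card (Pr N)) => gaussianReal 0 1)
    (Fintype.equivFin (Pr N))

theorem fe (N : ℕ) (β : ℝ) (φ : ℝ → ℝ) (hφ : Measurable φ) :
    ∫ g, φ (FE N β g) ∂PG N = ∫ v, φ (lse v) ∂gs N β := by
  unfold gs
  rw [gn_int _ _ (f := fun v => φ (lse v)) (hφ.comp lseG.1),
    ← (fe_mp N).integral_comp' (fun g => φ (lse (∑ k, g k • wv N β k)))]
  simp only [fe_eq]

theorem var (N : ℕ) (β : ℝ) :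
    Var[FE N β; PG N] = ∫ v, lse v ^ 2 ∂gs N β - (∫ v, lse v ∂gs N β) ^ 2 := by
  have : IsProbabilityMeasure (PG N) := by unfold PG; infer_instance
  have hm : Measurable (FE N β) := by
    have e : FE N β = fun g => lse (∑ k, (MeasurableEquiv.piCongrLeft (fun _ => ℝ)
        (Fintype.equivFin (Pr N)) g) k • wv N β k) := funext fun g => (fe_eq N β g).symm
    rw [e]
    exact lseG.1.comp ((lin_meas _ _).comp (MeasurableEquiv.measurable _))
  have hi := int_pi _ (wv N β) (mul _ _ lseG lseG) 0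
  have hi2 := ((fe_mp N).integrable_comp_emb (MeasurableEquiv.measurableEmbedding _)).2 hi
  have h2 : MemLp (FE N β) 2 (PG N) := by
    refine (memLp_two_iff_integrable_sq hm.aestronglyMeasurable).2 ?_
    refine hi2.congr (Eventually.of_forall fun g => ?_)
    simp only [Function.comp_apply, zero_add, fe_eq]
    ring
  rw [variance_eq_sub h2, ← fe N β (fun t => t ^ 2) (by fun_prop), ← fe N β (fun t => t) (by fun_prop)]
  rfl

theorem wv_le (N : ℕ) (β : ℝ) (k : Fin (Fintype.card (Pr N))) (hβ : 0 ≤ β) :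
    ‖wv N β k‖ ≤ β / √(N : ℝ) := by
  have h0 : 0 ≤ β / √(N : ℝ) := by positivity
  refine (pi_norm_le_iff_of_nonneg h0).2 fun σ => ?_
  have e : ∀ s, |spin s| = 1 := fun s => by cases s <;> simp [spin]
  simp only [wv, pw, Pi.smul_apply, Pi.mul_apply, smul_eq_mul, sp, Real.norm_eq_abs, abs_mul, e,
    abs_of_nonneg h0, mul_one, le_refl]

theorem card_le (N : ℕ) : (Fintype.card (Pr N) : ℝ) ≤ (N : ℝ) ^ 2 := by
  have h := Fintype.card_subtype_le (fun p : Fin N × Fin N => p.1 < p.2)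
  rw [Fintype.card_prod, Fintype.card_fin, ← sq] at h
  exact_mod_cast h

end NB

theorem stmtNB : StmtNB where
  prob := NB.prob
  zero := NB.zero
  succ := NB.succ
  int := NB.int
  int1 := NB.int1
  par := NB.par
  const := fun c => ⟨measurable_const, |c|, 0, le_rfl, fun v => by simp⟩
  add := NB.add
  mul := NB.mul
  shift := NB.shift
  lipG := NB.lipG
  dlG := NB.dlG
  lip := NB.lip
  cvx := NB.cvx
  scv := NB.scv
  dl_lin := NB.dl_lin
  fe := NB.fe
  var := NB.var
  wv_le := NB.wv_le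
  card_le := NB.card_le

end

end Vale.Agent.P146
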