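import Vale.Agent.P146.Defs
import Vale.Agent.P157.All

/-! P146: internal definitions and module statements (proofs in notes/P146.md). -/

namespace Vale.Agent.P146

open MeasureTheory ProbabilityTheory Finset Real Filter
open Vale.Agent.P157

noncomputable section

/-! ### Gaussian side -/

def lse {S : Type} [Fintype S] (x : S → ℝ) : ℝ := log (∑ σ, exp (x σ))

/-- the Gibbs average of `v` -/
def dl {S : Type} [Fintype S] (x v : S → ℝ) : ℝ := (∑ σ, exp (x σ) * v σ) / ∑ σ, exp (x σ)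

/-- the law of `∑ g_k w_k` -/
def gn {S : Type} [Fintype S] (m : ℕ) (w : Fin m → S → ℝ) : Measure (S → ℝ) :=
  (Measure.pi fun _ : Fin m => gaussianReal 0 1).map (fun g => ∑ k, g k • w k)

/-- measurable with at most exponential growth -/
def Gr {S : Type} [Fintype S] (f : (S → ℝ) → ℝ) : Prop :=
  Measurable f ∧ ∃ A K : ℝ, 0 ≤ K ∧ ∀ v, |f v| ≤ A * exp (K * ‖v‖)

def pw {N : ℕ} (p : Pr N) : (Fin N → Bool) → ℝ := sp p.1.1 * sp p.1.2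

def wv (N : ℕ) (β : ℝ) (k : Fin (Fintype.card (Pr N))) : (Fin N → Bool) → ℝ :=
  (β / √(N : ℝ)) • pw ((Fintype.equivFin (Pr N)).symm k)

/-- the law of the field `β H_N` -/
def gs (N : ℕ) (β : ℝ) : Measure ((Fin N → Bool) → ℝ) := gn (Fintype.card (Pr N)) (wv N β)

structure StmtNB : Prop where
  prob : ∀ {S : Type} [Fintype S] (m : ℕ) (w : Fin m → S → ℝ), IsProbabilityMeasure (gn m w)
  zero : ∀ {S : Type} [Fintype S] (w : Fin 0 → S → ℝ) (f : (S → ℝ) → ℝ), ∫ v, f v ∂gn 0 w = f 0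
  succ : ∀ {S : Type} [Fintype S] (m : ℕ) (w : Fin (m + 1) → S → ℝ) (f : (S → ℝ) → ℝ), Gr f →
    ∫ v, f v ∂gn (m + 1) w =
      ∫ z, ∫ v, f (z • w 0 + v) ∂gn m (fun k => w k.succ) ∂gaussianReal 0 1
  int : ∀ {S : Type} [Fintype S] (m : ℕ) (w : Fin m → S → ℝ) (f : (S → ℝ) → ℝ) (x : S → ℝ),
    Gr f → Integrable (fun v => f (x + v)) (gn m w)
  int1 : ∀ {S : Type} [Fintype S] (f : (S → ℝ) → ℝ) (x w : S → ℝ) (a : ℝ),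
    Gr f → Integrable (fun z : ℝ => f (x + z • w) * exp (a * z)) (gaussianReal 0 1)
  par : ∀ {S : Type} [Fintype S] (m : ℕ) (w : Fin m → S → ℝ) (f : (S → ℝ) → ℝ),
    Gr f → Gr (fun x => ∫ v, f (x + v) ∂gn m w)
  const : ∀ {S : Type} [Fintype S] (c : ℝ), Gr (fun _ : S → ℝ => c)
  add : ∀ {S : Type} [Fintype S] (f g : (S → ℝ) → ℝ), Gr f → Gr g → Gr (fun v => f v + g v)
  mul : ∀ {S : Type} [Fintype S] (f g : (S → ℝ) → ℝ), Gr f → Gr g → Gr (fun v => f v * g v)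
  shift : ∀ {S : Type} [Fintype S] (f : (S → ℝ) → ℝ) (x : S → ℝ), Gr f → Gr (fun v => f (x + v))
  lipG : ∀ {S : Type} [Fintype S] (f : (S → ℝ) → ℝ) (K : ℝ), (∀ x y, |f x - f y| ≤ K * ‖x - y‖) →
    Gr f ∧ Gr (fun v => exp (f v))
  dlG : ∀ {S : Type} [Fintype S] [Nonempty S] (y : S → ℝ), Gr (fun v => dl v y)
  lip : ∀ {S : Type} [Fintype S] [Nonempty S] (x y : S → ℝ), |lse x - lse y| ≤ ‖x - y‖
  cvx : ∀ {S : Type} [Fintype S] [Nonempty S] (x v : S → ℝ), lse x + dl x v ≤ lse (x + v)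
  scv : ∀ {S : Type} [Fintype S] [Nonempty S] (x v : S → ℝ),
    lse (x + v) ≤ lse x + dl x v + 2 * ‖v‖ ^ 2
  dl_lin : ∀ {S : Type} [Fintype S] (x v w : S → ℝ) (a : ℝ),
    dl x (v + a • w) = dl x v + a * dl x w ∧ dl x (a • w) = a * dl x w
  fe : ∀ (N : ℕ) (β : ℝ) (φ : ℝ → ℝ), Measurable φ →
    ∫ g, φ (FE N β g) ∂PG N = ∫ v, φ (lse v) ∂gs N β
  var : ∀ (N : ℕ) (β : ℝ), Var[FE N β; PG N] = ∫ v, lse v ^ 2 ∂gs N β - (∫ v, lse v ∂gs N β) ^ 2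
  wv_le : ∀ (N : ℕ) (β : ℝ) k, 0 ≤ β → ‖wv N β k‖ ≤ β / √(N : ℝ)
  card_le : ∀ N : ℕ, (Fintype.card (Pr N) : ℝ) ≤ (N : ℝ) ^ 2

/-- the Laplace transform of a convex function controls its variance -/
def StmtGA : Prop := ∃ C : ℝ, 0 ≤ C ∧ ∀ (S : Type) [Fintype S] [Nonempty S] (m : ℕ)
  (w : Fin m → S → ℝ) (l θ : ℝ), 0 ≤ θ → (∀ k, ‖w k‖ ≤ l) →
    θ ^ 2 * (∫ v, lse v ^ 2 ∂gn m w - (∫ v, lse v ∂gn m w) ^ 2) ≤
      C * (log (∫ v, exp (θ * lse v) ∂gn m w) - θ * ∫ v, lse v ∂gn m w + θ ^ 2 * (m * l ^ 4))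

/-- subgaussian upper bound -/
def StmtGT : Prop := ∃ C : ℝ, 0 ≤ C ∧ ∀ (S : Type) [Fintype S] [Nonempty S] (m : ℕ)
  (w : Fin m → S → ℝ) (l μ : ℝ), 0 ≤ μ → μ * l ≤ 1 → (∀ k, ‖w k‖ ≤ l) →
    log (∫ v, exp (μ * lse v) ∂gn m w) ≤ μ * ∫ v, lse v ∂gn m w + C * (m * (μ * l) ^ 2)

/-! ### The step model -/

def f0 : ℝ → ℝ := fun _ => 0

/-- one round of couplings at level `κ` -/
def skr (N κ : ℕ) (c : ℝ) : Sy Empty (Fin N) :=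
  (univ : Finset (Pr N)).val.map (fun p => (κ, none, c • pw p))

/-- `D1` rounds at the top level, `D2` rounds at level `κ`, and the fields `y` -/
def sk (n N κ D1 D2 : ℕ) (c : ℝ) (y : ℕ → ℝ) : Sy Empty (Fin N) :=
  D1 • skr N (n - 1) c + D2 • skr N κ c + fld Empty univ (ys n y)

def trunc (κ : ℕ) (P : ℕ → ℝ) (d : ℕ) : ℝ := if d ≤ κ then P d else 0

/-- concentration of the overlap at every maximiser -/
def CC (n N : ℕ) (lam e : ℝ) : Prop :=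
  ∀ (L : Sy Empty (Fin N)) (y : ℕ → ℝ), Mx n f0 L univ lam (N / lam) y →
    Conc n f0 (L + fld Empty univ (ys n y)) univ (ovl n f0 (L + fld Empty univ (ys n y)) univ) e

/-- central limit link -/
def StmtGL : Prop := ∀ (β ε : ℝ) (n N κ : ℕ), 0 ≤ β → 0 < ε → κ < n → 1 ≤ N →
  ∀ᶠ D : ℕ in atTop, |TT n (gg Empty f0) (D • skr N κ (β / √((N : ℝ) * D))) -
    ((1 - (κ : ℝ) / n)⁻¹ * log (∫ v, exp ((1 - (κ : ℝ) / n) * lse v) ∂gs N β) - N * log 2)| ≤ ε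

/-- concentration with an explicit constant -/
def StmtCN : Prop := ∃ C : ℝ, 0 ≤ C ∧ ∀ (n N : ℕ) (lam : ℝ), 1 ≤ n → 1 ≤ N → 0 < lam →
  3 * lam ≤ 1 → CC n N lam (4 / √(n : ℝ) + C * n ^ 3 * (lam + √(N / lam) / (lam * N)))

/-- the scalar inequality -/
def StmtSC : Prop := ∀ Q : ℝ, ∃ C : ℝ, 0 ≤ C ∧ ∀ (n : ℕ) (η : ℝ) (c : ℕ → ℕ) (s d : ℕ), 0 ≤ η →
  s ≤ d → d < n → η ^ 2 * cum n c s ≤ Q →
    piD n (lat n η c) d * cum n c s ≤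
      cum n c d * piD n (lat n η c) s + C * (1 - (s : ℝ) / n) * cum n c s

/-- spin cavity -/
def StmtCV : Prop := ∀ β : ℝ, ∃ C : ℝ, 0 ≤ C ∧ ∀ (n N κ D1 D2 : ℕ) (c Y e : ℝ) (y P : ℕ → ℝ)
  (τ : Fin N), κ < n → ((D1 : ℝ) + D2) * (N * c ^ 2) ≤ β ^ 2 → N * c ^ 2 ≤ 1 →
    (∀ d, d < n → |y d| ≤ Y) → n * Y ^ 2 ≤ 1 → Path n P → P 0 = 1 →
    Conc n f0 (sk n N κ D1 D2 c y) univ P e →
    ∃ V : ℝ, ∀ X : Multiset (ℕ × ℝ), (∀ s ∈ X, s.1 < n ∧ |s.2| ≤ 1) →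
      (X.map (fun s => s.2 ^ 2)).sum ≤ 1 →
      |TT n (gg Empty f0) (sk n N κ D1 D2 c y + lift none (sp τ) X) - V -
        PD n (X + (D1 • sprof n (trunc (n - 1) P) (N * c ^ 2) +
          D2 • sprof n (trunc κ P) (N * c ^ 2)))| ≤
        C * (√e + 1 / N + √(N * c ^ 2) + n * Y ^ 2)

/-- head sums of the overlap profile solve the scalar equation -/
def StmtHS : Prop := ∀ β : ℝ, ∃ C : ℝ, 0 ≤ C ∧ ∀ (n N : ℕ) (t ζ : ℝ), 1 ≤ n → 1 ≤ N → 0 < t →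
  t ≤ 1 → 0 < ζ → ∃ η0 : ℝ, 0 < η0 ∧ ∀ (κ D1 D2 : ℕ) (c Y e : ℝ) (y : ℕ → ℝ), κ < n →
    ((D1 : ℝ) + D2) * (N * c ^ 2) ≤ β ^ 2 → N * c ^ 2 ≤ η0 → (∀ d, d < n → |y d| ≤ Y) →
    n * Y ^ 2 ≤ 1 →
    Conc n f0 (sk n N κ D1 D2 c y) univ (ovl n f0 (sk n N κ D1 D2 c y) univ) e →
    ∃ (η : ℝ) (a : ℕ → ℕ), 0 ≤ η ∧
      (∀ d, d ≤ n →
        η ^ 2 * cum n a d ≤ (D1 * trunc (n - 1) (ovl n f0 (sk n N κ D1 D2 c y) univ) d +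
          D2 * trunc κ (ovl n f0 (sk n N κ D1 D2 c y) univ) d) * (N * c ^ 2) ∧
        (D1 * trunc (n - 1) (ovl n f0 (sk n N κ D1 D2 c y) univ) d +
          D2 * trunc κ (ovl n f0 (sk n N κ D1 D2 c y) univ) d) * (N * c ^ 2) ≤
          η ^ 2 * cum n a d + ζ) ∧
      ∀ k, k < n → |(1 / (n : ℝ)) * ∑ d ∈ Icc 1 k,
        (ovl n f0 (sk n N κ D1 D2 c y) univ d - piD n (lat n η a) d)| ≤
        C * ((√e + 1 / N + n * Y ^ 2) / t + √t)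

/-- the overlap at the top levels is small -/
def StmtKY : Prop := ∀ β : ℝ, 0 < β → ∃ C : ℝ, 0 ≤ C ∧ ∀ (n N j : ℕ) (t : ℝ), 1 ≤ j →
  2 * j + 1 ≤ n → 1 ≤ N → 0 < t → t ≤ 1 → ∃ η0 : ℝ, 0 < η0 ∧
    ∀ (D1 D2 : ℕ) (c Y e : ℝ) (y : ℕ → ℝ), ((D1 : ℝ) + D2) * (N * c ^ 2) = β ^ 2 →
    N * c ^ 2 ≤ η0 → (∀ d, d < n → |y d| ≤ Y) → n * Y ^ 2 ≤ 1 →
    Conc n f0 (sk n N (n - 1 - j) D1 D2 c y) univ
      (ovl n f0 (sk n N (n - 1 - j) D1 D2 c y) univ) e →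
    (D2 : ℝ) / (D1 + D2) * ((1 / (j : ℝ)) * ∑ d ∈ Ioc (n - 1 - j) (n - 1),
      ovl n f0 (sk n N (n - 1 - j) D1 D2 c y) univ d) ≤
      C * ((n : ℝ) / j * ((√e + 1 / N + n * Y ^ 2) / t + √t) + j / n)

/-- moving all couplings down by `j` levels -/
def StmtTL : Prop := ∀ β : ℝ, 0 < β → ∃ C : ℝ, 0 ≤ C ∧ ∀ (n N j : ℕ) (t lam e ε : ℝ), 1 ≤ j →
  2 * j + 1 ≤ n → 1 ≤ N → 0 < t → t ≤ 1 → 0 < lam → n * (3 * lam) ^ 2 ≤ 1 → 0 < ε → 0 ≤ e →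
    CC n N lam e → ∀ᶠ D : ℕ in atTop,
    TT n (gg Empty f0) (D • skr N (n - 1 - j) (β / √((N : ℝ) * D))) -
      TT n (gg Empty f0) (D • skr N (n - 1) (β / √((N : ℝ) * D))) ≤
      C * N * (e + j / n * √((n : ℝ) / j * ((√e + 1 / N + n * (3 * lam) ^ 2) / t + √t) + j / n) +
        n * lam ^ 2) + ε

/-- the variance bound with free parameters -/
def StmtVB : Prop := ∀ β : ℝ, 0 < β → ∃ C : ℝ, 0 ≤ C ∧ ∀ (n N j : ℕ) (t lam e : ℝ), 1 ≤ j →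
  2 * j + 1 ≤ n → 1 ≤ N → 0 < t → t ≤ 1 → 0 < lam → n * (3 * lam) ^ 2 ≤ 1 → β ≤ n → 0 ≤ e →
    CC n N lam e →
    Var[FE N β; PG N] ≤ C * N * ((e + n * lam ^ 2 + 1 / n) * (n / j) +
      √((n : ℝ) / j * ((√e + 1 / N + n * (3 * lam) ^ 2) / t + √t) + j / n)) + C

/-- the theorem -/
def StmtFin : Prop := ∀ β : ℝ, 0 < β → ∃ C : ℝ, ∀ N : ℕ, 1 ≤ N →
  Var[FE N β; PG N] ≤ C * (N : ℝ) ^ (1 - 1 / 840 : ℝ)

end

end Vale.Agent.P146
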